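import Mathlib

/-! Representations of a `ℂ`-algebra, bundled with their complex structure, and the
projective-dimension calculus for them. -/

set_option autoImplicit false
noncomputable section
namespace Crest.Agent.H5.FD
open CategoryTheory

/-- A representation of the `ℂ`-algebra `A`. -/
structure Rp (A : Type) [Ring A] [Algebra ℂ A] where
  V : Type
  [acg : AddCommGroup V]
  [md : Module ℂ V]
  ρ : A →ₐ[ℂ] Module.End ℂ V

attribute [instance] Rp.acg Rp.md

namespace Rp
variable {A : Type} [Ring A] [Algebra ℂ A]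

/-- Morphisms of representations. -/
def Hom (M N : Rp A) : Submodule ℂ (M.V →ₗ[ℂ] N.V) where
  carrier := {f | ∀ a m, f (M.ρ a m) = N.ρ a (f m)}
  add_mem' := by
    intro f g hf hg a m
    simp only [LinearMap.add_apply, map_add, hf a m, hg a m]
  zero_mem' := by intro a m; simp
  smul_mem' := by
    intro c f hf a m
    simp only [LinearMap.smul_apply, map_smul, hf a m]

lemma Hom.comm {M N : Rp A} (f : M.Hom N) (a : A) (m : M.V) :
    f.1 (M.ρ a m) = N.ρ a (f.1 m) := f.2 a m

def Hom.id (M : Rp A) : M.Hom M := ⟨LinearMap.id, fun _ _ => rfl⟩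

def Hom.comp {M N P : Rp A} (g : N.Hom P) (f : M.Hom N) : M.Hom P :=
  ⟨g.1 ∘ₗ f.1, fun a m => by simp only [LinearMap.comp_apply, Hom.comm]⟩

lemma ρ_mul (M : Rp A) (a b : A) (m : M.V) : M.ρ (a * b) m = M.ρ a (M.ρ b m) := by
  rw [map_mul]; rfl

/-- The underlying `A`-module. -/
def Car (M : Rp A) : Type := M.V

instance (M : Rp A) : AddCommGroup M.Car := M.acg
instance (M : Rp A) : Module A M.Car :=
  Module.compHom M.V (M.ρ : A →+* Module.End ℂ M.V)

lemma car_smul (M : Rp A) (a : A) (m : M.Car) : a • m = (M.ρ a (m : M.V) : M.V) := rfl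

def Hom.lin {M N : Rp A} (f : M.Hom N) : M.Car →ₗ[A] N.Car where
  toFun := fun m => f.1 m
  map_add' := fun x y => f.1.map_add x y
  map_smul' := fun a m => f.2 a m

def cat (M : Rp A) : ModuleCat.{0} A := ModuleCat.of A M.Car

/-- Projective dimension `< n`. -/
def PL (M : Rp A) (n : ℕ) : Prop := HasProjectiveDimensionLT M.cat n

lemma finite_car (M : Rp A) [Module.Finite ℂ M.V] : Module.Finite A M.cat := by
  obtain ⟨s, hs⟩ := Module.Finite.fg_top (R := ℂ) (M := M.V)
  refine ⟨⟨(s : Finset M.Car), ?_⟩⟩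
  rw [eq_top_iff]
  have key : ∀ m : M.V, m ∈ Submodule.span ℂ (s : Set M.V) →
      (m : M.Car) ∈ Submodule.span A (M := M.Car) (s : Set M.V) := by
    intro m hm
    induction hm using Submodule.span_induction with
    | mem x hx => exact Submodule.subset_span hx
    | zero => exact Submodule.zero_mem _
    | add x y _ _ hx hy => exact Submodule.add_mem _ hx hy
    | smul c x _ hx =>
      have : (c • x : M.V) = M.ρ (algebraMap ℂ A c) x := by
        rw [AlgHom.commutes]; rfl
      rw [this]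
      exact Submodule.smul_mem (R := A) (M := M.Car) _ (algebraMap ℂ A c) hx
  intro m _
  exact key m (by rw [hs]; trivial)

/-- A short exact sequence of representations. -/
structure SES {M N P : Rp A} (f : M.Hom N) (g : N.Hom P) : Prop where
  inj : Function.Injective f.1
  surj : Function.Surjective g.1
  ex : Function.Exact f.1 g.1

def SES.cx {M N P : Rp A} {f : M.Hom N} {g : N.Hom P} (h : SES f g) :
    ShortComplex (ModuleCat.{0} A) :=
  ShortComplex.mk (X₁ := M.cat) (X₂ := N.cat) (X₃ := P.cat)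
    (ModuleCat.ofHom (Hom.lin f)) (ModuleCat.ofHom (Hom.lin g)) (by
      ext m
      exact h.ex.apply_apply_eq_zero m)

lemma SES.shortExact {M N P : Rp A} {f : M.Hom N} {g : N.Hom P} (h : SES f g) :
    h.cx.ShortExact :=
  ModuleCat.shortComplex_shortExact _ h.ex h.inj h.surj

lemma SES.pl₂ {M N P : Rp A} {f : M.Hom N} {g : N.Hom P} (h : SES f g) {n : ℕ}
    (h1 : M.PL n) (h3 : P.PL n) : N.PL n :=
  h.shortExact.hasProjectiveDimensionLT_X₂ n h1 h3

lemma SES.pl₃ {M N P : Rp A} {f : M.Hom N} {g : N.Hom P} (h : SES f g) {n : ℕ}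
    (h1 : M.PL n) (h2 : N.PL (n + 1)) : P.PL (n + 1) :=
  h.shortExact.hasProjectiveDimensionLT_X₃ n h1 h2

lemma SES.pl₁ {M N P : Rp A} {f : M.Hom N} {g : N.Hom P} (h : SES f g) {n : ℕ}
    (h2 : N.PL n) (h3 : P.PL (n + 1)) : M.PL n :=
  h.shortExact.hasProjectiveDimensionLT_X₁ n h2 h3

lemma PL.mono {M : Rp A} {n m : ℕ} (h : M.PL n) (hnm : n ≤ m) : M.PL m := by
  have : HasProjectiveDimensionLT M.cat n := h
  exact hasProjectiveDimensionLT_of_ge M.cat n m hnm

lemma PL.retract {M N : Rp A} {n : ℕ} (h : N.PL n) (i : M.Hom N) (r : N.Hom M)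
    (hri : ∀ m, r.1 (i.1 m) = m) : M.PL n := by
  have : HasProjectiveDimensionLT N.cat n := h
  let R : Retract M.cat N.cat :=
    { i := ModuleCat.ofHom (Hom.lin i)
      r := ModuleCat.ofHom (Hom.lin r)
      retract := by ext m; exact hri m }
  exact R.hasProjectiveDimensionLT n

lemma pl_zero (M : Rp A) (h : ∀ m : M.V, m = 0) : M.PL 0 := by
  have : Subsingleton M.cat := ⟨fun x y => (h x).trans (h y).symm⟩
  exact (ModuleCat.isZero_of_subsingleton M.cat).hasProjectiveDimensionLT_zero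

/-- The regular representation. -/
abbrev reg (A : Type) [Ring A] [Algebra ℂ A] : Rp A := ⟨A, Algebra.lmul ℂ A⟩

lemma reg_ρ (a b : A) : (reg A).ρ a b = a * b := rfl

@[simp] lemma lmul_ap (a b : A) : Algebra.lmul ℂ A a b = a * b := rfl

lemma pl_reg : (reg A).PL 1 := by
  let e : (reg A).Car ≃ₗ[A] A :=
    { toFun := fun x => x
      invFun := fun x => x
      map_add' := fun _ _ => rfl
      map_smul' := fun _ _ => rfl
      left_inv := fun _ => rfl
      right_inv := fun _ => rfl }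
  have : Module.Projective A (reg A).Car := Module.Projective.of_equiv e.symm
  have : Projective (reg A).cat := (IsProjective.iff_projective (R := A) (reg A).Car).1 inferInstance
  exact (inferInstance : HasProjectiveDimensionLT (reg A).cat 1)

/-- The orbit map `a ↦ a • m`. -/
def orb (M : Rp A) : M.V →ₗ[ℂ] (reg A).Hom M where
  toFun := fun m => ⟨{ toFun := fun a => M.ρ a m
                       map_add' := fun a b => by
                         change M.ρ (a + b) m = _
                         rw [map_add]; rfl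
                       map_smul' := fun c a => by
                         change M.ρ (c • a) m = _
                         rw [map_smul]; rfl },
    fun a b => M.ρ_mul a b m⟩
  map_add' := fun x y => by
    apply Subtype.ext; ext a; exact map_add (M.ρ a) x y
  map_smul' := fun c x => by
    apply Subtype.ext; ext a; exact map_smul (M.ρ a) c x

@[simp] lemma orb_apply (M : Rp A) (m : M.V) (a : A) : (M.orb m).1 a = M.ρ a m := rfl

/-- Restriction along an algebra map. -/
abbrev res {A' : Type} [Ring A'] [Algebra ℂ A'] (φ : A' →ₐ[ℂ] A) (M : Rp A) : Rp A' :=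
  ⟨M.V, M.ρ.comp φ⟩

def Hom.res {A' : Type} [Ring A'] [Algebra ℂ A'] (φ : A' →ₐ[ℂ] A) {M N : Rp A} (f : M.Hom N) :
    (M.res φ).Hom (N.res φ) := ⟨f.1, fun a m => f.2 (φ a) m⟩

lemma SES.res {A' : Type} [Ring A'] [Algebra ℂ A'] (φ : A' →ₐ[ℂ] A) {M N P : Rp A}
    {f : M.Hom N} {g : N.Hom P} (h : SES f g) : SES (Hom.res φ f) (Hom.res φ g) :=
  ⟨h.inj, h.surj, h.ex⟩

/-- Subrepresentation. -/
abbrev sub (M : Rp A) (U : Submodule ℂ M.V) (h : ∀ a, ∀ u ∈ U, M.ρ a u ∈ U) : Rp A where
  V := U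
  ρ := { toFun := fun a => (M.ρ a).restrict (h a)
         map_one' := by ext u; simp
         map_mul' := fun a b => by ext u; simp
         map_zero' := by ext u; simp
         map_add' := fun a b => by ext u; simp
         commutes' := fun c => by ext u; simp [Algebra.algebraMap_eq_smul_one] }

def subι (M : Rp A) (U : Submodule ℂ M.V) (h : ∀ a, ∀ u ∈ U, M.ρ a u ∈ U) :
    (M.sub U h).Hom M := ⟨U.subtype, fun _ _ => rfl⟩

/-- Quotient representation. -/
abbrev quo (M : Rp A) (U : Submodule ℂ M.V) (h : ∀ a, ∀ u ∈ U, M.ρ a u ∈ U) : Rp A where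
  V := M.V ⧸ U
  ρ := { toFun := fun a => U.mapQ U (M.ρ a) (h a)
         map_one' := by ext u; simp
         map_mul' := fun a b => by ext u; simp
         map_zero' := by ext u; simp
         map_add' := fun a b => by ext u; simp
         commutes' := fun c => by ext u; simp [Algebra.algebraMap_eq_smul_one] }

def quoπ (M : Rp A) (U : Submodule ℂ M.V) (h : ∀ a, ∀ u ∈ U, M.ρ a u ∈ U) :
    M.Hom (M.quo U h) := ⟨U.mkQ, fun _ _ => rfl⟩

lemma ses_sub_quo (M : Rp A) (U : Submodule ℂ M.V) (h : ∀ a, ∀ u ∈ U, M.ρ a u ∈ U) :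
    SES (M.subι U h) (M.quoπ U h) :=
  ⟨Subtype.val_injective, U.mkQ_surjective, LinearMap.exact_subtype_mkQ U⟩

lemma ker_inv {M N : Rp A} (f : M.Hom N) : ∀ a, ∀ u ∈ LinearMap.ker f.1,
    M.ρ a u ∈ LinearMap.ker f.1 := by
  intro a u hu
  rw [LinearMap.mem_ker] at hu ⊢
  rw [Hom.comm, hu, map_zero]

lemma range_inv {M N : Rp A} (f : M.Hom N) : ∀ a, ∀ u ∈ LinearMap.range f.1,
    N.ρ a u ∈ LinearMap.range f.1 := by
  rintro a _ ⟨m, rfl⟩
  exact ⟨M.ρ a m, Hom.comm f a m⟩

abbrev kerR {M N : Rp A} (f : M.Hom N) : Rp A := M.sub _ (ker_inv f)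
abbrev ranR {M N : Rp A} (f : M.Hom N) : Rp A := N.sub _ (range_inv f)
abbrev cokR {M N : Rp A} (f : M.Hom N) : Rp A := N.quo _ (range_inv f)

def toRan {M N : Rp A} (f : M.Hom N) : M.Hom (ranR f) :=
  ⟨f.1.rangeRestrict, fun a m => Subtype.ext (Hom.comm f a m)⟩

lemma ses_ker {M N : Rp A} (f : M.Hom N) (hf : Function.Surjective f.1) :
    SES (M.subι _ (ker_inv f)) f :=
  ⟨Subtype.val_injective, hf, LinearMap.exact_subtype_ker_map f.1⟩

lemma ses_ker_ran {M N : Rp A} (f : M.Hom N) : SES (M.subι _ (ker_inv f)) (toRan f) := by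
  refine ⟨Subtype.val_injective, f.1.surjective_rangeRestrict, ?_⟩
  intro m
  constructor
  · intro hm
    exact ⟨⟨m, congrArg Subtype.val hm⟩, rfl⟩
  · rintro ⟨⟨x, hx⟩, rfl⟩
    exact Subtype.ext hx

lemma ses_cok {M N : Rp A} (f : M.Hom N) (hf : Function.Injective f.1) :
    SES f (N.quoπ _ (range_inv f)) := by
  refine ⟨hf, (LinearMap.range f.1).mkQ_surjective, ?_⟩
  intro y
  change (LinearMap.range f.1).mkQ y = 0 ↔ _
  rw [Submodule.mkQ_apply, Submodule.Quotient.mk_eq_zero]
  rfl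

/-- Direct sum of two representations. -/
abbrev prod (M N : Rp A) : Rp A where
  V := M.V × N.V
  ρ := (LinearMap.prodMapAlgHom ℂ M.V N.V).comp (M.ρ.prod N.ρ)

@[simp] lemma prod_ρ (M N : Rp A) (a : A) (y : M.V × N.V) :
    (M.prod N).ρ a y = (M.ρ a y.1, N.ρ a y.2) := rfl

def inlH (M N : Rp A) : M.Hom (M.prod N) :=
  ⟨LinearMap.inl ℂ M.V N.V, fun a m => by
    change (M.ρ a m, (0 : N.V)) = (M.ρ a m, N.ρ a 0); rw [map_zero]⟩
def inrH (M N : Rp A) : N.Hom (M.prod N) :=
  ⟨LinearMap.inr ℂ M.V N.V, fun a m => by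
    change ((0 : M.V), N.ρ a m) = (M.ρ a 0, N.ρ a m); rw [map_zero]⟩
def sndH (M N : Rp A) : (M.prod N).Hom N := ⟨LinearMap.snd ℂ M.V N.V, fun _ _ => rfl⟩

lemma ses_prod (M N : Rp A) : SES (inlH M N) (sndH M N) :=
  ⟨LinearMap.inl_injective, LinearMap.snd_surjective, Function.Exact.inl_snd⟩

lemma PL.of_prod_right {M N : Rp A} {n : ℕ} (h : (M.prod N).PL n) : N.PL n :=
  h.retract (inrH M N) (sndH M N) (fun _ => rfl)

/-- A cyclic representation with a suitable map to the regular one is projective. -/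
lemma pl_one_of_gen (G : Rp A) (γ : G.V) (s : G.Hom (reg A))
    (hgen : ∀ y : G.V, ∃ a, G.ρ a γ = y) (hs : G.ρ (s.1 γ) γ = γ) : G.PL 1 := by
  refine pl_reg.retract s (G.orb γ) ?_
  intro y
  obtain ⟨a, rfl⟩ := hgen y
  rw [Hom.comm, orb_apply, reg_ρ, ρ_mul, hs]

end Rp
end Crest.Agent.H5.FD
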