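import Crest.Agent.H5.FD.F9

/-! The system of natural resolutions. -/

set_option autoImplicit false
set_option linter.unusedVariables false
set_option linter.unusedSectionVars false
noncomputable section
namespace Crest.Agent.H5.FD
open Rp GC

variable {B : Type} [Ring B] [Algebra ℂ B] {V : Type} [Fintype V] [DecidableEq V]
  {Rl : Type} [Fintype Rl]

def rbar (ρ : Tri (Option V)) : FA V := ρ.ev fun g g' => bar g * bar g'

lemma rbar_mem (ρ : Tri (Option V)) : rbar ρ ∈ Fk V 2 :=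
  ρ.ev_mem _ _ fun g g' => Fk_mul (bar_mem g) (bar_mem g') le_rfl

def Sk (rc : Rl → Tri (Option V)) (k : ℕ) : Submodule ℂ (FA V) :=
  Submodule.span ℂ (Set.range fun x : (Wd V k × Rl) × Wd V k =>
    wd x.1.1.1 * rbar (rc x.1.2) * wd x.2.1)

/-- Three functors with natural maps satisfying the relations. -/
structure Q3 (B : Type) [Ring B] [Algebra ℂ B] (rc : Rl → Tri (Option V)) where
  F0 : NF B
  F1 : NF B
  F2 : NF B
  a : Option V → F0.Hom F1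
  b : Option V → F1.Hom F2
  cen : ∀ g M m, (b g).1 M ((a none).1 M m) = (b none).1 M ((a g).1 M m)
  rel : ∀ ρ M m, (rc ρ).ev (fun g g' => (b g).1 M ((a g').1 M m)) = 0

namespace Q3
variable {rc : Rl → Tri (Option V)} (Q : Q3 B rc)

abbrev T1 (l : ℕ) : NF B := NF.pi (Wd V l) (NF.pi V Q.F1)
abbrev T0 (l : ℕ) : NF B := NF.pi (Wd V (l + 1)) Q.F2

def δH (l : ℕ) : (Q.T1 l).Hom (Q.T0 l) :=
  ⟨fun M => dT (fun g => (Q.b g).1 M) l, fun M N f y =>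
    dT_nat _ _ (Q.F1.map f) (Q.F2.map f) (fun g m => (Q.b g).2 M N f m) l y⟩

abbrev T (l : ℕ) : GC B := cone (ofHom (Q.δH l))

lemma T_d (l : ℕ) (M : Rp B) (y : (Wd V l → V → Q.F1.obj M) × (Wd V (l + 1) → Q.F2.obj M)) :
    (Q.T l).d.1 M y = (0, dT (fun g => (Q.b g).1 M) l y.1) := by
  rw [cone_d]
  exact Prod.ext neg_zero (add_zero _)

def muH (F : NF B) (k l : ℕ) (x : FA V) : (NF.pi (Wd V k) F).Hom (NF.pi (Wd V l) F) :=
  ⟨fun M => mu k l _ x, fun M N f y => mu_nat k l x (F.map f) y⟩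

def muT {k l e : ℕ} {x : FA V} (hx : x ∈ Fk V e) (h : e + k ≤ l) : CM (Q.T k) (Q.T l) :=
  coneMap _ _ (ofHom (muH _ k l x)) (ofHom (muH _ (k + 1) (l + 1) x))
    (fun M y => dT_mu _ hx h y)

lemma muT_ap {k l e : ℕ} {x : FA V} (hx : x ∈ Fk V e) (h : e + k ≤ l) (M : Rp B)
    (y : (Wd V k → V → Q.F1.obj M) × (Wd V (k + 1) → Q.F2.obj M)) :
    (Q.muT hx h).1 M y = (mu k l _ x y.1, mu (k + 1) (l + 1) _ x y.2) := by
  rw [muT, coneMap_val]; rfl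

def tauH (l : ℕ) (c : FA V) : Q.F0.Hom (Q.T0 l) :=
  ⟨fun M => sg _ _ c ∘ₗ (Q.b none).1 M ∘ₗ (Q.a none).1 M, fun M N f y => by
    change sg _ _ c ((Q.b none).1 N ((Q.a none).1 N (Q.F0.map f y))) =
      (Q.F2.map f).compLeft _ (sg _ _ c _)
    rw [sg_nat, (Q.a none).2, (Q.b none).2]; rfl⟩

def tau (l : ℕ) (c : FA V) : CM (single Q.F0) (Q.T l) := CM.comp (cin _) (ofHom (Q.tauH l c))

/-- `τ` at a fixed representation, as a linear function of the polynomial. -/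
def tauL (l : ℕ) (M : Rp B) (m : Q.F0.obj M) : FA V →ₗ[ℂ] (Q.T l).X.obj M :=
  LinearMap.inr ℂ _ _ ∘ₗ (sg (l + 1) _).flip ((Q.b none).1 M ((Q.a none).1 M m))

lemma tau_ap (l : ℕ) (c : FA V) (M : Rp B) (m : Q.F0.obj M) :
    (Q.tau l c).1 M m = Q.tauL l M m c := rfl

lemma tauL_ap (l : ℕ) (c : FA V) (M : Rp B) (m : Q.F0.obj M) :
    Q.tauL l M m c = (0, sg _ _ c ((Q.b none).1 M ((Q.a none).1 M m))) := rfl

lemma muT_tauL {k l e : ℕ} {x : FA V} (hx : x ∈ Fk V e) (h : e + k ≤ l) {c : FA V}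
    (hc : c ∈ Fk V (k + 1)) (M : Rp B) (m : Q.F0.obj M) :
    (Q.muT hx h).1 M (Q.tauL k M m c) = Q.tauL l M m (x * c) := by
  rw [tauL_ap, muT_ap, mu_sg _ _ hc, map_zero]; rfl

def zz (l : ℕ) (c : FA V) (g g' : Option V) : Q.F0.Hom (Q.T1 l) :=
  ⟨fun M => sg _ _ (c * bar g) ∘ₗ cel _ g' ∘ₗ (Q.a none).1 M + sg _ _ c ∘ₗ cel _ g ∘ₗ (Q.a g').1 M,
    fun M N f y => by
    change sg _ _ (c * bar g) (cel _ g' ((Q.a none).1 N (Q.F0.map f y))) +
      sg _ _ c (cel _ g ((Q.a g').1 N (Q.F0.map f y))) =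
      ((Q.F1.map f).compLeft V).compLeft _ (sg _ _ (c * bar g) (cel _ g' ((Q.a none).1 M y)) +
        sg _ _ c (cel _ g ((Q.a g').1 M y)))
    rw [map_add, sg_nat, sg_nat, cel_nat, cel_nat, (Q.a none).2, (Q.a g').2]⟩

lemma dT_zz {k l : ℕ} {c : FA V} (hc : c ∈ Fk V k) (h : k + 1 ≤ l) (g g' : Option V) (M : Rp B)
    (m : Q.F0.obj M) : dT (fun g => (Q.b g).1 M) l ((Q.zz l c g g').1 M m) =
      sg _ _ (c * (bar g * bar g')) ((Q.b none).1 M ((Q.a none).1 M m)) -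
        sg _ _ c ((Q.b g).1 M ((Q.a g').1 M m)) := by
  change dT (fun g => (Q.b g).1 M) l (sg _ _ (c * bar g) (cel _ g' ((Q.a none).1 M m)) +
        sg _ _ c (cel _ g ((Q.a g').1 M m))) = _
  rw [map_add, dT_sg _ (Fk_mul hc (bar_mem g) h), dT_sg _ (Fk_mono (by omega) hc), dl_cel, dl_cel,
    Q.cen g', mul_assoc]
  abel

lemma dT_z {k l : ℕ} {c : FA V} (hc : c ∈ Fk V k) (h : k + 1 ≤ l) (ρ : Rl) (M : Rp B)
    (m : Q.F0.obj M) : dT (fun g => (Q.b g).1 M) l (((rc ρ).ev (Q.zz l c)).1 M m) =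
      sg _ _ (c * rbar (rc ρ)) ((Q.b none).1 M ((Q.a none).1 M m)) := by
  have h1 : ((rc ρ).ev (Q.zz l c)).1 M m = (rc ρ).ev (fun g g' => (Q.zz l c g g').1 M m) := rfl
  have h2 := (rc ρ).map_ev (sg (V := V) (l + 1) _ c)
    (fun g g' => (Q.b g).1 M ((Q.a g').1 M m))
  rw [Q.rel, map_zero] at h2
  rw [h1, Tri.map_ev]
  simp only [Q.dT_zz hc h]
  simp only [Tri.ev, rbar] at h2 ⊢
  simp only [mul_add, mul_sub, mul_smul_comm, map_add, map_sub, map_smul, LinearMap.add_apply,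
    LinearMap.sub_apply, LinearMap.smul_apply, smul_sub]
  linear_combination (norm := module) h2

def ψ (k : ℕ) (x : Wd V k × Rl) : CM (cone (Q.tau k 1)) (Q.T (2 * k + 2)) :=
  coneDesc _ (Ht.rcomp (chom _) (ofHom ((rc x.2).ev (Q.zz _ (wd x.1.1)))))
    (Q.muT (Fk_mul (wd_mem x.1.2) (rbar_mem (rc x.2)) le_rfl) (by omega)) (fun M m => by
      rw [tau_ap, Q.muT_tauL _ _ (one_mem_Fk _), mul_one, T_d, tauL_ap]
      refine (congrArg₂ (· + ·) rfl (map_zero _)).trans ((add_zero _).trans ?_)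
      exact Prod.ext rfl (Q.dT_z (wd_mem x.1.2) (by omega) x.2 M m))

lemma ψ_in (k : ℕ) (x : Wd V k × Rl) (M : Rp B) (y : (Q.T k).X.obj M) :
    (Q.ψ k x).1 M (0, y) =
      (Q.muT (Fk_mul (wd_mem x.1.2) (rbar_mem (rc x.2)) le_rfl) (by omega)).1 M y := by
  rw [ψ, coneDesc_val, LinearMap.coprod_apply, map_zero, zero_add]

def Ψ (k : ℕ) : CM (pi (Wd V k × Rl) (cone (Q.tau k 1))) (Q.T (2 * k + 2)) :=
  ∑ x, CM.comp (Q.ψ k x) (prj _ x)

abbrev Y2 (k : ℕ) : GC B := cone (Q.Ψ k)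

lemma null (k : ℕ) (r : FA V) (hr : r ∈ Sk rc k) : ∃ η : Ht (single Q.F0) (Q.Y2 k),
    ∀ M m, (Q.Y2 k).d.1 M (η.1 M m) = (0, Q.tauL _ M m r) := by
  induction hr using Submodule.span_induction with
  | mem r hr =>
    obtain ⟨⟨x, w⟩, rfl⟩ := hr
    refine ⟨Ht.rcomp (chom _) (CM.comp (sgl _ x) (CM.comp (cin _) (Q.tau k (wd w.1)))),
      fun M m => ?_⟩
    rw [cone_d]
    refine Prod.ext ?_ ?_
    · change -((pi _ (cone (Q.tau k 1))).d.1 M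
        ((CM.comp (sgl _ x) (CM.comp (cin _) (Q.tau k (wd w.1)))).1 M m)) = 0
      rw [← CM.cd]
      change -((CM.comp (sgl _ x) (CM.comp (cin _) (Q.tau k (wd w.1)))).1 M 0) = 0
      rw [map_zero, neg_zero]
    · change (Q.Ψ k).1 M ((sgl _ x).1 M (0, Q.tauL k M m (wd w.1))) + (Q.T _).d.1 M 0 = _
      rw [map_zero, add_zero, Ψ, CM.sum_ap]
      refine (sum_sgl x M _ (fun j z => (Q.ψ k j).1 M z) (fun j => map_zero _)).trans ?_
      rw [ψ_in, Q.muT_tauL _ _ (wd_mem (w.2.trans (Nat.le_succ _)))]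
  | zero => exact ⟨0, fun M m => by rw [map_zero]; exact map_zero _⟩
  | add x y _ _ hx hy =>
    obtain ⟨η, h⟩ := hx
    obtain ⟨η', h'⟩ := hy
    refine ⟨η + η', fun M m => ?_⟩
    change (Q.Y2 k).d.1 M (η.1 M m + η'.1 M m) = _
    rw [map_add, h, h', map_add]
    exact Prod.ext (add_zero _) rfl
  | smul c x _ hx =>
    obtain ⟨η, h⟩ := hx
    refine ⟨c • η, fun M m => ?_⟩
    change (Q.Y2 k).d.1 M (c • η.1 M m) = _
    rw [map_smul, h, map_smul]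
    exact Prod.ext (smul_zero _) rfl

variable {J I : Type} [Fintype J] [Fintype I] (k : ℕ) (w : J → FA V) (hw : ∀ j, w j ∈ Fk V k)
  (s : I → FA V) (c : J → J → I → ℂ) (hc : ∀ j j', ∑ i, c j j' i • s i - w j * w j' ∈ Sk rc k)

abbrev Y1 : GC B := glue (CM.id (single Q.F0)) (fun j => Q.tau k (w j))

def γ (i : I) : CM (single Q.F0) (Q.Y2 k) := CM.comp (cin _) (Q.tau _ (s i))

def β (j j' : J) : CM (single Q.F0) (Q.Y2 k) := ∑ i, c j j' i • Q.γ k s i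

lemma β_ap (j j' : J) (M : Rp B) (m : Q.F0.obj M) :
    (Q.β k s c j j').1 M m = (0, Q.tauL _ M m (∑ i, c j j' i • s i)) := by
  rw [β, CM.sum_ap, map_sum]
  refine Prod.ext ?_ ?_
  · rw [Prod.fst_sum]; exact Finset.sum_eq_zero fun i _ => smul_zero _
  · rw [Prod.snd_sum]; exact Finset.sum_congr rfl fun i _ => (map_smul (Q.tauL _ M m) _ _).symm

def η (j j' : J) : Ht (single Q.F0) (Q.Y2 k) := (Q.null k _ (hc j j')).choose

lemma η_d (j j' : J) (M : Rp B) (m : Q.F0.obj M) : (Q.Y2 k).d.1 M ((Q.η k w s c hc j j').1 M m) =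
    (0, Q.tauL _ M m (∑ i, c j j' i • s i - w j * w j')) := (Q.null k _ (hc j j')).choose_spec M m

def bg (j : J) : CM ((pi J (single Q.F0)).prod (Q.T k)) (Q.Y2 k) :=
  ∑ j', CM.comp (Q.β k s c j j') (CM.comp (prj _ j') (fst _ _)) +
    CM.comp (cin _) (CM.comp (Q.muT (hw j) (by omega)) (snd _ _))

lemma bg_ap (j : J) (M : Rp B) (y : (J → Q.F0.obj M) × (Q.T k).X.obj M) :
    (Q.bg k w hw s c j).1 M y = ∑ j', (Q.β k s c j j').1 M (y.1 j') +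
      (cin (Q.Ψ k)).1 M ((Q.muT (hw j) (by omega)).1 M y.2) := by
  change (∑ j', CM.comp (Q.β k s c j j') (CM.comp (prj _ j') (fst _ (Q.T k)))).1 M y + _ = _
  rw [CM.sum_ap]; rfl

def b2 (j : J) : CM (Q.Y1 k w) (Q.Y2 k) :=
  coneDesc _ (∑ j', Ht.rcomp (Q.η k w s c hc j j') (prj _ j')) (Q.bg k w hw s c j) (fun M y => by
    have h0 : (pi J (single Q.F0)).d.1 M y = 0 := rfl
    rw [h0, map_zero, add_zero, Ht.sum_ap, map_sum, glueV_ap, bg_ap, map_neg, map_neg, map_sum,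
      map_sum, ← sub_eq_add_neg, ← Finset.sum_sub_distrib]
    refine Finset.sum_congr rfl fun j' _ => ?_
    refine (Q.η_d k w s c hc j j' M (y j')).trans ?_
    rw [β_ap, tau_ap, Q.muT_tauL _ _ (Fk_mono (Nat.le_succ _) (hw j')), map_sub]
    exact Prod.ext (sub_zero _).symm rfl)

def sys : Sys B c where
  Y0 := single Q.F0
  Y1 := Q.Y1 k w
  Y2 := Q.Y2 k
  a := glIn _ _
  b := Q.b2 k w hw s c hc
  γ := Q.γ k s
  hba := fun j j' M m => by
    rw [glIn_ap, b2, coneDesc_val, LinearMap.coprod_apply, map_zero, zero_add, bg_ap, map_zero,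
      map_zero, add_zero]
    refine (sum_sgl j' M m (fun i x => (Q.β k s c j i).1 M x) (fun i => map_zero _)).trans ?_
    rw [β, CM.sum_ap]; rfl

lemma bdd_T (l : ℕ) : (Q.T l).Bdd 2 := (bdd_single _).cone (bdd_single _).succ _

lemma sys_b0 : (Q.sys k w hw s c hc).Y0.Bdd 1 := bdd_single _
lemma sys_b1 : (Q.sys k w hw s c hc).Y1.Bdd 2 :=
  ((bdd_single _).pi).cone (((bdd_single _).succ.pi).prod (Q.bdd_T k)) _
lemma sys_b2 : (Q.sys k w hw s c hc).Y2.Bdd 3 :=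
  (((bdd_single _).cone (Q.bdd_T k) _).pi).cone (Q.bdd_T _).succ _

section good
variable {N : Type} [AddCommGroup N] [Module ℂ N] (ν : FA V →ₐ[ℂ] Module.End ℂ N) {M : Rp B}
  (e0 : Q.F0.obj M ≃ₗ[ℂ] N) (e1 : Q.F1.obj M ≃ₗ[ℂ] N) (e2 : Q.F2.obj M ≃ₗ[ℂ] N)
  (ha : ∀ g m, e1 ((Q.a g).1 M m) = ν (bar g) (e0 m))
  (hb : ∀ g m, e2 ((Q.b g).1 M m) = ν (bar g) (e1 m))

def εQ (l : ℕ) : (Q.T l).X.obj M →ₗ[ℂ] N := εT ν e2 (l + 1) ∘ₗ LinearMap.snd ℂ _ _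

include hb in
lemma res_T (l : ℕ) : Res (Q.T l) M (Q.εQ ν e2 l) := by
  refine ⟨fun n => ⟨(0, sg _ _ 1 (e2.symm n)), ?_⟩, fun y => rfl, fun y => ?_, fun y hd hy => ?_⟩
  · change εT ν e2 (l + 1) (sg _ _ 1 (e2.symm n)) = n
    rw [εT_sg _ _ (one_mem_Fk _)]; simp
  · rw [T_d]; exact εT_dT _ ν e1 e2 hb l _
  · rw [T_d] at hd
    have h1 : y.1 = 0 := by
      have h2 : dT (fun g => (Q.b g).1 M) l y.1 = 0 := congrArg Prod.snd hd
      rw [← sT_dT _ ν e1 e2 hb l y.1, h2, map_zero]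
    refine ⟨(sT ν e1 e2 l y.2, 0), ?_⟩
    rw [T_d]
    exact Prod.ext h1.symm (dT_sT _ ν e1 e2 hb l y.2 hy)

include ha hb in
lemma εQ_tauL (l : ℕ) {x : FA V} (hx : x ∈ Fk V (l + 1)) (m : Q.F0.obj M) :
    Q.εQ ν e2 l (Q.tauL l M m x) = ν x (e0 m) := by
  change εT ν e2 (l + 1) (sg _ _ x _) = _
  rw [εT_sg _ _ hx, hb, ha]; simp [bar]

include ha hb in
lemma ν_Sk (r : FA V) (hr : r ∈ Sk rc k) : ν r = 0 := by
  have h0 : ∀ ρ, ν (rbar (rc ρ)) = 0 := fun ρ => by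
    refine LinearMap.ext fun n => ?_
    obtain ⟨m, rfl⟩ := e0.surjective n
    have h1 := (rc ρ).map_ev e2.toLinearMap (fun g g' => (Q.b g).1 M ((Q.a g').1 M m))
    rw [Q.rel, map_zero] at h1
    simp only [LinearEquiv.coe_coe, hb, ha] at h1
    simpa [rbar, Tri.ev] using h1.symm
  induction hr using Submodule.span_induction with
  | mem r hr => obtain ⟨x, rfl⟩ := hr; simp [h0]
  | zero => simp
  | add x y _ _ hx hy => rw [map_add, hx, hy, add_zero]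
  | smul c x _ hx => rw [map_smul, hx, smul_zero]

def good (hs : ∀ i, s i ∈ Fk V (2 * k + 2 + 1)) :
    (Q.sys k w hw s c hc).Good M (fun j => ν (w j)) (fun i => ν (s i)) where
  ε0 := e0.toLinearMap
  ε1 := glε _ _ M (fun j => ν (w j)) e0.toLinearMap (Q.εQ ν e2 k)
  ε2 := Q.εQ ν e2 _ ∘ₗ LinearMap.snd ℂ _ _
  r0 := res_single _ e0
  r1 := res_glue _ _ _ (res_single _ e0) (res_single _ e0) (Q.res_T ν e1 e2 hb k) (fun y => rfl)
    (fun j y => Q.εQ_tauL ν e0 e1 e2 ha hb k (Fk_mono (Nat.le_succ _) (hw j)) y)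
  r2 := res_cone _ (Acy.pi (acy_cone _ (res_single _ e0) (Q.res_T ν e1 e2 hb k) (fun y => by
    refine (Q.εQ_tauL ν e0 e1 e2 ha hb k (one_mem_Fk _) y).trans ?_
    simp))) (Q.res_T ν e1 e2 hb _)
  ha := fun j y => glε_in _ _ M _ _ _ j y
  hγ := fun i y => Q.εQ_tauL ν e0 e1 e2 ha hb _ (hs i) y
  hb := fun j y => by
    let ε2 : (Q.Y2 k).X.obj M →ₗ[ℂ] N := Q.εQ ν e2 _ ∘ₗ LinearMap.snd ℂ _ _
    have h1 : ∀ j' m, ε2 ((Q.η k w s c hc j j').1 M m) = 0 := fun j' m => by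
      have : ε2 (((Q.Y2 k).gr 0).1 M ((Q.η k w s c hc j j').1 M m)) =
        ε2 ((Q.η k w s c hc j j').1 M m) := rfl
      rw [← this, Ht.g0, map_zero]
    have h2 : ∀ j' m, ε2 ((Q.β k s c j j').1 M m) = ν (w j) (ν (w j') (e0 m)) := fun j' m => by
      rw [β_ap]
      refine (Q.εQ_tauL ν e0 e1 e2 ha hb _ (Submodule.sum_mem _ fun i _ =>
        Submodule.smul_mem _ _ (hs i)) m).trans ?_
      have := Q.ν_Sk k ν e0 e1 e2 ha hb _ (hc j j')
      rw [map_sub, sub_eq_zero] at this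
      rw [this, map_mul]; rfl
    change ε2 ((Q.b2 k w hw s c hc j).1 M y) =
      ν (w j) (glε _ _ M (fun j => ν (w j)) e0.toLinearMap (Q.εQ ν e2 k) y)
    rw [glε_ap, b2, coneDesc_val, LinearMap.coprod_apply, Ht.sum_ap, bg_ap, map_add, map_add,
      map_add, map_sum, map_sum, map_sum]
    refine (congrArg₂ (· + ·) (Finset.sum_eq_zero (fun j' _ => h1 j' _)) rfl).trans
      ((zero_add _).trans (congrArg₂ (· + ·) (Finset.sum_congr rfl (fun j' _ => h2 j' _)) ?_))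
    rw [muT_ap]
    exact εT_mu ν e2 (hw j) (by omega) _

end good

end Q3

end Crest.Agent.H5.FD
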