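import Crest.Agent.H5.FD.F10

/-! From a finitely presented algebra with a suitable non-unital endomorphism to unbounded finite
projective dimensions. -/

set_option autoImplicit false
set_option linter.unusedVariables false
set_option linter.unusedSectionVars false
noncomputable section
namespace Crest.Agent.H5.FD
open Rp GC

variable {V : Type} [Fintype V] [DecidableEq V] {Rl : Type} [Fintype Rl]
  (rc : Rl → Tri (Option V))

lemma Sk_mono {k l : ℕ} (h : k ≤ l) {x : FA V} (hx : x ∈ Sk rc k) : x ∈ Sk rc l := by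
  refine Submodule.span_le.2 ?_ hx
  rintro _ ⟨⟨⟨w, ρ⟩, w'⟩, rfl⟩
  exact Submodule.subset_span ⟨((⟨w.1, w.2.trans h⟩, ρ), ⟨w'.1, w'.2.trans h⟩), rfl⟩

lemma Sk_wd_mul {k : ℕ} (u u' : FreeMonoid V) {x : FA V} (hx : x ∈ Sk rc k) :
    wd u * x * wd u' ∈ Sk rc (u.length + k + u'.length) := by
  induction hx using Submodule.span_induction with
  | mem x hx =>
    obtain ⟨⟨⟨w, ρ⟩, w'⟩, rfl⟩ := hx
    refine Submodule.subset_span ⟨((⟨u * w.1, ?_⟩, ρ), ⟨w'.1 * u', ?_⟩), ?_⟩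
    · rw [FreeMonoid.length_mul]; have := w.2; omega
    · rw [FreeMonoid.length_mul]; have := w'.2; omega
    · simp only [map_mul, mul_assoc]
  | zero => simp
  | add a b _ _ ha hb => rw [mul_add, add_mul]; exact Submodule.add_mem _ ha hb
  | smul c a _ ha => rw [mul_smul_comm, smul_mul_assoc]; exact Submodule.smul_mem _ c ha

lemma InI_add {x y : FA V} (hx : ∃ k, x ∈ Sk rc k) (hy : ∃ k, y ∈ Sk rc k) :
    ∃ k, x + y ∈ Sk rc k := by
  obtain ⟨k, hk⟩ := hx
  obtain ⟨l, hl⟩ := hy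
  exact ⟨k + l, Submodule.add_mem _ (Sk_mono rc (by omega) hk) (Sk_mono rc (by omega) hl)⟩

/-- The ideal of relations. -/
def Id : Ideal (FA V) where
  carrier := {r | ∃ k, r ∈ Sk rc k}
  add_mem' := fun hx hy => InI_add rc hx hy
  zero_mem' := ⟨0, Submodule.zero_mem _⟩
  smul_mem' := fun a x hx => by
    rw [smul_eq_mul]
    induction a using FA.ind with
    | hw u =>
      obtain ⟨k, hk⟩ := hx
      have := Sk_wd_mul rc u 1 hk
      rw [map_one, mul_one] at this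
      exact ⟨_, this⟩
    | h0 => rw [zero_mul]; exact ⟨0, Submodule.zero_mem _⟩
    | hadd a b ha hb => rw [add_mul]; exact InI_add rc ha hb
    | hs c a ha =>
      obtain ⟨k, hk⟩ := ha
      rw [smul_mul_assoc]; exact ⟨k, Submodule.smul_mem _ c hk⟩

instance : (Id rc).IsTwoSided := ⟨fun {x} a hx => by
  induction a using FA.ind with
  | hw u =>
    obtain ⟨k, hk⟩ := hx
    have := Sk_wd_mul rc 1 u hk
    rw [map_one, one_mul] at this
    exact ⟨_, this⟩
  | h0 => rw [mul_zero]; exact (Id rc).zero_mem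
  | hadd a b ha hb => rw [mul_add]; exact (Id rc).add_mem ha hb
  | hs c a ha =>
    obtain ⟨k, hk⟩ := ha
    rw [mul_smul_comm]; exact ⟨k, Submodule.smul_mem _ c hk⟩⟩

abbrev πR : FA V →ₐ[ℂ] FA V ⧸ Id rc := Ideal.Quotient.mkₐ ℂ (Id rc)

lemma πR_rbar (ρ : Rl) : πR rc (rbar (rc ρ)) = 0 := by
  refine Ideal.Quotient.eq_zero_iff_mem.2 ⟨0, Submodule.subset_span
    ⟨((⟨1, le_rfl⟩, ρ), ⟨1, le_rfl⟩), ?_⟩⟩
  simp

lemma exists_κ {X R : Type} [AddCommGroup X] [Module ℂ X] [AddCommGroup R] [Module ℂ R]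
    (f : X →ₗ[ℂ] R) : ∃ κ : X →ₗ[ℂ] X, (∀ x, f (κ x) = f x) ∧ ∀ x, f x = 0 → κ x = 0 := by
  obtain ⟨g, hg⟩ := f.rangeRestrict.exists_rightInverse_of_surjective f.range_rangeRestrict
  refine ⟨g ∘ₗ f.rangeRestrict, fun x => ?_, fun x hx => ?_⟩
  · exact congrArg Subtype.val (LinearMap.congr_fun hg (f.rangeRestrict x))
  · have : f.rangeRestrict x = 0 := Subtype.ext hx
    rw [LinearMap.comp_apply, this, map_zero]

def q3 (hcen : ∀ v, ∃ ρ p, rc ρ = ⟨(some v, none), (none, some v), p, 0⟩) : Q3 (BB rc) rc where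
  F0 := evB rc 0
  F1 := evB rc 1
  F2 := evB rc 2
  a := evA rc
  b := evBb rc
  cen := fun g M m => by
    rcases g with _ | v
    · rfl
    · obtain ⟨ρ, p, h⟩ := hcen v
      have := ev_rel rc ρ M m
      rw [h] at this
      simpa [Tri.ev, sub_eq_zero] using this
  rel := ev_rel rc

section equivs
variable {Lt Rl : Type} (rc : Rl → Tri Lt) {N : Type} [AddCommGroup N] [Module ℂ N]
  (μ : Lt → N →ₗ[ℂ] N) (h : ∀ ρ m, (rc ρ).ev (fun g g' => μ g (μ g' m)) = 0)

def eq0 : (evB rc 0).obj (triR rc μ μ h) ≃ₗ[ℂ] N where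
  toFun := fun y => y.1.1
  invFun := fun n => ⟨(n, 0, 0), (triR_e rc μ μ h 0 _).trans (by simp)⟩
  map_add' := fun _ _ => rfl
  map_smul' := fun _ _ => rfl
  left_inv := fun y => Subtype.ext (by
    have := (triR_e rc μ μ h 0 y.1).symm.trans y.2
    simpa using this)
  right_inv := fun n => rfl

def eq1 : (evB rc 1).obj (triR rc μ μ h) ≃ₗ[ℂ] N where
  toFun := fun y => y.1.2.1
  invFun := fun n => ⟨(0, n, 0), (triR_e rc μ μ h 1 _).trans (by simp)⟩
  map_add' := fun _ _ => rfl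
  map_smul' := fun _ _ => rfl
  left_inv := fun y => Subtype.ext (by
    have := (triR_e rc μ μ h 1 y.1).symm.trans y.2
    simpa using this)
  right_inv := fun n => rfl

def eq2 : (evB rc 2).obj (triR rc μ μ h) ≃ₗ[ℂ] N where
  toFun := fun y => y.1.2.2
  invFun := fun n => ⟨(0, 0, n), (triR_e rc μ μ h 2 _).trans (by simp)⟩
  map_add' := fun _ _ => rfl
  map_smul' := fun _ _ => rfl
  left_inv := fun y => Subtype.ext (by
    have := (triR_e rc μ μ h 2 y.1).symm.trans y.2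
    simpa using this)
  right_inv := fun n => rfl

lemma eq_a (g : Lt) (m : (evB rc 0).obj (triR rc μ μ h)) :
    eq1 rc μ h ((evA rc g).1 _ m) = μ g (eq0 rc μ h m) :=
  congrArg (fun p => p.2.1) (triR_a rc μ μ h g m.1)

lemma eq_b (g : Lt) (m : (evB rc 1).obj (triR rc μ μ h)) :
    eq2 rc μ h ((evBb rc g).1 _ m) = μ g (eq1 rc μ h m) :=
  congrArg (fun p => p.2.2) (triR_b rc μ μ h g m.1)

end equivs

theorem generic (hcen : ∀ v, ∃ ρ p, rc ρ = ⟨(some v, none), (none, some v), p, 0⟩)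
    (φ : Option V → FA V)
    (hq1 : ∀ g, πR rc (φ none) * πR rc (φ g) = πR rc (φ g))
    (hq2 : ∀ g, πR rc (φ g) * πR rc (φ none) = πR rc (φ g))
    (hrel : ∀ ρ, (rc ρ).ev (fun g g' => πR rc (φ g) * πR rc (φ g')) = 0)
    (N : ℕ → Type) [∀ n, AddCommGroup (N n)] [∀ n, Module ℂ (N n)] [∀ n, Module.Finite ℂ (N n)]
    (ν : ∀ n, FA V →ₐ[ℂ] Module.End ℂ (N n))
    (hν : ∀ n ρ m, (rc ρ).ev (fun g g' => ν n (bar g) (ν n (bar g') m)) = 0)
    (hN0 : ∀ m : N 0, m = 0) (hN1 : ∃ m : N 1, m ≠ 0)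
    (pr : ∀ n, N (n + 1) →ₗ[ℂ] N n) (hpr : ∀ n, Function.Surjective (pr n))
    (hφ : ∀ n g m, pr n (ν (n + 1) (φ g) m) = ν n (bar g) (pr n m))
    (hq' : ∀ n m, pr n m = 0 → ν (n + 1) (φ none) m = 0) :
    ∃ (Λ : Type) (_ : Ring Λ) (_ : Algebra ℂ Λ), FiniteDimensional ℂ Λ ∧
      ∀ k : ℕ, ∃ N : ModuleCat.{0} Λ, Module.Finite Λ N ∧
        ¬ CategoryTheory.HasProjectiveDimensionLT N k ∧
        ∃ n : ℕ, CategoryTheory.HasProjectiveDimensionLT N n := by
  classical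
  let w : Bool ⊕ Option V → FA V := Sum.elim (fun b => if b then 1 else 1 - φ none) φ
  let s : (Bool ⊕ Option V) × (Bool ⊕ Option V) → FA V := fun p => w p.1 * w p.2
  let f := Fintype.linearCombination ℂ (fun p => πR rc (s p))
  obtain ⟨κ, hκ, hκ'⟩ := exists_κ f
  let c : Bool ⊕ Option V → Bool ⊕ Option V → (Bool ⊕ Option V) × (Bool ⊕ Option V) → ℂ :=
    fun j j' => κ (Pi.single (j, j') 1)
  have hf : ∀ j j', f (Pi.single (j, j') 1) = πR rc (w j) * πR rc (w j') := fun j j' => by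
    rw [Fintype.linearCombination_apply_single, one_smul, map_mul]
  have hc0 : ∀ p : (Bool ⊕ Option V) × (Bool ⊕ Option V),
      ∃ k, ∑ i, c p.1 p.2 i • s i - w p.1 * w p.2 ∈ Sk rc k := fun p => by
    refine (Ideal.Quotient.eq_zero_iff_mem (I := Id rc)).1 ?_
    change πR rc _ = 0
    rw [map_sub, map_mul, ← hf, ← hκ, Fintype.linearCombination_apply, map_sum]
    simp only [map_smul]
    exact sub_self _
  choose k1 hk1 using hc0
  choose k2 hk2 using fun j => exists_Fk (w j)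
  let k := Finset.univ.sup k1 + Finset.univ.sup k2
  have hw : ∀ j, w j ∈ Fk V k := fun j =>
    Fk_mono ((Finset.le_sup (Finset.mem_univ j)).trans (Nat.le_add_left _ _)) (hk2 j)
  have hc : ∀ j j', ∑ i, c j j' i • s i - w j * w j' ∈ Sk rc k := fun j j' =>
    Sk_mono rc ((Finset.le_sup (Finset.mem_univ (j, j'))).trans (Nat.le_add_right _ _)) (hk1 (j, j'))
  have hwq : πR rc (w (Sum.inl false)) = 1 - πR rc (φ none) := by simp [w]
  refine final rc ((q3 rc hcen).sys k w hw s c hc) (Q3.sys_b0 _ _ _ _ _ _ _)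
    (Q3.sys_b1 _ _ _ _ _ _ _) (Q3.sys_b2 _ _ _ _ _ _ _) (Sum.inl true) (Sum.inl false) Sum.inr none
    (fun g => hκ' _ ?_) (fun g => hκ' _ ?_) (fun ρ => ?_) N (fun n g => ν n (bar g)) hν
    (fun n m => by simp [bar]) hN0 hN1 (fun n j => ν (n + 1) (w j)) (fun n i => ν (n + 1) (s i))
    (fun n => (q3 rc hcen).good k w hw s c hc (ν (n + 1)) (eq0 rc _ (hν _)) (eq1 rc _ (hν _))
      (eq2 rc _ (hν _)) (eq_a rc _ (hν _)) (eq_b rc _ (hν _))
      (fun i => Fk_mul (hw _) (hw _) (by omega)))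
    (fun n m => by simp [w]) pr hpr hφ (fun n m => ?_) (fun n m hm => ?_)
  · rw [hf, hwq, sub_mul, one_mul]; exact sub_eq_zero.2 (hq1 g).symm
  · rw [hf, hwq, mul_sub, mul_one]; exact sub_eq_zero.2 (hq2 g).symm
  · refine ((rc ρ).map_ev κ (fun g g' => Pi.single (Sum.inr g, Sum.inr g') 1)).symm.trans
      (hκ' _ ?_)
    rw [Tri.map_ev]
    simp only [hf]
    exact hrel ρ
  · have := hφ n none m
    simp only [bar, map_one, Module.End.one_apply] at this
    simp [w, this]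
  · simp [w, hq' n m hm]

end Crest.Agent.H5.FD
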