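import Crest.Agent.H5.FD.F11

/-! The concrete finitely presented algebra, its endomorphism and its modules. -/

set_option autoImplicit false
set_option linter.unusedVariables false
set_option linter.unusedSimpArgs false
set_option linter.unusedSectionVars false
noncomputable section
namespace Crest.Agent.H5.FD

/-- Generators: `0 = E`, `1 = F`, `2 = x`, `3 = u`, `4 = e`. -/
abbrev V5 : Type := Fin 5

def rc8 : Fin 8 → Tri (Option V5)
  | 0 => ⟨(some 1, some 0), (some 4, none), (none, none), 0⟩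
  | 1 => ⟨(some 2, some 3), (some 4, none), (none, none), 0⟩
  | 2 => ⟨(some 3, some 2), (some 4, none), (none, none), 0⟩
  | 3 => ⟨(some 0, some 4), (some 0, none), (none, none), 0⟩
  | 4 => ⟨(some 4, some 1), (some 1, none), (none, none), 0⟩
  | 5 => ⟨(some 2, some 0), (some 0, some 2), (some 0, none), 1⟩
  | 6 => ⟨(some 2, some 1), (some 1, some 2), (some 1, none), -1⟩
  | 7 => ⟨(some 2, some 4), (some 2, none), (none, none), 0⟩

def rc5 : V5 ⊕ Fin 8 → Tri (Option V5)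
  | Sum.inl v => ⟨(some v, none), (none, some v), (none, none), 0⟩
  | Sum.inr i => rc8 i

section ring
variable {R : Type} [Ring R] [Algebra ℂ R]

def phi (g : V5 → R) : Option V5 → R
  | none => g 0 * g 1
  | some 0 => g 0 * (g 0 * g 1)
  | some 1 => g 0 * g 1 * g 1
  | some 2 => g 2 * (g 0 * g 1)
  | some 3 => g 0 * g 1 * g 3 * (g 0 * g 1)
  | some 4 => g 4 * (g 0 * g 1)

lemma map_phi {R' : Type} [Ring R'] [Algebra ℂ R'] (f : R →ₐ[ℂ] R') (g : V5 → R) (o : Option V5) :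
    f (phi g o) = phi (fun v => f (g v)) o := by
  rcases o with _ | v
  · simp [phi]
  · fin_cases v <;> simp [phi]

theorem ring_lemma (E F x u e p : R) (hp : E * F = p) (h0 : F * E = e) (h1 : x * u = e)
    (h2 : u * x = e) (h3 : E * e = E) (h4 : e * F = F) (h5 : x * E = E * x - E)
    (h6 : x * F = F * x + F) (h7 : x * e = x) :
    p * p = p ∧ p * E = E ∧ F * p = F ∧ x * p = p * x ∧ e * p = p * e := by
  have pE : p * E = E := by rw [← hp, mul_assoc, h0, h3]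
  have Fp : F * p = F := by rw [← hp, ← mul_assoc, h0, h4]
  have pp : p * p = p := by nth_rw 2 [← hp]; rw [← mul_assoc, pE, hp]
  have xp : x * p = p * x := by
    rw [← hp, ← mul_assoc, h5, sub_mul, mul_assoc E x F, h6, mul_add, mul_assoc]; abel
  have ex : e * x = x := by rw [← h1, mul_assoc, h2, h7]
  have a1 : e * p * e = e * p := by
    rw [← h2, mul_assoc u x p, xp, mul_assoc, mul_assoc, h2, h7]
  have a2 : e * p * e = p * e := by
    nth_rw 2 [← h1]
    rw [mul_assoc e p, ← mul_assoc p x, ← xp, ← mul_assoc, ← mul_assoc, ex, xp, mul_assoc, h1]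
  exact ⟨pp, pE, Fp, xp, a1.symm.trans a2⟩

theorem phi_rel (g : V5 → R) (o : Option V5 → R) (ho : o none = 1) (hs : ∀ v, o (some v) = g v)
    (h : ∀ ρ, (rc5 ρ).ev (fun a b => o a * o b) = 0) :
    (∀ a, phi g none * phi g a = phi g a) ∧ (∀ a, phi g a * phi g none = phi g a) ∧
    ∀ ρ, (rc5 ρ).ev (fun a b => phi g a * phi g b) = 0 := by
  have h0 := h (Sum.inr 0)
  have h1 := h (Sum.inr 1)
  have h2 := h (Sum.inr 2)
  have h3 := h (Sum.inr 3)
  have h4 := h (Sum.inr 4)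
  have h5 := h (Sum.inr 5)
  have h6 := h (Sum.inr 6)
  have h7 := h (Sum.inr 7)
  simp only [rc5, rc8, Tri.ev, ho, hs, mul_one, zero_smul, add_zero, one_smul, neg_smul,
    sub_eq_zero] at h0 h1 h2 h3 h4 h5 h6 h7
  obtain ⟨p, hp⟩ : ∃ p, g 0 * g 1 = p := ⟨_, rfl⟩
  have h5' : g 2 * g 0 = g 0 * g 2 - g 0 := by rw [← sub_eq_zero, ← h5]; abel
  have h6' : g 2 * g 1 = g 1 * g 2 + g 1 := by rw [← sub_eq_zero, ← h6]; abel
  obtain ⟨pp, pE, Fp, xp, ep⟩ := ring_lemma _ _ _ _ _ p hp h0 h1 h2 h3 h4 h5' h6' h7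
  have r : ∀ {a b c : R}, a * b = c → ∀ z, a * (b * z) = c * z := fun h z => by
    rw [← mul_assoc, h]
  have r2 : ∀ {a b : R}, a * b = b * a → ∀ z, a * (b * z) = b * (a * z) := fun h z => by
    rw [← mul_assoc, h, mul_assoc]
  have A : ∀ a, phi g none * phi g a = phi g a := by
    rintro (_ | v)
    · simp only [phi, hp, pp]
    · fin_cases v <;> simp only [phi, hp, mul_assoc, Fin.reduceFinMk, Fin.isValue, Fin.zero_eta,
        Fin.mk_one, pp, r pp, r pE, xp, ep]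
  have B : ∀ a, phi g a * phi g none = phi g a := by
    rintro (_ | v)
    · simp only [phi, hp, pp]
    · fin_cases v <;> simp only [phi, hp, mul_assoc, Fin.reduceFinMk, Fin.isValue, Fin.zero_eta,
        Fin.mk_one, pp, r pp, Fp]
  refine ⟨A, B, ?_⟩
  rintro (v | i)
  · simp only [rc5, Tri.ev, A, B, sub_self, zero_smul, add_zero]
  · fin_cases i <;> simp only [rc5, rc8, Tri.ev, B, zero_smul, add_zero, one_smul, neg_smul,
      Fin.reduceFinMk, Fin.isValue, Fin.zero_eta, Fin.mk_one, sub_eq_zero] <;>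
      simp only [phi, hp, mul_assoc]
    · rw [r h0, ep, r pp]
    · rw [r pp, r2 xp, r h1, ep, r pp]
    · rw [← r2 xp, pp, r h2, ep, r pp]
    · rw [← r2 ep, pp, r h3]
    · rw [r pp, r2 ep, h4]
    · rw [r pE, ← r2 xp, pp, r h5', sub_mul, mul_assoc]; abel
    · rw [r pp, r2 xp, xp, r Fp, h6', mul_add]; abel
    · rw [← r2 ep, pp, r h7]

end ring

/-! ### The modules -/

def opI : V5 → (ℕ → ℂ) →ₗ[ℂ] (ℕ → ℂ)
  | 0 => LinearMap.pi fun j => LinearMap.proj (j + 1)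
  | 1 => LinearMap.pi fun j => if j = 0 then 0 else LinearMap.proj (j - 1)
  | 2 => LinearMap.pi fun j => (j : ℂ) • LinearMap.proj j
  | 3 => LinearMap.pi fun j => (j : ℂ)⁻¹ • LinearMap.proj j
  | 4 => LinearMap.pi fun j => if j = 0 then 0 else LinearMap.proj j

lemma opI0 (g : ℕ → ℂ) (j : ℕ) : opI 0 g j = g (j + 1) := rfl
lemma opI1 (g : ℕ → ℂ) (j : ℕ) : opI 1 g j = if j = 0 then 0 else g (j - 1) := by
  simp only [opI, LinearMap.pi_apply]; split_ifs <;> rfl
lemma opI2 (g : ℕ → ℂ) (j : ℕ) : opI 2 g j = j * g j := rfl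
lemma opI3 (g : ℕ → ℂ) (j : ℕ) : opI 3 g j = (j : ℂ)⁻¹ * g j := rfl
lemma opI4 (g : ℕ → ℂ) (j : ℕ) : opI 4 g j = if j = 0 then 0 else g j := by
  simp only [opI, LinearMap.pi_apply]; split_ifs <;> rfl

def exn (n : ℕ) : (Fin n → ℂ) →ₗ[ℂ] (ℕ → ℂ) :=
  LinearMap.pi fun j => if h : j < n then LinearMap.proj (⟨j, h⟩ : Fin n) else 0

def rsn (n : ℕ) : (ℕ → ℂ) →ₗ[ℂ] (Fin n → ℂ) := LinearMap.pi fun i => LinearMap.proj i.1

lemma rsn_ap (n : ℕ) (g : ℕ → ℂ) (i : Fin n) : rsn n g i = g i := rfl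

lemma exn_rsn (n : ℕ) (g : ℕ → ℂ) (j : ℕ) : exn n (rsn n g) j = if j < n then g j else 0 := by
  simp only [exn, LinearMap.pi_apply]; split_ifs <;> rfl

lemma rsn_exn (n : ℕ) (f : Fin n → ℂ) : rsn n (exn n f) = f := by
  funext i; simp [rsn_ap, exn]

def opn (n : ℕ) (v : V5) : Module.End ℂ (Fin n → ℂ) := rsn n ∘ₗ opI v ∘ₗ exn n

lemma opn_ap (n : ℕ) (v : V5) (f : Fin n → ℂ) : opn n v f = rsn n (opI v (exn n f)) := rfl

def νn (n : ℕ) : FA V5 →ₐ[ℂ] Module.End ℂ (Fin n → ℂ) :=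
  MonoidAlgebra.lift ℂ _ (FreeMonoid V5) (FreeMonoid.lift (opn n))

lemma νn_some (n : ℕ) (v : V5) : νn n (bar (some v)) = opn n v := by
  simp [νn, bar, wd]

lemma νn_none (n : ℕ) : νn n (bar none) = 1 := map_one _

def prn (n : ℕ) : (Fin (n + 1) → ℂ) →ₗ[ℂ] (Fin n → ℂ) := rsn n ∘ₗ exn (n + 1)

lemma prn_ap (n : ℕ) (f : Fin (n + 1) → ℂ) : prn n f = rsn n (exn (n + 1) f) := rfl

lemma νn_rel (n : ℕ) (ρ : V5 ⊕ Fin 8) (m : Fin n → ℂ) :
    (rc5 ρ).ev (fun g g' => νn n (bar g) (νn n (bar g') m)) = 0 := by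
  obtain ⟨g, rfl⟩ : ∃ g, rsn n g = m := ⟨_, rsn_exn n m⟩
  rcases ρ with v | i
  · simp [rc5, Tri.ev, νn_none]
  · funext ⟨j, hj⟩
    fin_cases i <;> simp only [rc5, rc8, Tri.ev, νn_none, νn_some, zero_smul, add_zero, one_smul,
      neg_smul, Fin.reduceFinMk, Fin.isValue, Fin.zero_eta, Fin.mk_one, Module.End.one_apply,
      Pi.sub_apply, Pi.add_apply, Pi.neg_apply, Pi.zero_apply, opn_ap, rsn_ap, opI0, opI1, opI2,
      opI3, opI4, exn_rsn] <;> rcases j with _ | j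
    all_goals first
      | (simp [hj]; done)
      | (simp [hj, Nat.lt_of_succ_lt hj]; done)
      | (have : (j : ℂ) + 1 ≠ 0 := Nat.cast_add_one_ne_zero j
         simp [hj, Nat.lt_of_succ_lt hj, this]; done)
      | (simp [hj, Nat.lt_of_succ_lt hj]; ring1)
      | (by_cases h : j + 1 + 1 < n <;> simp [hj, Nat.lt_of_succ_lt hj, h] <;> ring1)
      | (by_cases h : 1 < n <;> simp [hj, h])

lemma prn_surj (n : ℕ) : Function.Surjective (prn n) := fun f =>
  ⟨rsn (n + 1) (exn n f), by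
    conv_rhs => rw [← rsn_exn n f]
    funext ⟨j, hj⟩
    rw [prn_ap, rsn_ap, exn_rsn, if_pos (by simp only; omega), rsn_ap]⟩

lemma νn_phi (n : ℕ) (g : Option V5) :
    νn n (phi (fun v => bar (some v)) g) = phi (opn n) g := by
  rw [map_phi]; simp only [νn_some]

lemma prn_phi (n : ℕ) (o : Option V5) (m : Fin (n + 1) → ℂ) :
    prn n (νn (n + 1) (phi (fun v => bar (some v)) o) m) = νn n (bar o) (prn n m) := by
  obtain ⟨g, rfl⟩ : ∃ g, rsn (n + 1) g = m := ⟨_, rsn_exn _ m⟩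
  rw [νn_phi]
  funext ⟨j, hj⟩
  rcases o with _ | v
  · simp only [phi, νn_none, Module.End.one_apply, Module.End.mul_apply, prn_ap, opn_ap, rsn_ap,
      opI0, opI1, exn_rsn]
    simp [hj, hj.le]
  · fin_cases v <;> simp only [phi, νn_some, Module.End.mul_apply, prn_ap, opn_ap, rsn_ap,
      opI0, opI1, opI2, opI3, opI4, exn_rsn, Fin.reduceFinMk, Fin.isValue, Fin.zero_eta,
      Fin.mk_one] <;> rcases j with _ | j
    all_goals first
      | (simp [hj, hj.le]; done)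
      | (simp [hj, hj.le, Nat.lt_of_succ_lt hj]; done)
      | (split_ifs <;> first | omega | simp_all)

lemma prn_ker (n : ℕ) (m : Fin (n + 1) → ℂ) (hm : prn n m = 0) :
    νn (n + 1) (phi (fun v => bar (some v)) none) m = 0 := by
  obtain ⟨g, rfl⟩ : ∃ g, rsn (n + 1) g = m := ⟨_, rsn_exn _ m⟩
  rw [νn_phi]
  funext ⟨j, hj⟩
  simp only [phi, Module.End.mul_apply, opn_ap, rsn_ap, opI0, opI1, exn_rsn, Pi.zero_apply]
  split_ifs with h1 h2 h3
  · rfl
  · have := congrFun hm ⟨j, by omega⟩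
    rw [prn_ap, rsn_ap, exn_rsn, if_pos hj] at this
    exact this
  · rfl
  · rfl

theorem main : ∃ (Λ : Type) (_ : Ring Λ) (_ : Algebra ℂ Λ), FiniteDimensional ℂ Λ ∧
      ∀ k : ℕ, ∃ N : ModuleCat.{0} Λ, Module.Finite Λ N ∧
        ¬ CategoryTheory.HasProjectiveDimensionLT N k ∧
        ∃ n : ℕ, CategoryTheory.HasProjectiveDimensionLT N n := by
  obtain ⟨h1, h2, h3⟩ := phi_rel (fun v => πR rc5 (bar (some v))) (fun o => πR rc5 (bar o))
    (map_one _) (fun v => rfl) (fun ρ => by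
      have := πR_rbar rc5 ρ
      simpa only [rbar, Tri.ev, map_add, map_sub, map_smul, map_mul] using this)
  refine generic rc5 (fun v => ⟨Sum.inl v, _, rfl⟩) (phi fun v => bar (some v)) ?_ ?_ ?_
    (fun n => Fin n → ℂ) νn νn_rel (fun m => Subsingleton.elim _ _) ⟨1, one_ne_zero⟩ prn prn_surj
    prn_phi prn_ker
  · simpa only [map_phi] using h1
  · simpa only [map_phi] using h2
  · simpa only [map_phi] using h3

end Crest.Agent.H5.FD
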