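import Crest.Agent.H5.FD.F1

/-! Exact linear functors on representations; directed algebras. -/

set_option autoImplicit false
noncomputable section
namespace Crest.Agent.H5.FD
open Rp

/-- An exact `ℂ`-linear functor from representations of `B` to vector spaces, preserving
finite dimension. -/
structure NF (B : Type) [Ring B] [Algebra ℂ B] where
  obj : Rp B → Type
  [acg : ∀ M, AddCommGroup (obj M)]
  [md : ∀ M, Module ℂ (obj M)]
  map : ∀ {M N : Rp B}, M.Hom N →ₗ[ℂ] (obj M →ₗ[ℂ] obj N)
  map_id : ∀ M y, map (Hom.id M) y = y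
  map_comp : ∀ {M N P : Rp B} (g : N.Hom P) (f : M.Hom N) y,
    map (Hom.comp g f) y = map g (map f y)
  inj : ∀ {M N : Rp B} (f : M.Hom N), Function.Injective f.1 → Function.Injective (map f)
  surj : ∀ {M N : Rp B} (f : M.Hom N), Function.Surjective f.1 → Function.Surjective (map f)
  ex : ∀ {M N P : Rp B} (f : M.Hom N) (g : N.Hom P), Function.Exact f.1 g.1 →
    Function.Exact (map f) (map g)
  fin : ∀ M : Rp B, Module.Finite ℂ M.V → Module.Finite ℂ (obj M)

attribute [instance] NF.acg NF.md

namespace NF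
variable {B : Type} [Ring B] [Algebra ℂ B]

/-- Natural transformations. -/
def Hom (F G : NF B) : Submodule ℂ (∀ M : Rp B, F.obj M →ₗ[ℂ] G.obj M) where
  carrier := {t | ∀ (M N : Rp B) (f : M.Hom N) y, t N (F.map f y) = G.map f (t M y)}
  add_mem' := by
    intro s t hs ht M N f y
    simp only [Pi.add_apply, LinearMap.add_apply, map_add, hs M N f y, ht M N f y]
  zero_mem' := by intro M N f y; simp
  smul_mem' := by
    intro c t ht M N f y
    simp only [Pi.smul_apply, LinearMap.smul_apply, map_smul, ht M N f y]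

/-- Natural endomorphisms as an algebra. -/
def End (F : NF B) : Subalgebra ℂ (∀ M : Rp B, Module.End ℂ (F.obj M)) where
  carrier := {t | ∀ (M N : Rp B) (f : M.Hom N) y, t N (F.map f y) = F.map f (t M y)}
  add_mem' := by
    intro s t hs ht M N f y
    simp only [Pi.add_apply, LinearMap.add_apply, map_add, hs M N f y, ht M N f y]
  mul_mem' := by
    intro s t hs ht M N f y
    simp only [Pi.mul_apply, Module.End.mul_apply, hs M N f _, ht M N f y]
  algebraMap_mem' := by
    intro c M N f y
    simp [Algebra.algebraMap_eq_smul_one]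

def End.ev (F : NF B) (M : Rp B) : F.End →ₐ[ℂ] Module.End ℂ (F.obj M) :=
  (Pi.evalAlgHom ℂ (fun M : Rp B => Module.End ℂ (F.obj M)) M).comp F.End.val

lemma End.ext' {F : NF B} {s t : F.End} (h : ∀ M y, s.1 M y = t.1 M y) : s = t :=
  Subtype.ext (funext fun M => LinearMap.ext fun y => h M y)

lemma Hom.ext' {F G : NF B} {s t : F.Hom G} (h : ∀ M y, s.1 M y = t.1 M y) : s = t :=
  Subtype.ext (funext fun M => LinearMap.ext fun y => h M y)

/-- The forgetful functor. -/
abbrev fgt (B : Type) [Ring B] [Algebra ℂ B] : NF B where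
  obj := fun M => M.V
  map := fun {M N} => (M.Hom N).subtype
  map_id := fun _ _ => rfl
  map_comp := fun _ _ _ => rfl
  inj := fun _ h => h
  surj := fun _ h => h
  ex := fun _ _ h => h
  fin := fun _ h => h

/-- Product of functors. -/
abbrev prod (F G : NF B) : NF B where
  obj := fun M => F.obj M × G.obj M
  map := fun {M N} =>
    { toFun := fun f => (F.map f).prodMap (G.map f)
      map_add' := fun f g => by ext <;> simp
      map_smul' := fun c f => by ext <;> simp }
  map_id := fun M y => Prod.ext (F.map_id M y.1) (G.map_id M y.2)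
  map_comp := fun g f y => Prod.ext (F.map_comp g f y.1) (G.map_comp g f y.2)
  inj := fun f h => (F.inj f h).prodMap (G.inj f h)
  surj := fun f h => (F.surj f h).prodMap (G.surj f h)
  ex := fun f g h y => by
    constructor
    · intro hy
      obtain ⟨a, ha⟩ := (F.ex f g h y.1).1 (congrArg Prod.fst hy)
      obtain ⟨b, hb⟩ := (G.ex f g h y.2).1 (congrArg Prod.snd hy)
      exact ⟨(a, b), Prod.ext ha hb⟩
    · rintro ⟨⟨a, b⟩, rfl⟩
      exact Prod.ext ((F.ex f g h).apply_apply_eq_zero a) ((G.ex f g h).apply_apply_eq_zero b)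
  fin := fun M h => by
    have := F.fin M h
    have := G.fin M h
    infer_instance

/-- Finite power of a functor. -/
abbrev pi (I : Type) [Fintype I] (F : NF B) : NF B where
  obj := fun M => I → F.obj M
  map := fun {M N} =>
    { toFun := fun f => (F.map f).compLeft I
      map_add' := fun f g => by ext; simp
      map_smul' := fun c f => by ext; simp }
  map_id := fun M y => funext fun i => F.map_id M (y i)
  map_comp := fun g f y => funext fun i => F.map_comp g f (y i)
  inj := fun f h x y hxy => funext fun i => F.inj f h (congrFun hxy i)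
  surj := fun f h y => by
    choose x hx using fun i => F.surj f h (y i)
    exact ⟨x, funext hx⟩
  ex := fun f g h y => by
    constructor
    · intro hy
      choose x hx using fun i => (F.ex f g h (y i)).1 (congrFun hy i)
      exact ⟨x, funext hx⟩
    · rintro ⟨x, rfl⟩
      exact funext fun i => (F.ex f g h).apply_apply_eq_zero (x i)
  fin := fun M h => by
    have := F.fin M h
    infer_instance

end NF

/-- An exact functor from representations of `B` to representations of `A`. -/
structure EF (B : Type) [Ring B] [Algebra ℂ B] (A : Type) [Ring A] [Algebra ℂ A] where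
  F : NF B
  Θ : A →ₐ[ℂ] F.End

namespace EF
variable {B : Type} [Ring B] [Algebra ℂ B] {A : Type} [Ring A] [Algebra ℂ A]

abbrev app (G : EF B A) (M : Rp B) : Rp A := ⟨G.F.obj M, (NF.End.ev G.F M).comp G.Θ⟩

lemma app_ρ (G : EF B A) (M : Rp B) (a : A) (y : G.F.obj M) :
    (G.app M).ρ a y = (G.Θ a).1 M y := rfl

def hom (G : EF B A) {M N : Rp B} (f : M.Hom N) : (G.app M).Hom (G.app N) :=
  ⟨G.F.map f, fun a y => ((G.Θ a).2 M N f y).symm⟩

lemma ses (G : EF B A) {M N P : Rp B} {f : M.Hom N} {g : N.Hom P} (h : SES f g) :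
    SES (G.hom f) (G.hom g) :=
  ⟨G.F.inj f h.inj, G.F.surj g h.surj, G.F.ex f g h.ex⟩

lemma app_zero (G : EF B A) (M : Rp B) (h : ∀ m : M.V, m = 0) (y : G.F.obj M) : y = 0 := by
  have : Hom.id M = 0 := Subtype.ext (LinearMap.ext fun m => h m)
  rw [← G.F.map_id M y, this, map_zero, LinearMap.zero_apply]

/-- Restriction along an algebra map. -/
abbrev res (G : EF B A) {A' : Type} [Ring A'] [Algebra ℂ A'] (φ : A' →ₐ[ℂ] A) : EF B A' :=
  ⟨G.F, G.Θ.comp φ⟩

end EF

/-- A directed algebra with three vertices. -/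
structure Dir (B : Type) [Ring B] [Algebra ℂ B] where
  e : ℕ → B
  idem : ∀ i, e i * e i = e i
  sum : e 0 + e 1 + e 2 = 1
  low : ∀ i j b, i < j → e i * b * e j = 0
  diag : ∀ j b, ∃ c : ℂ, e j * b * e j = c • e j

section gl
variable {B : Type} [Ring B] [Algebra ℂ B] {A : Type} [Ring A] [Algebra ℂ A]

def Dir.Sup (D : Dir B) (M : Rp B) (j : ℕ) : Prop := ∀ i < j, ∀ m, M.ρ (D.e i) m = 0

/-- The projective `B e_j`. -/
abbrev Dir.P (D : Dir B) (j : ℕ) : Rp B := ranR ((reg B).orb (D.e j))

lemma Dir.pl_P (D : Dir B) (G : EF B A) (hG : (G.app (reg B)).PL 1) (j : ℕ) :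
    (G.app (D.P j)).PL 1 := by
  refine hG.retract (G.hom (subι _ _ _)) (G.hom (toRan _)) ?_
  intro y
  change G.F.map _ (G.F.map _ y) = y
  rw [← G.F.map_comp]
  have : Hom.comp (toRan ((reg B).orb (D.e j))) (subι _ _ (range_inv _)) = Hom.id (D.P j) := by
    apply Subtype.ext
    ext ⟨_, b, rfl⟩
    change (b * D.e j) * D.e j = b * D.e j
    rw [mul_assoc, D.idem]
  rw [this, G.F.map_id]

lemma Dir.step (D : Dir B) [Module.Finite ℂ B] (G : EF B A) (hG : (G.app (reg B)).PL 1)
    (j k : ℕ)
    (ih : ∀ M : Rp B, Module.Finite ℂ M.V → D.Sup M (j + 1) → (G.app M).PL k) :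
    ∀ (n : ℕ) (M : Rp B), Module.Finite ℂ M.V → Module.finrank ℂ M.V = n → D.Sup M j →
      (G.app M).PL (k + 1) := by
  intro n
  induction n using Nat.strong_induction_on with
  | _ n ihn =>
  intro M hM hn hs
  by_cases h0 : ∀ m, M.ρ (D.e j) m = 0
  · refine (ih M hM ?_).mono (Nat.le_succ k)
    intro i hi m
    rcases Nat.lt_succ_iff_lt_or_eq.1 hi with h | h
    · exact hs i h m
    · rw [h]; exact h0 m
  push Not at h0
  obtain ⟨m0, hm0⟩ := h0
  set m := M.ρ (D.e j) m0 with hm
  have hme : M.ρ (D.e j) m = m := by rw [hm, ← ρ_mul, D.idem]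
  let f : (D.P j).Hom M := Hom.comp (M.orb m) (subι _ _ _)
  have hK : (G.app (kerR f)).PL k := by
    refine ih _ inferInstance ?_
    rintro i hi ⟨⟨_, b, rfl⟩, hb⟩
    apply Subtype.ext
    apply Subtype.ext
    change D.e i * (b * D.e j) = 0
    rcases Nat.lt_succ_iff_lt_or_eq.1 hi with h | h
    · rw [← mul_assoc]; exact D.low i j b h
    · subst h
      obtain ⟨c, hc⟩ := D.diag i b
      have hb' : M.ρ (b * D.e i) m = 0 := hb
      have : M.ρ (D.e i * (b * D.e i)) m = 0 := by rw [ρ_mul, hb', map_zero]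
      rw [← mul_assoc, hc, map_smul, LinearMap.smul_apply, hme] at this
      rcases smul_eq_zero.1 this with h | h
      · rw [← mul_assoc, hc, h, zero_smul]
      · exact absurd h hm0
  have hR : (G.app (ranR f)).PL (k + 1) :=
    (G.ses (ses_ker_ran f)).pl₃ hK ((D.pl_P G hG j).mono (by omega))
  have hQ : (G.app (cokR f)).PL (k + 1) := by
    refine ihn (Module.finrank ℂ (M.V ⧸ LinearMap.range f.1)) ?_ _ inferInstance rfl ?_
    · have h1 := Submodule.finrank_quotient_add_finrank (LinearMap.range f.1)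
      have h2 : 0 < Module.finrank ℂ (LinearMap.range f.1) := by
        rw [Module.finrank_pos_iff_exists_ne_zero]
        refine ⟨⟨m, ⟨⟨D.e j, 1, one_mul _⟩, hme⟩⟩, fun h => hm0 (congrArg Subtype.val h)⟩
      omega
    · intro i hi y
      obtain ⟨x, rfl⟩ := (LinearMap.range f.1).mkQ_surjective y
      change (LinearMap.range f.1).mkQ (M.ρ (D.e i) x) = 0
      rw [hs i hi, map_zero]
  exact (G.ses (ses_sub_quo M _ (range_inv f))).pl₂ hR hQ

/-- An exact functor sending the regular representation of a directed algebra to a projective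
sends every finite-dimensional representation to one of projective dimension `< 3`. -/
theorem Dir.pl_three (D : Dir B) [Module.Finite ℂ B] (G : EF B A) (hG : (G.app (reg B)).PL 1)
    (M : Rp B) (hM : Module.Finite ℂ M.V) : (G.app M).PL 3 := by
  have h3 : ∀ M : Rp B, Module.Finite ℂ M.V → D.Sup M 3 → (G.app M).PL 0 := by
    intro M _ hs
    refine pl_zero _ (G.app_zero M fun m => ?_)
    have : M.ρ (D.e 0 + D.e 1 + D.e 2) m = m := by rw [D.sum, map_one]; rfl
    rw [← this]
    simp only [map_add, LinearMap.add_apply, hs 0 (by omega), hs 1 (by omega), hs 2 (by omega),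
      add_zero]
  have h2 : ∀ M : Rp B, Module.Finite ℂ M.V → D.Sup M 2 → (G.app M).PL 1 :=
    fun M hM hs => D.step G hG 2 0 h3 _ M hM rfl hs
  have h1 : ∀ M : Rp B, Module.Finite ℂ M.V → D.Sup M 1 → (G.app M).PL 2 :=
    fun M hM hs => D.step G hG 1 1 h2 _ M hM rfl hs
  exact D.step G hG 0 2 h1 _ M hM rfl (fun i hi => absurd hi (Nat.not_lt_zero i))

end gl

end Crest.Agent.H5.FD
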