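import Crest.Agent.H5.FD.F2

/-! The algebra of bounded complexes of `B`-modules (levels `0, …, 7`). -/

set_option autoImplicit false
noncomputable section
namespace Crest.Agent.H5.FD
open Rp

/-- Data of a bounded complex structure inside an algebra `S`. -/
structure Lev (B : Type) [Ring B] [Algebra ℂ B] (S : Type*) [Ring S] [Algebra ℂ S] where
  ι : B →ₐ[ℂ] S
  ε : ℕ → S
  d : S
  orth : ∀ i j, ε i * ε j = if i = j then ε i else 0
  sum : ∑ i ∈ Finset.range 8, ε i = 1
  ιε : ∀ b i, ι b * ε i = ε i * ι b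
  ιd : ∀ b, ι b * d = d * ι b
  dd : d * d = 0
  εd : ∀ i, ε i * d = d * ε (i + 1)
  dε : d * ε 0 = 0

variable {B : Type} [Ring B] [Algebra ℂ B]

abbrev gB (b : B) : FreeAlgebra ℂ (B ⊕ Option ℕ) := FreeAlgebra.ι ℂ (Sum.inl b)
abbrev gE (B : Type) (i : ℕ) : FreeAlgebra ℂ (B ⊕ Option ℕ) := FreeAlgebra.ι ℂ (Sum.inr (some i))
abbrev gD (B : Type) : FreeAlgebra ℂ (B ⊕ Option ℕ) := FreeAlgebra.ι ℂ (Sum.inr none)

inductive LRel (B : Type) [Ring B] [Algebra ℂ B] :
    FreeAlgebra ℂ (B ⊕ Option ℕ) → FreeAlgebra ℂ (B ⊕ Option ℕ) → Prop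
  | add (b b' : B) : LRel B (gB (b + b')) (gB b + gB b')
  | smul (c : ℂ) (b : B) : LRel B (gB (c • b)) (c • gB b)
  | mul (b b' : B) : LRel B (gB (b * b')) (gB b * gB b')
  | one : LRel B (gB (1 : B)) 1
  | orth (i j : ℕ) : LRel B (gE B i * gE B j) (if i = j then gE B i else 0)
  | sum : LRel B (∑ i ∈ Finset.range 8, gE B i) 1
  | ιε (b : B) (i : ℕ) : LRel B (gB b * gE B i) (gE B i * gB b)
  | ιd (b : B) : LRel B (gB b * gD B) (gD B * gB b)
  | dd : LRel B (gD B * gD B) 0
  | εd (i : ℕ) : LRel B (gE B i * gD B) (gD B * gE B (i + 1))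
  | dε : LRel B (gD B * gE B 0) 0

/-- The level algebra. -/
abbrev L0 (B : Type) [Ring B] [Algebra ℂ B] : Type := RingQuot (LRel B)

abbrev mk0 (B : Type) [Ring B] [Algebra ℂ B] : FreeAlgebra ℂ (B ⊕ Option ℕ) →ₐ[ℂ] L0 B :=
  RingQuot.mkAlgHom ℂ (LRel B)

lemma mk0_rel {x y : FreeAlgebra ℂ (B ⊕ Option ℕ)} (h : LRel B x y) : mk0 B x = mk0 B y :=
  RingQuot.mkAlgHom_rel ℂ h

/-- The universal level structure. -/
def lev0 (B : Type) [Ring B] [Algebra ℂ B] : Lev B (L0 B) where
  ι := AlgHom.ofLinearMap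
    { toFun := fun b => mk0 B (gB b)
      map_add' := fun b b' => by rw [mk0_rel (LRel.add b b'), map_add]
      map_smul' := fun c b => by rw [mk0_rel (LRel.smul c b), map_smul]; rfl }
    (by change mk0 B (gB 1) = 1; rw [mk0_rel LRel.one, map_one])
    (fun b b' => by
      change mk0 B (gB (b * b')) = mk0 B (gB b) * mk0 B (gB b')
      rw [mk0_rel (LRel.mul b b'), map_mul])
  ε := fun i => mk0 B (gE B i)
  d := mk0 B (gD B)
  orth := fun i j => by
    rw [← map_mul, mk0_rel (LRel.orth i j)]; split_ifs <;> simp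
  sum := by rw [← map_sum, mk0_rel LRel.sum, map_one]
  ιε := fun b i => by
    change mk0 B (gB b) * _ = _ * mk0 B (gB b)
    rw [← map_mul, mk0_rel (LRel.ιε b i), map_mul]
  ιd := fun b => by
    change mk0 B (gB b) * _ = _ * mk0 B (gB b)
    rw [← map_mul, mk0_rel (LRel.ιd b), map_mul]
  dd := by rw [← map_mul, mk0_rel LRel.dd, map_zero]
  εd := fun i => by rw [← map_mul, mk0_rel (LRel.εd i), map_mul]
  dε := by rw [← map_mul, mk0_rel LRel.dε, map_zero]

section lift
variable {S : Type*} [Ring S] [Algebra ℂ S]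

def Lev.gen (L : Lev B S) : B ⊕ Option ℕ → S
  | Sum.inl b => L.ι b
  | Sum.inr (some i) => L.ε i
  | Sum.inr none => L.d

def Lev.lift (L : Lev B S) : L0 B →ₐ[ℂ] S :=
  RingQuot.liftAlgHom ℂ ⟨FreeAlgebra.lift ℂ L.gen, by
    intro x y h
    induction h with
    | add b b' => simp [Lev.gen]
    | smul c b => simp [Lev.gen]
    | mul b b' => simp [Lev.gen]
    | one => simp [Lev.gen]
    | orth i j =>
      simp only [map_mul, FreeAlgebra.lift_ι_apply, Lev.gen, L.orth]
      split_ifs <;> simp [Lev.gen]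
    | sum => simp only [map_sum, FreeAlgebra.lift_ι_apply, Lev.gen, L.sum, map_one]
    | ιε b i => simp [Lev.gen, L.ιε]
    | ιd b => simp [Lev.gen, L.ιd]
    | dd => simp [Lev.gen, L.dd]
    | εd i => simp [Lev.gen, L.εd]
    | dε => simp [Lev.gen, L.dε]⟩

@[simp] lemma Lev.lift_ι (L : Lev B S) (b : B) : L.lift ((lev0 B).ι b) = L.ι b := by
  change L.lift (mk0 B (gB b)) = _
  simp [Lev.lift, Lev.gen]

@[simp] lemma Lev.lift_ε (L : Lev B S) (i : ℕ) : L.lift ((lev0 B).ε i) = L.ε i := by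
  change L.lift (mk0 B (gE B i)) = _
  simp [Lev.lift, Lev.gen]

@[simp] lemma Lev.lift_d (L : Lev B S) : L.lift (lev0 B).d = L.d := by
  change L.lift (mk0 B (gD B)) = _
  simp [Lev.lift, Lev.gen]

end lift

lemma L0.ind {p : L0 B → Prop} (hι : ∀ b, p ((lev0 B).ι b)) (hε : ∀ i, p ((lev0 B).ε i))
    (hd : p (lev0 B).d) (hadd : ∀ x y, p x → p y → p (x + y))
    (hmul : ∀ x y, p x → p y → p (x * y)) (x : L0 B) : p x := by
  obtain ⟨x, rfl⟩ := RingQuot.mkAlgHom_surjective ℂ (LRel B) x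
  induction x using FreeAlgebra.induction with
  | grade0 r =>
    have := hι (algebraMap ℂ B r)
    rwa [AlgHom.commutes, ← (mk0 B).commutes] at this
  | grade1 g =>
    rcases g with b | _ | i
    · exact hι b
    · exact hd
    · exact hε i
  | mul a b ha hb => rw [map_mul]; exact hmul _ _ ha hb
  | add a b ha hb => rw [map_add]; exact hadd _ _ ha hb

/-- A linear map commuting with the generators is a morphism of `L0 B`-representations. -/
lemma hom_L0 {M N : Rp (L0 B)} (f : M.V →ₗ[ℂ] N.V)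
    (hι : ∀ b m, f (M.ρ ((lev0 B).ι b) m) = N.ρ ((lev0 B).ι b) (f m))
    (hε : ∀ i m, f (M.ρ ((lev0 B).ε i) m) = N.ρ ((lev0 B).ε i) (f m))
    (hd : ∀ m, f (M.ρ (lev0 B).d m) = N.ρ (lev0 B).d (f m)) : f ∈ M.Hom N := by
  intro a
  induction a using L0.ind with
  | hι b => exact hι b
  | hε i => exact hε i
  | hd => exact hd
  | hadd x y hx hy => intro m; simp only [map_add, LinearMap.add_apply, hx m, hy m]
  | hmul x y hx hy => intro m; rw [ρ_mul, ρ_mul, hx, hy]

/-- The stalk level structure at level `i`. -/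
def stalkLev (B : Type) [Ring B] [Algebra ℂ B] (i : ℕ) (hi : i < 8) : Lev B B where
  ι := AlgHom.id ℂ B
  ε := fun j => if j = i then 1 else 0
  d := 0
  orth := fun j k => by split_ifs <;> simp_all
  sum := by simp [hi]
  ιε := fun b j => by split_ifs <;> simp
  ιd := fun b => by simp
  dd := by simp
  εd := fun j => by simp
  dε := by simp

def πL (B : Type) [Ring B] [Algebra ℂ B] (i : ℕ) (hi : i < 8) : L0 B →ₐ[ℂ] B :=
  (stalkLev B i hi).lift

@[simp] lemma πL_ι (i : ℕ) (hi : i < 8) (b : B) : πL B i hi ((lev0 B).ι b) = b := by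
  simp [πL, stalkLev]
@[simp] lemma πL_ε (i : ℕ) (hi : i < 8) (j : ℕ) :
    πL B i hi ((lev0 B).ε j) = if j = i then 1 else 0 := by
  simp [πL, stalkLev]
@[simp] lemma πL_d (i : ℕ) (hi : i < 8) : πL B i hi (lev0 B).d = 0 := by
  simp [πL, stalkLev]

abbrev π0 (B : Type) [Ring B] [Algebra ℂ B] : L0 B →ₐ[ℂ] B := πL B 0 (by omega)

lemma mul_ε0 (a : L0 B) : a * (lev0 B).ε 0 = (lev0 B).ι (π0 B a) * (lev0 B).ε 0 := by
  induction a using L0.ind with
  | hι b => simp
  | hε i =>
    rw [(lev0 B).orth, πL_ε]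
    split_ifs with h
    · subst h; simp
    · simp
  | hd => simp [(lev0 B).dε]
  | hadd x y hx hy => rw [add_mul, hx, hy, map_add, map_add, add_mul]
  | hmul x y hx hy =>
    rw [mul_assoc, hy, (lev0 B).ιε, ← mul_assoc, hx, mul_assoc, ← (lev0 B).ιε, map_mul, map_mul,
      mul_assoc]

/-- A `B`-representation placed at level `i`. -/
abbrev St (i : ℕ) (hi : i < 8) (M : Rp B) : Rp (L0 B) := M.res (πL B i hi)

/-- The contractible complex `M = M` at levels `k + 1`, `k`. -/
def angLev (B : Type) [Ring B] [Algebra ℂ B] (k : ℕ) (hk : k + 1 < 8) :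
    Lev B ((NF.fgt B).prod (NF.fgt B)).End where
  ι := AlgHom.codRestrict
    (AlgHom.pi (fun M : Rp B => (M.prod M).ρ)) _
    (fun b M N f y => Prod.ext (Hom.comm f b y.1).symm (Hom.comm f b y.2).symm)
  ε := fun j => ⟨fun M => LinearMap.prodMap (if j = k + 1 then LinearMap.id else 0)
      (if j = k then LinearMap.id else 0), fun M N f y => by
        ext <;> split_ifs <;> simp⟩
  d := ⟨fun M => (LinearMap.inr ℂ M.V M.V) ∘ₗ (LinearMap.fst ℂ M.V M.V), fun M N f y => by
        ext <;> simp⟩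
  orth := fun i j => by
    by_cases h : i = j
    · subst h
      rw [if_pos rfl]
      refine NF.End.ext' fun M y => ?_
      ext <;> simp only [MulMemClass.coe_mul, Pi.mul_apply, Module.End.mul_apply,
        LinearMap.prodMap_apply] <;> split_ifs <;> simp
    · rw [if_neg h]
      refine NF.End.ext' fun M y => ?_
      ext <;> simp only [MulMemClass.coe_mul, Pi.mul_apply, Module.End.mul_apply,
        LinearMap.prodMap_apply] <;> split_ifs <;> first | omega | simp
  sum := NF.End.ext' fun M y => by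
    have h1 : k + 1 ∈ Finset.range 8 := Finset.mem_range.2 hk
    have h2 : k ∈ Finset.range 8 := Finset.mem_range.2 (by omega)
    ext
    · simp only [AddSubmonoidClass.coe_finsetSum, Finset.sum_apply, LinearMap.sum_apply,
        LinearMap.prodMap_apply, Prod.fst_sum]
      rw [Finset.sum_eq_single_of_mem (k + 1) h1 (fun j _ hj => by simp [hj])]
      simp
    · simp only [AddSubmonoidClass.coe_finsetSum, Finset.sum_apply, LinearMap.sum_apply,
        LinearMap.prodMap_apply, Prod.snd_sum]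
      rw [Finset.sum_eq_single_of_mem k h2 (fun j _ hj => by simp [hj])]
      simp
  ιε := fun b j => NF.End.ext' fun M y => by
    change (M.prod M).ρ b (LinearMap.prodMap _ _ y) = LinearMap.prodMap _ _ ((M.prod M).ρ b y)
    ext <;> simp only [LinearMap.prodMap_apply] <;> split_ifs <;> simp
  ιd := fun b => NF.End.ext' fun M y => by
    change (M.prod M).ρ b (0, y.1) = (0, ((M.prod M).ρ b y).1)
    simp
  dd := NF.End.ext' fun M y => rfl
  εd := fun j => NF.End.ext' fun M y => by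
    ext <;> simp only [MulMemClass.coe_mul, Pi.mul_apply, Module.End.mul_apply,
        LinearMap.prodMap_apply, LinearMap.comp_apply, LinearMap.inr_apply, LinearMap.fst_apply]
    · simp
    · by_cases h : j = k <;> simp [h]
  dε := NF.End.ext' fun M y => by
    ext <;> simp

abbrev Ang (B : Type) [Ring B] [Algebra ℂ B] (k : ℕ) (hk : k + 1 < 8) : EF B (L0 B) :=
  ⟨(NF.fgt B).prod (NF.fgt B), (angLev B k hk).lift⟩

lemma ang_ι (k : ℕ) (hk : k + 1 < 8) (M : Rp B) (b : B) (y : M.V × M.V) :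
    ((Ang B k hk).app M).ρ ((lev0 B).ι b) y = (M.ρ b y.1, M.ρ b y.2) := by
  rw [EF.app_ρ, Lev.lift_ι]; rfl

lemma ang_ε (k : ℕ) (hk : k + 1 < 8) (M : Rp B) (j : ℕ) (y : M.V × M.V) :
    ((Ang B k hk).app M).ρ ((lev0 B).ε j) y =
      (if j = k + 1 then y.1 else 0, if j = k then y.2 else 0) := by
  rw [EF.app_ρ, Lev.lift_ε]
  change LinearMap.prodMap _ _ y = _
  ext <;> simp only [LinearMap.prodMap_apply] <;> split_ifs <;> simp

lemma ang_d (k : ℕ) (hk : k + 1 < 8) (M : Rp B) (y : M.V × M.V) :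
    ((Ang B k hk).app M).ρ (lev0 B).d y = (0, y.1) := by
  rw [EF.app_ρ, Lev.lift_d]; rfl

def angIn (k : ℕ) (hk : k + 1 < 8) (M : Rp B) :
    (St k (by omega) M).Hom ((Ang B k hk).app M) :=
  ⟨LinearMap.inr ℂ M.V M.V, hom_L0 _
    (fun b m => by rw [ang_ι]; simp)
    (fun i m => by rw [ang_ε]; by_cases h : i = k <;> simp [h])
    (fun m => by rw [ang_d]; simp)⟩

def angOut (k : ℕ) (hk : k + 1 < 8) (M : Rp B) :
    ((Ang B k hk).app M).Hom (St (k + 1) hk M) :=
  ⟨LinearMap.fst ℂ M.V M.V, hom_L0 _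
    (fun b m => by rw [ang_ι]; simp)
    (fun i m => by rw [ang_ε]; by_cases h : i = k + 1 <;> simp [h])
    (fun m => by rw [ang_d]; simp)⟩

lemma ses_ang (k : ℕ) (hk : k + 1 < 8) (M : Rp B) : SES (angIn k hk M) (angOut k hk M) :=
  ⟨LinearMap.inr_injective, LinearMap.fst_surjective, Function.Exact.inr_fst⟩

end Crest.Agent.H5.FD
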