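import Crest.Agent.H5.FD.F3

/-! The algebra `Λ = L0 B ⋉ C(B)` attached to an exact functor `C`, and its projectives. -/

set_option autoImplicit false
noncomputable section
namespace Crest.Agent.H5.FD
open Rp MulOpposite

variable {B : Type} [Ring B] [Algebra ℂ B]

lemma orb_one : (reg B).orb 1 = Hom.id (reg B) := by
  apply Subtype.ext; ext a; exact mul_one a

lemma orb_comp (M : Rp B) (m : M.V) (b : B) :
    Hom.comp (M.orb m) ((reg B).orb b) = M.orb (M.ρ b m) := by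
  apply Subtype.ext; ext a; exact M.ρ_mul a b m

lemma comp_orb {M N : Rp B} (f : M.Hom N) (m : M.V) :
    Hom.comp f (M.orb m) = N.orb (f.1 m) := by
  apply Subtype.ext; ext a; exact Hom.comm f a m

/-- The bimodule `C(B)`. -/
def Xb (C : EF B (L0 B)) : Type := C.F.obj (reg B)

section inst
variable (C : EF B (L0 B))

instance : AddCommGroup (Xb C) := C.F.acg _
instance : Module ℂ (Xb C) := C.F.md _
instance : Module (L0 B) (Xb C) :=
  inferInstanceAs (Module (L0 B) (C.app (reg B)).Car)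

lemma xb_smul (a : L0 B) (x : Xb C) :
    a • x = ((C.Θ a).1 (reg B) (x : C.F.obj (reg B)) : C.F.obj (reg B)) := rfl

instance : SMul (L0 B)ᵐᵒᵖ (Xb C) :=
  ⟨fun a x => (C.F.map ((reg B).orb (π0 B a.unop)) (x : C.F.obj (reg B)) : C.F.obj (reg B))⟩

lemma xb_op_smul (a : (L0 B)ᵐᵒᵖ) (x : Xb C) :
    a • x = (C.F.map ((reg B).orb (π0 B a.unop)) (x : C.F.obj (reg B)) : C.F.obj (reg B)) := rfl

instance : Module (L0 B)ᵐᵒᵖ (Xb C) where
  one_smul := fun x => by
    rw [xb_op_smul, unop_one, map_one, orb_one]; exact C.F.map_id _ x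
  mul_smul := fun a a' x => by
    rw [xb_op_smul, xb_op_smul, xb_op_smul, unop_mul, map_mul]
    refine Eq.trans ?_ (C.F.map_comp _ _ _)
    rw [orb_comp]; rfl
  smul_zero := fun a => map_zero (C.F.map ((reg B).orb (π0 B a.unop)))
  smul_add := fun a x y => map_add (C.F.map ((reg B).orb (π0 B a.unop))) x y
  add_smul := fun a a' x => by
    rw [xb_op_smul, xb_op_smul, xb_op_smul, unop_add, map_add, map_add, map_add]; rfl
  zero_smul := fun x => by
    rw [xb_op_smul, unop_zero, map_zero, map_zero, map_zero]; rfl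

instance : SMulCommClass (L0 B) (L0 B)ᵐᵒᵖ (Xb C) :=
  ⟨fun a a' x => (C.Θ a).2 _ _ ((reg B).orb (π0 B a'.unop)) x⟩

instance : IsScalarTower ℂ (L0 B) (Xb C) :=
  ⟨fun c a x => by rw [xb_smul, xb_smul, map_smul]; rfl⟩

instance : IsScalarTower ℂ (L0 B)ᵐᵒᵖ (Xb C) :=
  ⟨fun c a x => by
    rw [xb_op_smul, xb_op_smul, unop_smul, map_smul, map_smul, map_smul]; rfl⟩

end inst

/-- The algebra. -/
abbrev Lam (C : EF B (L0 B)) : Type := TrivSqZeroExt (L0 B) (Xb C)

variable (C : EF B (L0 B))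

abbrev fstL : Lam C →ₐ[ℂ] L0 B := TrivSqZeroExt.fstHom ℂ (L0 B) (Xb C)
abbrev inlL : L0 B →ₐ[ℂ] Lam C := TrivSqZeroExt.inlAlgHom ℂ (L0 B) (Xb C)

/-- `L0 B`-representations as `Λ`-representations. -/
abbrev up (M : Rp (L0 B)) : Rp (Lam C) := M.res (fstL C)

def hatF : L0 B →ₐ[ℂ] ((NF.fgt B).prod C.F).End :=
  AlgHom.codRestrict
    (AlgHom.pi (fun M : Rp B => ((M.res (π0 B)).prod (C.app M)).ρ)) _
    (fun a M N f y => Prod.ext (Hom.comm f (π0 B a) y.1).symm ((C.Θ a).2 M N f y.2))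

def hatG1 (M : Rp B) (x : C.F.obj (reg B)) : M.V →ₗ[ℂ] C.F.obj M :=
  (LinearMap.applyₗ x) ∘ₗ C.F.map ∘ₗ M.orb

def hatG : Xb C →ₗ[ℂ] ((NF.fgt B).prod C.F).End where
  toFun := fun x => ⟨fun M => LinearMap.inr ℂ M.V (C.F.obj M) ∘ₗ hatG1 C M x ∘ₗ
      LinearMap.fst ℂ M.V (C.F.obj M), fun M N f y => by
    refine Prod.ext (map_zero f.1).symm ?_
    change C.F.map (N.orb (f.1 y.1)) x = C.F.map f (C.F.map (M.orb y.1) x)
    rw [← C.F.map_comp, comp_orb]⟩
  map_add' := fun x x' => NF.End.ext' fun M y =>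
    Prod.ext (add_zero 0).symm (map_add (C.F.map (M.orb y.1)) x x')
  map_smul' := fun c x => NF.End.ext' fun M y =>
    Prod.ext (smul_zero c).symm (map_smul (C.F.map (M.orb y.1)) c x)

lemma hatF_apply (a : L0 B) (M : Rp B) (y : M.V × C.F.obj M) :
    (hatF C a).1 M y = (M.ρ (π0 B a) y.1, (C.Θ a).1 M y.2) := rfl

lemma hatG_apply (x : Xb C) (M : Rp B) (y : M.V × C.F.obj M) :
    (hatG C x).1 M y = (0, C.F.map (M.orb y.1) x) := rfl

def hatΘ : Lam C →ₐ[ℂ] ((NF.fgt B).prod C.F).End :=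
  TrivSqZeroExt.lift (hatF C) (hatG C)
    (fun x x' => NF.End.ext' fun M y => by
      change (hatG C x).1 M ((hatG C x').1 M y) = 0
      rw [hatG_apply, hatG_apply]; simp)
    (fun a x => NF.End.ext' fun M y => by
      change _ = (hatF C a).1 M ((hatG C x).1 M y)
      rw [hatG_apply, hatG_apply, hatF_apply, map_zero]
      exact Prod.ext rfl ((C.Θ a).2 _ _ (M.orb y.1) x).symm)
    (fun a x => NF.End.ext' fun M y => by
      change _ = (hatG C x).1 M ((hatF C a).1 M y)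
      rw [hatG_apply, hatG_apply, hatF_apply]
      refine Prod.ext rfl ?_
      change C.F.map (M.orb y.1) (C.F.map ((reg B).orb (π0 B a)) x) = _
      rw [← C.F.map_comp, orb_comp])

abbrev Hat : EF B (Lam C) := ⟨(NF.fgt B).prod C.F, hatΘ C⟩

lemma hat_ρ (M : Rp B) (a : Lam C) (y : M.V × C.F.obj M) :
    ((Hat C).app M).ρ a y =
      (M.ρ (π0 B a.fst) y.1, (C.Θ a.fst).1 M y.2 + C.F.map (M.orb y.1) a.snd) := by
  change (hatF C a.fst).1 M y + (hatG C a.snd).1 M y = _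
  rw [hatF_apply, hatG_apply]; simp

def hatIn (M : Rp B) : (up C (C.app M)).Hom ((Hat C).app M) :=
  ⟨LinearMap.inr ℂ M.V (C.F.obj M), fun a y => by
    rw [hat_ρ]; simp; rfl⟩

def hatOut (M : Rp B) : ((Hat C).app M).Hom (up C (St 0 (by omega) M)) :=
  ⟨LinearMap.fst ℂ M.V (C.F.obj M), fun a y => by rw [hat_ρ]; rfl⟩

lemma ses_hat (M : Rp B) : SES (hatIn C M) (hatOut C M) :=
  ⟨LinearMap.inr_injective, LinearMap.fst_surjective, Function.Exact.inr_fst⟩

/-- The section `hat B → Λ`. -/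
def sHat : ((Hat C).app (reg B)).Hom (reg (Lam C)) :=
  ⟨{ toFun := fun y => (((lev0 B).ι y.1 * (lev0 B).ε 0, (y.2 : Xb C)) : Lam C)
     map_add' := fun y y' => by
       refine TrivSqZeroExt.ext ?_ rfl
       change (lev0 B).ι (y.1 + y'.1) * _ = _ + _
       rw [map_add, add_mul]
     map_smul' := fun c y => by
       refine TrivSqZeroExt.ext ?_ rfl
       change (lev0 B).ι (c • y.1) * _ = c • (_ * _)
       rw [map_smul, smul_mul_assoc] }, fun a y => by
    rw [hat_ρ]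
    refine TrivSqZeroExt.ext ?_ ?_
    · change (lev0 B).ι (π0 B a.fst * y.1) * _ = a.fst * ((lev0 B).ι y.1 * (lev0 B).ε 0)
      rw [← mul_assoc, mul_ε0 (a.fst * _), map_mul (π0 B), πL_ι]
    · change _ = a.fst • (show Xb C from y.2) + op ((lev0 B).ι y.1 * (lev0 B).ε 0) • a.snd
      rw [xb_op_smul, unop_op, map_mul, πL_ι, πL_ε, if_pos rfl, mul_one]
      rfl⟩

lemma sHat_gen : (sHat C).1 ((1 : B), 0) = inlL C ((lev0 B).ε 0) := by
  refine TrivSqZeroExt.ext ?_ rfl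
  change (lev0 B).ι 1 * _ = (lev0 B).ε 0
  rw [map_one, one_mul]

lemma pl_hat_reg : ((Hat C).app (reg B)).PL 1 := by
  refine pl_one_of_gen _ ((1 : B), 0) (sHat C) ?_ ?_
  · rintro ⟨b, x⟩
    refine ⟨(((lev0 B).ι b, (x : Xb C)) : Lam C), ?_⟩
    rw [hat_ρ]
    refine Prod.ext ?_ ?_
    · change π0 B ((lev0 B).ι b) * 1 = b
      simp
    · change (C.Θ _).1 _ 0 + C.F.map ((reg B).orb 1) x = x
      rw [map_zero, zero_add, orb_one, C.F.map_id]
  · rw [sHat_gen, hat_ρ]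
    refine Prod.ext ?_ ?_
    · change π0 B ((lev0 B).ε 0) * 1 = 1
      simp
    · change (C.Θ _).1 _ 0 + C.F.map ((reg B).orb 1) (0 : C.F.obj (reg B)) = 0
      simp

/-- The section `B⟨k+1⟩ → L0 B`. -/
def sAng0 (k : ℕ) (hk : k + 1 < 8) : ((Ang B k hk).app (reg B)).Hom (reg (L0 B)) :=
  ⟨{ toFun := fun y => (lev0 B).ι y.1 * (lev0 B).ε (k + 1) +
        (lev0 B).ι y.2 * (lev0 B).d * (lev0 B).ε (k + 1)
     map_add' := fun y y' => by
       simp only [Prod.fst_add, Prod.snd_add, map_add, add_mul]; abel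
     map_smul' := fun c y => by
       simp only [Prod.smul_fst, Prod.smul_snd, map_smul, smul_mul_assoc, smul_add,
         RingHom.id_apply] }, hom_L0 _
    (fun b y => by
      rw [ang_ι]
      simp only [LinearMap.coe_mk, AddHom.coe_mk, lmul_ap, map_mul, mul_add, mul_assoc])
    (fun i y => by
      rw [ang_ε]
      simp only [LinearMap.coe_mk, AddHom.coe_mk, lmul_ap, mul_add]
      have h1 : (lev0 B).ε i * ((lev0 B).ι y.1 * (lev0 B).ε (k + 1)) =
          (lev0 B).ι (if i = k + 1 then y.1 else 0) * (lev0 B).ε (k + 1) := by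
        rw [← mul_assoc, ← (lev0 B).ιε, mul_assoc, (lev0 B).orth]
        split_ifs with h
        · rw [h]
        · simp
      have h2 : (lev0 B).ε i * ((lev0 B).ι y.2 * (lev0 B).d * (lev0 B).ε (k + 1)) =
          (lev0 B).ι (if i = k then y.2 else 0) * (lev0 B).d * (lev0 B).ε (k + 1) := by
        rw [← mul_assoc, ← mul_assoc, ← (lev0 B).ιε, mul_assoc ((lev0 B).ι y.2), (lev0 B).εd,
          mul_assoc, mul_assoc, (lev0 B).orth]
        by_cases h : i = k
        · simp [h, mul_assoc]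
        · simp [h]
      rw [h1, h2])
    (fun y => by
      rw [ang_d]
      simp only [LinearMap.coe_mk, AddHom.coe_mk, lmul_ap, mul_add, map_zero, zero_mul, zero_add]
      rw [← mul_assoc, ← mul_assoc, ← mul_assoc, ← (lev0 B).ιd, ← (lev0 B).ιd,
        mul_assoc ((lev0 B).ι y.2), (lev0 B).dd]
      simp)⟩

lemma π0_sAng0 (k : ℕ) (hk : k + 1 < 8) (y : B × B) : π0 B ((sAng0 k hk).1 y) = 0 := by
  change π0 B ((lev0 B).ι y.1 * (lev0 B).ε (k + 1) +
        (lev0 B).ι y.2 * (lev0 B).d * (lev0 B).ε (k + 1)) = 0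
  simp

abbrev AngL (k : ℕ) (hk : k + 1 < 8) : EF B (Lam C) := (Ang B k hk).res (fstL C)

def sAng (k : ℕ) (hk : k + 1 < 8) : ((AngL C k hk).app (reg B)).Hom (reg (Lam C)) :=
  ⟨(inlL C).toLinearMap ∘ₗ (sAng0 k hk).1, fun a y => by
    refine TrivSqZeroExt.ext ?_ ?_
    · exact (sAng0 k hk).2 a.fst y
    · change (0 : Xb C) = a.fst • (0 : Xb C) + op ((sAng0 k hk).1 y) • a.snd
      rw [xb_op_smul, unop_op, π0_sAng0, map_zero, map_zero, smul_zero, zero_add]; rfl⟩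

lemma sAng_gen (k : ℕ) (hk : k + 1 < 8) :
    (sAng C k hk).1 ((1 : B), (0 : B)) = inlL C ((lev0 B).ε (k + 1)) := by
  change inlL C ((lev0 B).ι 1 * (lev0 B).ε (k + 1) +
        (lev0 B).ι 0 * (lev0 B).d * (lev0 B).ε (k + 1)) = _
  simp

lemma pl_ang_reg (k : ℕ) (hk : k + 1 < 8) : ((AngL C k hk).app (reg B)).PL 1 := by
  refine pl_one_of_gen _ ((1 : B), (0 : B)) (sAng C k hk) ?_ ?_
  · rintro ⟨b, b'⟩
    refine ⟨inlL C ((lev0 B).ι b + (lev0 B).ι b' * (lev0 B).d), ?_⟩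
    change ((Ang B k hk).app (reg B)).ρ ((lev0 B).ι b + (lev0 B).ι b' * (lev0 B).d) _ = _
    rw [map_add, LinearMap.add_apply, ρ_mul, ang_d, ang_ι, ang_ι]
    simp
  · rw [sAng_gen]
    change ((Ang B k hk).app (reg B)).ρ ((lev0 B).ε (k + 1)) _ = _
    rw [ang_ε]; simp

end Crest.Agent.H5.FD
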