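import Crest.Agent.H5.FD.F4

/-! Unbounded finite projective dimension from a functor `C` that lowers an index. -/

set_option autoImplicit false
noncomputable section
namespace Crest.Agent.H5.FD
open Rp CategoryTheory

variable {B : Type} [Ring B] [Algebra ℂ B] (C : EF B (L0 B))

lemma lam_dec (a : Lam C) :
    a = (sHat C).1 (((Hat C).app (reg B)).ρ a ((1 : B), 0)) +
      ∑ k : Fin 7, (sAng C k (by omega)).1
        (((AngL C k (by omega)).app (reg B)).ρ a ((1 : B), (0 : B))) := by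
  have h : ∀ k : Fin 7, (sAng C k (by omega)).1
      (((AngL C k (by omega)).app (reg B)).ρ a ((1 : B), (0 : B))) =
      a * inlL C ((lev0 B).ε (k + 1)) := fun k => by rw [Hom.comm, sAng_gen, reg_ρ]
  rw [Finset.sum_congr rfl fun k _ => h k, Hom.comm, sHat_gen, reg_ρ, ← Finset.mul_sum, ← mul_add, ← map_sum, ← map_add,
    Fin.sum_univ_eq_sum_range (fun k => (lev0 B).ε (k + 1)) 7, add_comm,
    ← Finset.sum_range_succ' (fun k => (lev0 B).ε k) 7, (lev0 B).sum, map_one, mul_one]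

lemma lam_finite [Module.Finite ℂ B] : Module.Finite ℂ (Lam C) := by
  have := C.F.fin (reg B) inferInstance
  let f : ((B × C.F.obj (reg B)) × (Fin 7 → B × B)) →ₗ[ℂ] Lam C :=
    LinearMap.coprod (sHat C).1
      (∑ k : Fin 7, (sAng C k (by omega)).1 ∘ₗ LinearMap.proj k)
  refine Module.Finite.of_surjective f fun a => ⟨(((Hat C).app (reg B)).ρ a ((1 : B), 0),
    fun k => ((AngL C k (by omega)).app (reg B)).ρ a ((1 : B), (0 : B))), ?_⟩
  simp only [f, LinearMap.coprod_apply, LinearMap.sum_apply, LinearMap.comp_apply,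
    LinearMap.proj_apply]
  exact (lam_dec C a).symm

abbrev εL (i : ℕ) : Lam C := inlL C ((lev0 B).ε i)
abbrev dL : Lam C := inlL C (lev0 B).d

section generic
variable {R : Type} [Ring R] (ε : ℕ → R) (d : R)

/-- Exactness at level `i`. -/
def ExM (Y : Type) [AddCommGroup Y] [Module R Y] (i : ℕ) : Prop :=
  ∀ y : Y, ε i • y = y → d • y = 0 → ∃ y', d • y' = y

lemma exM_free (i : ℕ) (h : ExM ε d R i) (Y : Type) : ExM ε d (Y →₀ R) i := by
  intro f hf hd
  choose g hg using fun y => h (f y) (DFunLike.congr_fun hf y) (DFunLike.congr_fun hd y)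
  refine ⟨f.sum fun y _ => Finsupp.single y (g y), ?_⟩
  rw [Finsupp.smul_sum]
  conv_rhs => rw [← Finsupp.sum_single f]
  refine Finsupp.sum_congr fun y _ => ?_
  rw [Finsupp.smul_single, hg]

lemma exM_of_pd (hR : ∀ i, 1 ≤ i → i ≤ 3 → ExM ε d R i) (hεd : ∀ i, ε i * d = d * ε (i + 1))
    (hεε : ∀ i, ε i * ε i = ε i) (hdd : d * d = 0) (n : ℕ) :
    ∀ (Y : Type) [AddCommGroup Y] [Module R Y],
      HasProjectiveDimensionLT (ModuleCat.of R Y) (n + 1) →
      ∀ i, n + 1 ≤ i → i ≤ 3 → ExM ε d Y i := by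
  induction n with
  | zero =>
    intro Y _ _ h i h1 h3 y hy hd
    have hp : Module.Projective R Y :=
      (IsProjective.iff_projective (R := R) Y).2 inferInstance
    obtain ⟨s, hs⟩ := Module.projective_def.1 hp
    obtain ⟨f, hf⟩ := exM_free ε d i (hR i h1 h3) Y (s y) (by rw [← map_smul, hy])
      (by rw [← map_smul, hd, map_zero])
    exact ⟨Finsupp.linearCombination R id f, by rw [← map_smul, hf, hs]⟩
  | succ n ih =>
    intro Y _ _ h i h1 h3 y hy hd
    let p : (Y →₀ R) →ₗ[R] Y := Finsupp.linearCombination R id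
    have hp : Function.Surjective p := Finsupp.linearCombination_id_surjective _ _
    have hP : Projective (ModuleCat.of R (Y →₀ R)) :=
      (IsProjective.iff_projective (R := R) _).1 inferInstance
    have hK : HasProjectiveDimensionLT (ModuleCat.of R (LinearMap.ker p)) (n + 1) :=
      (LinearMap.shortExact_shortComplexKer hp).hasProjectiveDimensionLT_X₁ (n + 1)
        (hasProjectiveDimensionLT_of_ge (ModuleCat.of R (Y →₀ R)) 1 _ (by omega)) h
    obtain ⟨j, rfl⟩ : ∃ j, i = j + 1 := ⟨i - 1, by omega⟩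
    obtain ⟨x0, hx0⟩ := hp y
    obtain ⟨x, hpx, hεx⟩ : ∃ x, p x = y ∧ ε (j + 1) • x = x :=
      ⟨ε (j + 1) • x0, by rw [map_smul, hx0, hy], by rw [← mul_smul, hεε]⟩
    obtain ⟨k, hk⟩ := ih (LinearMap.ker p) hK j (by omega) (by omega)
      ⟨d • x, by rw [LinearMap.mem_ker, map_smul, hpx, hd]⟩
      (Subtype.ext (by
        change ε j • d • x = d • x
        rw [← mul_smul, hεd, mul_smul, hεx]))
      (Subtype.ext (by
        change d • d • x = 0
        rw [← mul_smul, hdd, zero_smul]))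
    have hk' : d • k.1 = d • x := congrArg Subtype.val hk
    obtain ⟨x', hx'⟩ := exM_free ε d (j + 1) (hR _ (by omega) h3) Y (x - ε (j + 1) • k.1)
      (by rw [smul_sub, hεx, ← mul_smul, hεε])
      (by rw [smul_sub, ← mul_smul, ← hεd, mul_smul, hk', ← mul_smul, hεd, mul_smul, hεx,
        sub_self])
    refine ⟨p x', ?_⟩
    rw [← map_smul, hx', map_sub, map_smul, hpx, k.2, smul_zero, sub_zero]

end generic

lemma exM_lam (hC : ∀ i < 4, ∀ x, (C.Θ ((lev0 B).ε i)).1 (reg B) x = 0) (i : ℕ) (h1 : 1 ≤ i)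
    (h3 : i ≤ 3) : ExM (εL C) (dL C) (Lam C) i := by
  intro a ha hd
  rw [smul_eq_mul] at ha hd
  have hH : ((Hat C).app (reg B)).ρ a ((1 : B), 0) = 0 := by
    rw [← ha, ρ_mul, hat_ρ]
    refine Prod.ext ?_ ?_
    · change π0 B ((lev0 B).ε i) * _ = 0
      rw [πL_ε, if_neg (by omega), zero_mul]
    · change (C.Θ ((lev0 B).ε i)).1 (reg B) _ + C.F.map _ (0 : C.F.obj (reg B)) = 0
      rw [hC i (by omega), map_zero, add_zero]
  have hA : ∀ k : Fin 7, ∃ y', ((AngL C k (by omega)).app (reg B)).ρ (dL C) y' =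
      ((AngL C k (by omega)).app (reg B)).ρ a ((1 : B), (0 : B)) := by
    intro k
    set y := ((AngL C k (by omega)).app (reg B)).ρ a ((1 : B), (0 : B)) with hy
    have h0 : ((AngL C k (by omega)).app (reg B)).ρ (dL C) y = 0 := by
      rw [hy, ← ρ_mul, hd, map_zero, LinearMap.zero_apply]
    have h0' : ((0 : B), y.1) = 0 := by rw [← h0]; exact (ang_d k _ (reg B) y).symm
    refine ⟨(y.2, 0), ?_⟩
    refine (ang_d k _ (reg B) _).trans ?_
    exact Prod.ext (congrArg Prod.snd h0').symm rfl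
  choose y' hy' using hA
  refine ⟨∑ k : Fin 7, (sAng C k (by omega)).1 (y' k), ?_⟩
  rw [lam_dec C a, hH, map_zero, zero_add, smul_eq_mul, Finset.mul_sum]
  refine Finset.sum_congr rfl fun k _ => ?_
  rw [← hy' k, Hom.comm, reg_ρ]

lemma εL_dL (i : ℕ) : εL C i * dL C = dL C * εL C (i + 1) := by
  rw [← map_mul, ← map_mul, (lev0 B).εd]

lemma εL_idem (i : ℕ) : εL C i * εL C i = εL C i := by
  rw [← map_mul, (lev0 B).orth, if_pos rfl]

lemma dL_dL : dL C * dL C = 0 := by rw [← map_mul, (lev0 B).dd, map_zero]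

lemma not_pl_st3 (hC : ∀ i < 4, ∀ x, (C.Θ ((lev0 B).ε i)).1 (reg B) x = 0) (M : Rp B)
    (m : M.V) (hm : m ≠ 0) : ¬ (up C (St 3 (by omega) M)).PL 3 := by
  intro h
  obtain ⟨y, hy⟩ := exM_of_pd (εL C) (dL C) (exM_lam C hC) (εL_dL C) (εL_idem C) (dL_dL C) 2
    (up C (St 3 _ M)).Car h 3 le_rfl le_rfl m
    (by
      change M.ρ (πL B 3 _ ((lev0 B).ε 3)) m = m
      simp)
    (by
      change M.ρ (πL B 3 _ (lev0 B).d) m = (0 : M.V)
      simp)
  apply hm
  rw [← hy]
  change M.ρ (πL B 3 _ (lev0 B).d) y = (0 : M.V)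
  simp

lemma ε_big (j : ℕ) (hj : 8 ≤ j) : (lev0 B).ε j = 0 := by
  rw [← mul_one ((lev0 B).ε j), ← (lev0 B).sum, Finset.mul_sum]
  refine Finset.sum_eq_zero fun i hi => ?_
  rw [(lev0 B).orth, if_neg]
  rw [Finset.mem_range] at hi; omega

section
variable (D : Dir B) [Module.Finite ℂ B]
include D

lemma pl_ang (k : ℕ) (hk : k + 1 < 8) (M : Rp B) (hM : Module.Finite ℂ M.V) :
    (up C ((Ang B k hk).app M)).PL 3 :=
  D.pl_three (AngL C k hk) (pl_ang_reg C k hk) M hM

lemma pl_acyc_aux (t : ℕ) (ht : t < 8) : ∀ K : Rp (L0 B), Module.Finite ℂ K.V →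
    (∀ y, K.ρ (lev0 B).d y = 0 → ∃ y', K.ρ (lev0 B).d y' = y) →
    (∀ j, t < j → ∀ y, K.ρ ((lev0 B).ε j) y = 0) → (up C K).PL 3 := by
  induction t with
  | zero =>
    intro K _ hac htop
    refine (pl_zero _ fun y => ?_).mono (by omega)
    have hd : ∀ z : K.V, K.ρ (lev0 B).d z = 0 := by
      intro z
      have : K.ρ (∑ i ∈ Finset.range 8, (lev0 B).ε i) z = z := by
        rw [(lev0 B).sum, map_one]; rfl
      rw [map_sum, LinearMap.sum_apply, Finset.sum_eq_single_of_mem 0 (by simp)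
        (fun j _ hj => htop j (by omega) z)] at this
      rw [← this, ← ρ_mul, (lev0 B).dε, map_zero, LinearMap.zero_apply]
    obtain ⟨y', hy'⟩ := hac y (hd y)
    exact hy'.symm.trans (hd y')
  | succ k ih =>
    intro K hK hac htop
    have hεd : ∀ z, K.ρ ((lev0 B).ε (k + 1)) (K.ρ (lev0 B).d z) = 0 := fun z => by
      rw [← ρ_mul, (lev0 B).εd, ρ_mul, htop (k + 1 + 1) (by omega), map_zero]
    let U : Rp B := (K.res (lev0 B).ι).sub (LinearMap.range (K.ρ ((lev0 B).ε (k + 1))))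
      (by
        rintro b _ ⟨z, rfl⟩
        refine ⟨K.ρ ((lev0 B).ι b) z, ?_⟩
        change _ = K.ρ ((lev0 B).ι b) _
        rw [← ρ_mul, ← ρ_mul, (lev0 B).ιε])
    have hU : ∀ u : U.V, ∀ j, K.ρ ((lev0 B).ε j) u.1 = if j = k + 1 then u.1 else 0 := by
      rintro ⟨_, z, rfl⟩ j
      rw [← ρ_mul, (lev0 B).orth]
      split_ifs with h
      · rw [h]
      · simp
    let f0 : U.V × U.V →ₗ[ℂ] K.V :=
      LinearMap.coprod (Submodule.subtype _) (K.ρ (lev0 B).d ∘ₗ Submodule.subtype _)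
    have hf0 : ∀ y : U.V × U.V, f0 y = y.1.1 + K.ρ (lev0 B).d y.2.1 := fun _ => rfl
    let f : ((Ang B k ht).app U).Hom K := ⟨f0, hom_L0 _
      (fun b y => by
        rw [ang_ι, hf0, hf0, map_add, ← ρ_mul, (lev0 B).ιd, ρ_mul]; rfl)
      (fun j y => by
        rw [ang_ε, hf0, hf0, map_add, ← ρ_mul, (lev0 B).εd, ρ_mul, hU, hU]
        by_cases h1 : j = k + 1 <;> by_cases h2 : j = k <;> first | omega | simp [h1, h2])
      (fun y => by
        rw [ang_d, hf0, hf0, map_add, ← ρ_mul, (lev0 B).dd]; simp)⟩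
    have hfi : Function.Injective f.1 := by
      rw [injective_iff_map_eq_zero]
      intro y hy
      have hy' : y.1.1 + K.ρ (lev0 B).d y.2.1 = 0 := hy
      have h1 : y.1.1 = 0 := by
        have := congrArg (K.ρ ((lev0 B).ε (k + 1))) hy'
        rwa [map_add, hεd, hU, if_pos rfl, add_zero, map_zero] at this
      rw [h1, zero_add] at hy'
      obtain ⟨z, hz⟩ := hac _ hy'
      have h2 : y.2.1 = 0 := by
        have := hU y.2 (k + 1)
        rw [if_pos rfl, ← hz, hεd] at this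
        rw [← hz]; exact this.symm
      exact Prod.ext (Subtype.ext h1) (Subtype.ext h2)
    refine ((ses_cok f hfi).res (fstL C)).pl₂ (pl_ang C D k ht U inferInstance) ?_
    refine ih (by omega) (cokR f) inferInstance ?_ ?_
    · intro q hq
      obtain ⟨y, rfl⟩ := (LinearMap.range f.1).mkQ_surjective q
      have hq' : K.ρ (lev0 B).d y ∈ LinearMap.range f.1 := (Submodule.Quotient.mk_eq_zero _).1 hq
      obtain ⟨u, hu⟩ := hq'
      have hu' : u.1.1 + K.ρ (lev0 B).d u.2.1 = K.ρ (lev0 B).d y := hu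
      have h1 : u.1.1 = 0 := by
        have := congrArg (K.ρ ((lev0 B).ε (k + 1))) hu'
        rwa [map_add, hεd, hεd, hU, if_pos rfl, add_zero] at this
      obtain ⟨z, hz⟩ := hac (y - u.2.1) (by rw [map_sub, ← hu', h1, zero_add, sub_self])
      refine ⟨(LinearMap.range f.1).mkQ z, ?_⟩
      change (LinearMap.range f.1).mkQ (K.ρ (lev0 B).d z) = _
      rw [hz, map_sub, sub_eq_self, Submodule.mkQ_apply, Submodule.Quotient.mk_eq_zero]
      exact ⟨(u.2, 0), by rw [show f.1 (u.2, 0) = _ from hf0 _]; simp⟩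
    · intro j hj q
      obtain ⟨y, rfl⟩ := (LinearMap.range f.1).mkQ_surjective q
      change (LinearMap.range f.1).mkQ (K.ρ ((lev0 B).ε j) y) = 0
      rcases Nat.lt_or_ge (k + 1) j with h | h
      · rw [htop j h, map_zero]
      · have : j = k + 1 := by omega
        subst this
        rw [Submodule.mkQ_apply, Submodule.Quotient.mk_eq_zero]
        exact ⟨(⟨_, y, rfl⟩, 0), by rw [show f.1 (_, 0) = _ from hf0 _]; simp⟩

lemma pl_acyc (K : Rp (L0 B)) (hK : Module.Finite ℂ K.V)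
    (hac : ∀ y, K.ρ (lev0 B).d y = 0 → ∃ y', K.ρ (lev0 B).d y' = y) : (up C K).PL 3 :=
  pl_acyc_aux C D 7 (by omega) K hK hac fun j hj y => by
    rw [ε_big j hj, map_zero, LinearMap.zero_apply]

lemma st_up (k : ℕ) (hk : k + 1 < 8) (M : Rp B) (hM : Module.Finite ℂ M.V) (m : ℕ) (hm : 3 ≤ m)
    (h : (up C (St k (by omega) M)).PL m) : (up C (St (k + 1) hk M)).PL (m + 1) :=
  ((ses_ang k hk M).res (fstL C)).pl₃ h ((pl_ang C D k hk M hM).mono (by omega))

lemma st_down (k : ℕ) (hk : k + 1 < 8) (M : Rp B) (hM : Module.Finite ℂ M.V) (m : ℕ) (hm : 3 ≤ m)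
    (h : (up C (St (k + 1) hk M)).PL (m + 1)) : (up C (St k (by omega) M)).PL m :=
  ((ses_ang k hk M).res (fstL C)).pl₁ ((pl_ang C D k hk M hM).mono hm) h

theorem unbounded (hC : ∀ i < 4, ∀ x, (C.Θ ((lev0 B).ε i)).1 (reg B) x = 0)
    (M : ℕ → Rp B) (hfin : ∀ n, Module.Finite ℂ (M n).V) (h0 : ∀ m : (M 0).V, m = 0)
    (h1 : ∃ m : (M 1).V, m ≠ 0)
    (θ : ∀ n, (C.app (M (n + 1))).Hom ((St 5 (by omega) (M n)).prod (St 4 (by omega) (M n))))
    (hs : ∀ n, Function.Surjective (θ n).1)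
    (hac : ∀ n y, (θ n).1 y = 0 → (C.app (M (n + 1))).ρ (lev0 B).d y = 0 →
      ∃ y', (θ n).1 y' = 0 ∧ (C.app (M (n + 1))).ρ (lev0 B).d y' = y) (k : ℕ) :
    ∃ N : ModuleCat.{0} (Lam C), Module.Finite (Lam C) N ∧
      ¬ HasProjectiveDimensionLT N k ∧ ∃ n : ℕ, HasProjectiveDimensionLT N n := by
  have hK : ∀ n, (up C (kerR (θ n))).PL 3 := fun n => by
    have := C.F.fin _ (hfin (n + 1))
    refine pl_acyc C D _ inferInstance ?_
    rintro ⟨y, hy⟩ hd
    obtain ⟨y', h1, h2⟩ := hac n y hy (congrArg Subtype.val hd)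
    exact ⟨⟨y', h1⟩, Subtype.ext h2⟩
  have hH : ∀ n, ((Hat C).app (M n)).PL 3 := fun n =>
    D.pl_three (Hat C) (pl_hat_reg C) _ (hfin n)
  have hup : ∀ n m, 3 ≤ m → (up C (St 0 (by omega) (M n))).PL m →
      (up C (St 4 (by omega) (M n))).PL (m + 4) := fun n m hm h =>
    st_up C D 3 (by omega) _ (hfin n) _ (by omega) (st_up C D 2 (by omega) _ (hfin n) _ (by omega)
      (st_up C D 1 (by omega) _ (hfin n) _ (by omega) (st_up C D 0 (by omega) _ (hfin n) _ hm h)))
  have hfi : ∀ n, ∃ m, 3 ≤ m ∧ (up C (St 0 (by omega) (M n))).PL m := by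
    intro n
    induction n with
    | zero => exact ⟨3, le_rfl, (pl_zero (up C (St 0 (by omega) (M 0))) h0).mono (by omega)⟩
    | succ n ih =>
      obtain ⟨m, hm, h⟩ := ih
      have h4 := hup n m hm h
      have h5 := st_up C D 4 (by omega) _ (hfin n) _ (by omega) h4
      have hP := ((ses_prod (St 5 (by omega) (M n)) (St 4 (by omega) (M n))).res (fstL C)).pl₂ h5
        (h4.mono (by omega))
      have hCn := ((ses_ker (θ n) (hs n)).res (fstL C)).pl₂ ((hK n).mono (by omega)) hP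
      exact ⟨m + 4 + 1 + 1, by omega, (ses_hat C _).pl₃ hCn ((hH _).mono (by omega))⟩
  have hlo : ∀ n, ¬ (up C (St 4 (by omega) (M (n + 1)))).PL (4 + 5 * n) := by
    intro n
    induction n with
    | zero =>
      obtain ⟨m, hm⟩ := h1
      exact fun h => not_pl_st3 C hC _ m hm (st_down C D 3 (by omega) _ (hfin _) 3 le_rfl h)
    | succ n ih =>
      intro h
      apply ih
      have e : 4 + 5 * (n + 1) = (4 + 5 * n + 1) + 1 + 1 + 1 + 1 := by ring
      rw [e] at h
      have h0' := st_down C D 0 (by omega) _ (hfin _) _ (by omega)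
        (st_down C D 1 (by omega) _ (hfin _) _ (by omega)
        (st_down C D 2 (by omega) _ (hfin _) _ (by omega)
        (st_down C D 3 (by omega) _ (hfin _) _ (by omega) h)))
      have hCn := (ses_hat C _).pl₁ ((hH _).mono (by omega)) h0'
      have e2 : 4 + 5 * n = (3 + 5 * n) + 1 := by ring
      rw [e2] at hCn ⊢
      have hP := ((ses_ker (θ (n + 1)) (hs (n + 1))).res (fstL C)).pl₃ ((hK _).mono (by omega)) hCn
      exact hP.retract (Hom.res (fstL C) (inrH _ _)) (Hom.res (fstL C) (sndH _ _)) fun _ => rfl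
  have := hfin (k + 1)
  refine ⟨(up C (St 4 (by omega) (M (k + 1)))).cat, finite_car _,
    fun h => hlo k (PL.mono h (by omega)), ?_⟩
  obtain ⟨m, hm, h⟩ := hfi (k + 1)
  exact ⟨m + 4, hup _ m hm h⟩

end

end Crest.Agent.H5.FD
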