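import Crest.Agent.H5.FD.F5

/-! The three-vertex algebra attached to a family of quadratic relations. -/

set_option autoImplicit false
noncomputable section
namespace Crest.Agent.H5.FD
open Rp

/-- A quadratic relation with three terms. -/
structure Tri (Lt : Type) where
  p1 : Lt × Lt
  p2 : Lt × Lt
  p3 : Lt × Lt
  c : ℂ

def Tri.ev {Lt : Type} (ρ : Tri Lt) {S : Type*} [AddCommGroup S] [Module ℂ S]
    (m : Lt → Lt → S) : S :=
  m ρ.p1.1 ρ.p1.2 - m ρ.p2.1 ρ.p2.2 + ρ.c • m ρ.p3.1 ρ.p3.2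

lemma Tri.map_ev {Lt : Type} (ρ : Tri Lt) {S S' : Type*} [AddCommGroup S] [Module ℂ S]
    [AddCommGroup S'] [Module ℂ S'] (f : S →ₗ[ℂ] S') (m : Lt → Lt → S) :
    f (ρ.ev m) = ρ.ev (fun g g' => f (m g g')) := by
  simp [Tri.ev]

lemma Tri.ev_mem {Lt : Type} (ρ : Tri Lt) {S : Type*} [AddCommGroup S] [Module ℂ S]
    (U : Submodule ℂ S) (m : Lt → Lt → S) (h : ∀ g g', m g g' ∈ U) : ρ.ev m ∈ U :=
  U.add_mem (U.sub_mem (h _ _) (h _ _)) (U.smul_mem _ (h _ _))

variable {Lt Rl : Type} (rc : Rl → Tri Lt)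

/-- Images of the generators. -/
structure BData (S : Type*) [Ring S] [Algebra ℂ S] where
  e : ℕ → S
  a : Lt → S
  b : Lt → S
  orth : ∀ i j, e i * e j = if i = j then e i else 0
  sum : e 0 + e 1 + e 2 = 1
  ea : ∀ g, e 1 * a g = a g
  ae : ∀ g, a g * e 0 = a g
  eb : ∀ g, e 2 * b g = b g
  be : ∀ g, b g * e 1 = b g
  rel : ∀ ρ, (rc ρ).ev (fun g g' => b g * a g') = 0

abbrev FB (Lt : Type) : Type := FreeAlgebra ℂ (ℕ ⊕ Lt ⊕ Lt)
abbrev ge (Lt : Type) (i : ℕ) : FB Lt := FreeAlgebra.ι ℂ (Sum.inl i)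
abbrev ga (g : Lt) : FB Lt := FreeAlgebra.ι ℂ (Sum.inr (Sum.inl g))
abbrev gb (g : Lt) : FB Lt := FreeAlgebra.ι ℂ (Sum.inr (Sum.inr g))

inductive BRel : FB Lt → FB Lt → Prop
  | orth (i j : ℕ) : BRel (ge Lt i * ge Lt j) (if i = j then ge Lt i else 0)
  | sum : BRel (ge Lt 0 + ge Lt 1 + ge Lt 2) 1
  | ea (g : Lt) : BRel (ge Lt 1 * ga g) (ga g)
  | ae (g : Lt) : BRel (ga g * ge Lt 0) (ga g)
  | eb (g : Lt) : BRel (ge Lt 2 * gb g) (gb g)
  | be (g : Lt) : BRel (gb g * ge Lt 1) (gb g)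
  | rel (ρ : Rl) : BRel ((rc ρ).ev (fun g g' => gb g * ga g')) 0

abbrev BB : Type := RingQuot (BRel rc)

abbrev mkB : FB Lt →ₐ[ℂ] BB rc := RingQuot.mkAlgHom ℂ (BRel rc)

lemma mkB_rel {x y : FB Lt} (h : BRel rc x y) : mkB rc x = mkB rc y :=
  RingQuot.mkAlgHom_rel ℂ h

def bd0 : BData rc (BB rc) where
  e := fun i => mkB rc (ge Lt i)
  a := fun g => mkB rc (ga g)
  b := fun g => mkB rc (gb g)
  orth := fun i j => by rw [← map_mul, mkB_rel rc (BRel.orth i j)]; split_ifs <;> simp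
  sum := by rw [← map_add, ← map_add, mkB_rel rc BRel.sum, map_one]
  ea := fun g => by rw [← map_mul, mkB_rel rc (BRel.ea g)]
  ae := fun g => by rw [← map_mul, mkB_rel rc (BRel.ae g)]
  eb := fun g => by rw [← map_mul, mkB_rel rc (BRel.eb g)]
  be := fun g => by rw [← map_mul, mkB_rel rc (BRel.be g)]
  rel := fun ρ => by
    have := mkB_rel rc (BRel.rel ρ)
    simpa [Tri.ev] using this

section lift
variable {rc} {S : Type*} [Ring S] [Algebra ℂ S]

def BData.gen (L : BData rc S) : ℕ ⊕ Lt ⊕ Lt → S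
  | Sum.inl i => L.e i
  | Sum.inr (Sum.inl g) => L.a g
  | Sum.inr (Sum.inr g) => L.b g

def BData.lift (L : BData rc S) : BB rc →ₐ[ℂ] S :=
  RingQuot.liftAlgHom ℂ ⟨FreeAlgebra.lift ℂ L.gen, by
    intro x y h
    induction h with
    | orth i j =>
      simp only [map_mul, FreeAlgebra.lift_ι_apply, BData.gen, L.orth]
      split_ifs <;> simp [BData.gen]
    | sum => simp only [map_add, FreeAlgebra.lift_ι_apply, BData.gen, L.sum, map_one]
    | ea g => simp [BData.gen, L.ea]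
    | ae g => simp [BData.gen, L.ae]
    | eb g => simp [BData.gen, L.eb]
    | be g => simp [BData.gen, L.be]
    | rel ρ => simpa [Tri.ev, BData.gen] using L.rel ρ⟩

@[simp] lemma BData.lift_e (L : BData rc S) (i : ℕ) : L.lift ((bd0 rc).e i) = L.e i := by
  change L.lift (mkB rc (ge Lt i)) = _
  simp [BData.lift, BData.gen]

@[simp] lemma BData.lift_a (L : BData rc S) (g : Lt) : L.lift ((bd0 rc).a g) = L.a g := by
  change L.lift (mkB rc (ga g)) = _
  simp [BData.lift, BData.gen]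

@[simp] lemma BData.lift_b (L : BData rc S) (g : Lt) : L.lift ((bd0 rc).b g) = L.b g := by
  change L.lift (mkB rc (gb g)) = _
  simp [BData.lift, BData.gen]

lemma BData.e_a (L : BData rc S) (i : ℕ) (g : Lt) : L.e i * L.a g = if i = 1 then L.a g else 0 := by
  rw [← L.ea g, ← mul_assoc, L.orth]
  split_ifs with h
  · rw [h]
  · simp

lemma BData.a_e (L : BData rc S) (i : ℕ) (g : Lt) : L.a g * L.e i = if i = 0 then L.a g else 0 := by
  rw [← L.ae g, mul_assoc, L.orth]
  by_cases h : i = 0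
  · simp [h]
  · rw [if_neg (Ne.symm h), if_neg h, mul_zero]

lemma BData.e_b (L : BData rc S) (i : ℕ) (g : Lt) : L.e i * L.b g = if i = 2 then L.b g else 0 := by
  rw [← L.eb g, ← mul_assoc, L.orth]
  split_ifs with h
  · rw [h]
  · simp

lemma BData.b_e (L : BData rc S) (i : ℕ) (g : Lt) : L.b g * L.e i = if i = 1 then L.b g else 0 := by
  rw [← L.be g, mul_assoc, L.orth]
  by_cases h : i = 1
  · simp [h]
  · rw [if_neg (Ne.symm h), if_neg h, mul_zero]

lemma BData.e_big (L : BData rc S) (i : ℕ) (hi : 3 ≤ i) : L.e i = 0 := by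
  rw [← mul_one (L.e i), ← L.sum, mul_add, mul_add, L.orth, L.orth, L.orth,
    if_neg (by omega), if_neg (by omega), if_neg (by omega)]
  simp

end lift

lemma BB.ind {p : BB rc → Prop} (hc : ∀ c : ℂ, p (algebraMap ℂ _ c)) (he : ∀ i, p ((bd0 rc).e i))
    (ha : ∀ g, p ((bd0 rc).a g)) (hb : ∀ g, p ((bd0 rc).b g))
    (hadd : ∀ x y, p x → p y → p (x + y))
    (hmul : ∀ x y, p x → p y → p (x * y)) (x : BB rc) : p x := by
  obtain ⟨x, rfl⟩ := RingQuot.mkAlgHom_surjective ℂ (BRel rc) x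
  induction x using FreeAlgebra.induction with
  | grade0 r => rw [AlgHom.commutes]; exact hc r
  | grade1 g =>
    rcases g with i | g | g
    · exact he i
    · exact ha g
    · exact hb g
  | mul a b ha hb => rw [map_mul]; exact hmul _ _ ha hb
  | add a b ha hb => rw [map_add]; exact hadd _ _ ha hb

lemma hom_BB {M N : Rp (BB rc)} (f : M.V →ₗ[ℂ] N.V)
    (he : ∀ i m, f (M.ρ ((bd0 rc).e i) m) = N.ρ ((bd0 rc).e i) (f m))
    (ha : ∀ g m, f (M.ρ ((bd0 rc).a g) m) = N.ρ ((bd0 rc).a g) (f m))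
    (hb : ∀ g m, f (M.ρ ((bd0 rc).b g) m) = N.ρ ((bd0 rc).b g) (f m)) : f ∈ M.Hom N := by
  intro a
  induction a using BB.ind with
  | hc c => intro m; simp [Algebra.algebraMap_eq_smul_one]
  | he i => exact he i
  | ha g => exact ha g
  | hb g => exact hb g
  | hadd x y hx hy => intro m; simp only [map_add, LinearMap.add_apply, hx m, hy m]
  | hmul x y hx hy => intro m; rw [ρ_mul, ρ_mul, hx, hy]

/-- The spanning family. -/
def spanF : Fin 3 ⊕ Lt ⊕ Lt ⊕ (Lt × Lt) → BB rc
  | Sum.inl i => (bd0 rc).e i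
  | Sum.inr (Sum.inl g) => (bd0 rc).a g
  | Sum.inr (Sum.inr (Sum.inl g)) => (bd0 rc).b g
  | Sum.inr (Sum.inr (Sum.inr g)) => (bd0 rc).b g.1 * (bd0 rc).a g.2

lemma span_top : Submodule.span ℂ (Set.range (spanF rc)) = ⊤ := by
  set S := Submodule.span ℂ (Set.range (spanF rc)) with hS
  have hf : ∀ i, spanF rc i ∈ S := fun i => Submodule.subset_span ⟨i, rfl⟩
  have he : ∀ i, (bd0 rc).e i ∈ S := fun i => by
    by_cases h : i < 3
    · exact hf (Sum.inl ⟨i, h⟩)
    · rw [(bd0 rc).e_big i (by omega)]; exact S.zero_mem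
  have ha : ∀ g, (bd0 rc).a g ∈ S := fun g => hf (Sum.inr (Sum.inl g))
  have hb : ∀ g, (bd0 rc).b g ∈ S := fun g => hf (Sum.inr (Sum.inr (Sum.inl g)))
  have hba : ∀ g g', (bd0 rc).b g * (bd0 rc).a g' ∈ S :=
    fun g g' => hf (Sum.inr (Sum.inr (Sum.inr (g, g'))))
  have haa : ∀ g g', (bd0 rc).a g * (bd0 rc).a g' = 0 := fun g g' => by
    rw [← (bd0 rc).ae g, mul_assoc, BData.e_a]; simp
  have hab : ∀ g g', (bd0 rc).a g * (bd0 rc).b g' = 0 := fun g g' => by
    rw [← (bd0 rc).ae g, mul_assoc, BData.e_b]; simp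
  have hbb : ∀ g g', (bd0 rc).b g * (bd0 rc).b g' = 0 := fun g g' => by
    rw [← (bd0 rc).be g, mul_assoc, BData.e_b]; simp
  have gen : ∀ x : BB rc, (∀ i, x * spanF rc i ∈ S) → ∀ s ∈ S, x * s ∈ S := by
    intro x hx s hs
    induction hs using Submodule.span_induction with
    | mem y hy => obtain ⟨i, rfl⟩ := hy; exact hx i
    | zero => rw [mul_zero]; exact S.zero_mem
    | add y z _ _ hy hz => rw [mul_add]; exact S.add_mem hy hz
    | smul c y _ hy => rw [mul_smul_comm]; exact S.smul_mem c hy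
  have key : ∀ x : BB rc, ∀ s ∈ S, x * s ∈ S := by
    intro x
    induction x using BB.ind with
    | hc c => intro s hs; rw [← Algebra.smul_def]; exact S.smul_mem c hs
    | he i =>
      refine gen _ ?_
      rintro (j | g | g | g) <;> simp only [spanF]
      · rw [(bd0 rc).orth]; split_ifs; exacts [he _, S.zero_mem]
      · rw [BData.e_a]; split_ifs; exacts [ha _, S.zero_mem]
      · rw [BData.e_b]; split_ifs; exacts [hb _, S.zero_mem]
      · rw [← mul_assoc, BData.e_b]; split_ifs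
        · exact hba _ _
        · rw [zero_mul]; exact S.zero_mem
    | ha g' =>
      refine gen _ ?_
      rintro (j | g | g | g) <;> simp only [spanF]
      · rw [BData.a_e]; split_ifs; exacts [ha _, S.zero_mem]
      · rw [haa]; exact S.zero_mem
      · rw [hab]; exact S.zero_mem
      · rw [← mul_assoc, hab, zero_mul]; exact S.zero_mem
    | hb g' =>
      refine gen _ ?_
      rintro (j | g | g | g) <;> simp only [spanF]
      · rw [BData.b_e]; split_ifs; exacts [hb _, S.zero_mem]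
      · exact hba _ _
      · rw [hbb]; exact S.zero_mem
      · rw [← mul_assoc, hbb, zero_mul]; exact S.zero_mem
    | hadd x y hx hy => intro s hs; rw [add_mul]; exact S.add_mem (hx s hs) (hy s hs)
    | hmul x y hx hy => intro s hs; rw [mul_assoc]; exact hx _ (hy s hs)
  rw [eq_top_iff]
  intro x _
  rw [← mul_one x]
  refine key x 1 ?_
  rw [← (bd0 rc).sum]
  exact S.add_mem (S.add_mem (he 0) (he 1)) (he 2)

instance finite_BB [Finite Lt] : Module.Finite ℂ (BB rc) :=
  ⟨by rw [← span_top rc]; exact Submodule.fg_span (Set.finite_range _)⟩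

def dirB : Dir (BB rc) where
  e := (bd0 rc).e
  idem := fun i => by rw [(bd0 rc).orth, if_pos rfl]
  sum := (bd0 rc).sum
  low := fun i j b hij => by
    have hb : b ∈ Submodule.span ℂ (Set.range (spanF rc)) := by rw [span_top]; trivial
    induction hb using Submodule.span_induction with
    | mem y hy =>
      obtain ⟨k | g | g | g, rfl⟩ := hy <;> simp only [spanF]
      · rw [(bd0 rc).orth]
        split_ifs with h
        · rw [(bd0 rc).orth, if_neg (by omega)]
        · rw [zero_mul]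
      · rw [BData.e_a]
        split_ifs with h
        · rw [BData.a_e, if_neg (by omega)]
        · rw [zero_mul]
      · rw [BData.e_b]
        split_ifs with h
        · rw [BData.b_e, if_neg (by omega)]
        · rw [zero_mul]
      · rw [mul_assoc, mul_assoc, BData.a_e, if_neg (by omega), mul_zero, mul_zero]
    | zero => simp
    | add y z _ _ hy hz => rw [mul_add, add_mul, hy, hz, add_zero]
    | smul c y _ hy => rw [mul_smul_comm, smul_mul_assoc, hy, smul_zero]
  diag := fun j b => by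
    have hb : b ∈ Submodule.span ℂ (Set.range (spanF rc)) := by rw [span_top]; trivial
    induction hb using Submodule.span_induction with
    | mem y hy =>
      obtain ⟨k | g | g | g, rfl⟩ := hy <;> simp only [spanF]
      · rw [(bd0 rc).orth]
        split_ifs with h
        · exact ⟨1, by rw [(bd0 rc).orth, if_pos rfl, one_smul]⟩
        · exact ⟨0, by simp⟩
      · refine ⟨0, ?_⟩
        rw [BData.e_a]
        split_ifs with h
        · rw [BData.a_e, if_neg (by omega), zero_smul]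
        · simp
      · refine ⟨0, ?_⟩
        rw [BData.e_b]
        split_ifs with h
        · rw [BData.b_e, if_neg (by omega), zero_smul]
        · simp
      · refine ⟨0, ?_⟩
        rw [← mul_assoc, BData.e_b]
        split_ifs with h
        · rw [mul_assoc, BData.a_e, if_neg (by omega), mul_zero, zero_smul]
        · simp
    | zero => exact ⟨0, by simp⟩
    | add y z _ _ hy hz =>
      obtain ⟨c, hc⟩ := hy
      obtain ⟨c', hc'⟩ := hz
      exact ⟨c + c', by rw [mul_add, add_mul, hc, hc', add_smul]⟩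
    | smul c y _ hy =>
      obtain ⟨c', hc'⟩ := hy
      exact ⟨c * c', by rw [mul_smul_comm, smul_mul_assoc, hc', mul_smul]⟩

/-! ### Representations from triples of spaces -/

section tri
variable {V0 V1 V2 : Type} [AddCommGroup V0] [Module ℂ V0] [AddCommGroup V1] [Module ℂ V1]
  [AddCommGroup V2] [Module ℂ V2]

def triE (V0 V1 V2 : Type) [AddCommGroup V0] [Module ℂ V0] [AddCommGroup V1] [Module ℂ V1]
    [AddCommGroup V2] [Module ℂ V2] (i : ℕ) : Module.End ℂ (V0 × V1 × V2) :=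
  LinearMap.prodMap (if i = 0 then LinearMap.id else 0)
    (LinearMap.prodMap (if i = 1 then LinearMap.id else 0) (if i = 2 then LinearMap.id else 0))

lemma triE_apply (i : ℕ) (y : V0 × V1 × V2) :
    triE V0 V1 V2 i y = (if i = 0 then y.1 else 0, if i = 1 then y.2.1 else 0,
      if i = 2 then y.2.2 else 0) := by
  ext <;> simp only [triE, LinearMap.prodMap_apply] <;> split_ifs <;> simp

def triA (f : V0 →ₗ[ℂ] V1) (V2 : Type) [AddCommGroup V2] [Module ℂ V2] :
    Module.End ℂ (V0 × V1 × V2) :=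
  LinearMap.inr ℂ _ _ ∘ₗ LinearMap.inl ℂ _ _ ∘ₗ f ∘ₗ LinearMap.fst ℂ _ _

lemma triA_apply (f : V0 →ₗ[ℂ] V1) (y : V0 × V1 × V2) : triA f V2 y = (0, f y.1, 0) := rfl

def triB (V0 : Type) [AddCommGroup V0] [Module ℂ V0] (f : V1 →ₗ[ℂ] V2) :
    Module.End ℂ (V0 × V1 × V2) :=
  LinearMap.inr ℂ _ _ ∘ₗ LinearMap.inr ℂ _ _ ∘ₗ f ∘ₗ LinearMap.fst ℂ _ _ ∘ₗ LinearMap.snd ℂ _ _

lemma triB_apply (f : V1 →ₗ[ℂ] V2) (y : V0 × V1 × V2) : triB V0 f y = (0, 0, f y.2.1) := rfl

def triD (A : Lt → V0 →ₗ[ℂ] V1) (B : Lt → V1 →ₗ[ℂ] V2)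
    (h : ∀ ρ m, (rc ρ).ev (fun g g' => B g (A g' m)) = 0) :
    BData rc (Module.End ℂ (V0 × V1 × V2)) where
  e := triE V0 V1 V2
  a := fun g => triA (A g) V2
  b := fun g => triB V0 (B g)
  orth := fun i j => by
    refine LinearMap.ext fun y => ?_
    by_cases h : i = j
    · subst h
      rw [if_pos rfl, Module.End.mul_apply, triE_apply, triE_apply]
      ext <;> simp only <;> split_ifs <;> rfl
    · rw [if_neg h, Module.End.mul_apply, triE_apply, triE_apply]
      ext <;> simp only <;> split_ifs <;> first | omega | rfl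
  sum := LinearMap.ext fun y => by simp [triE_apply]
  ea := fun g => LinearMap.ext fun y => by simp [triE_apply, triA_apply]
  ae := fun g => LinearMap.ext fun y => by simp [triE_apply, triA_apply]
  eb := fun g => LinearMap.ext fun y => by simp [triE_apply, triB_apply]
  be := fun g => LinearMap.ext fun y => by simp [triE_apply, triB_apply]
  rel := fun ρ => LinearMap.ext fun y => by
    have := h ρ y.1
    simp only [Tri.ev] at this ⊢
    simp only [LinearMap.add_apply, LinearMap.sub_apply, LinearMap.smul_apply,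
      Module.End.mul_apply, triA_apply, triB_apply, LinearMap.zero_apply]
    ext <;> simp [this]

abbrev triR (A : Lt → V0 →ₗ[ℂ] V1) (B : Lt → V1 →ₗ[ℂ] V2)
    (h : ∀ ρ m, (rc ρ).ev (fun g g' => B g (A g' m)) = 0) : Rp (BB rc) :=
  ⟨V0 × V1 × V2, (triD rc A B h).lift⟩

variable (A : Lt → V0 →ₗ[ℂ] V1) (B : Lt → V1 →ₗ[ℂ] V2)
    (h : ∀ ρ m, (rc ρ).ev (fun g g' => B g (A g' m)) = 0)

lemma triR_e (i : ℕ) (y : V0 × V1 × V2) : (triR rc A B h).ρ ((bd0 rc).e i) y =
    (if i = 0 then y.1 else 0, if i = 1 then y.2.1 else 0, if i = 2 then y.2.2 else 0) := by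
  rw [BData.lift_e]; exact triE_apply i y

lemma triR_a (g : Lt) (y : V0 × V1 × V2) :
    (triR rc A B h).ρ ((bd0 rc).a g) y = (0, A g y.1, 0) := by
  rw [BData.lift_a]; rfl

lemma triR_b (g : Lt) (y : V0 × V1 × V2) :
    (triR rc A B h).ρ ((bd0 rc).b g) y = (0, 0, B g y.2.1) := by
  rw [BData.lift_b]; rfl

lemma tri_hom {W0 W1 W2 : Type} [AddCommGroup W0] [Module ℂ W0] [AddCommGroup W1] [Module ℂ W1]
    [AddCommGroup W2] [Module ℂ W2] (A' : Lt → W0 →ₗ[ℂ] W1) (B' : Lt → W1 →ₗ[ℂ] W2)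
    (h' : ∀ ρ m, (rc ρ).ev (fun g g' => B' g (A' g' m)) = 0)
    (f0 : V0 →ₗ[ℂ] W0) (f1 : V1 →ₗ[ℂ] W1) (f2 : V2 →ₗ[ℂ] W2)
    (hA : ∀ g m, f1 (A g m) = A' g (f0 m)) (hB : ∀ g m, f2 (B g m) = B' g (f1 m))
    (b : BB rc) (y : V0 × V1 × V2) :
    f0.prodMap (f1.prodMap f2) ((triR rc A B h).ρ b y) =
      (triR rc A' B' h').ρ b (f0.prodMap (f1.prodMap f2) y) := by
  refine hom_BB rc (M := triR rc A B h) (N := triR rc A' B' h') (f0.prodMap (f1.prodMap f2))
    ?_ ?_ ?_ b y
  · intro i m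
    rw [triR_e, triR_e]
    ext <;> simp only [LinearMap.prodMap_apply] <;> split_ifs <;> simp
  · intro g m
    rw [triR_a, triR_a]; simp [hA]
  · intro g m
    rw [triR_b, triR_b]; simp [hB]

end tri

/-! ### Evaluation at a vertex -/

section ev
variable {B : Type} [Ring B] [Algebra ℂ B]

def fixS (M : Rp B) (ε : B) : Submodule ℂ M.V where
  carrier := {m | M.ρ ε m = m}
  add_mem' := fun {x y} hx hy => by
    change M.ρ ε (x + y) = x + y
    rw [map_add, hx, hy]
  zero_mem' := map_zero _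
  smul_mem' := fun c x hx => by
    change M.ρ ε (c • x) = c • x
    rw [map_smul, hx]

lemma fixS_map {M N : Rp B} (f : M.Hom N) (ε : B) : ∀ x ∈ fixS M ε, f.1 x ∈ fixS N ε :=
  fun x hx => by
    change N.ρ ε (f.1 x) = f.1 x
    rw [← Hom.comm, hx]

lemma fixS_mk (M : Rp B) (ε : B) (hε : ε * ε = ε) (x : M.V) : M.ρ ε x ∈ fixS M ε := by
  change M.ρ ε _ = _
  rw [← ρ_mul, hε]

def evF (ε : B) (hε : ε * ε = ε) : NF B where
  obj := fun M => fixS M ε
  map := fun {M N} =>
    { toFun := fun f => f.1.restrict (fixS_map f ε)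
      map_add' := fun f g => by ext; simp
      map_smul' := fun c f => by ext; simp }
  map_id := fun M y => rfl
  map_comp := fun g f y => rfl
  inj := fun f h x y hxy => Subtype.ext (h (congrArg Subtype.val hxy))
  surj := fun {M N} f h y => by
    obtain ⟨x, hx⟩ := h y.1
    refine ⟨⟨M.ρ ε x, fixS_mk M ε hε x⟩, Subtype.ext ?_⟩
    change f.1 (M.ρ ε x) = y.1
    rw [Hom.comm, hx, y.2]
  ex := fun {M N P} f g h y => by
    constructor
    · intro hy
      obtain ⟨x, hx⟩ := (h y.1).1 (congrArg Subtype.val hy)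
      refine ⟨⟨M.ρ ε x, fixS_mk M ε hε x⟩, Subtype.ext ?_⟩
      change f.1 (M.ρ ε x) = y.1
      rw [Hom.comm, hx, y.2]
    · rintro ⟨x, rfl⟩
      exact Subtype.ext (h.apply_apply_eq_zero x.1)
  fin := fun M h => inferInstanceAs (Module.Finite ℂ (fixS M ε))

def evM {ε ε' : B} (hε : ε * ε = ε) (hε' : ε' * ε' = ε') (x : B) (hx : ε' * x = x) :
    (evF ε hε).Hom (evF ε' hε') :=
  ⟨fun M => (M.ρ x).restrict (p := fixS M ε) (q := fixS M ε') (fun m _ => by
      change M.ρ ε' _ = _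
      rw [← ρ_mul, hx]),
    fun M N f y => Subtype.ext (Hom.comm f x y.1).symm⟩

end ev

abbrev evB (i : ℕ) : NF (BB rc) := evF ((bd0 rc).e i) ((dirB rc).idem i)
def evA (g : Lt) : (evB rc 0).Hom (evB rc 1) := evM _ _ ((bd0 rc).a g) ((bd0 rc).ea g)
def evBb (g : Lt) : (evB rc 1).Hom (evB rc 2) := evM _ _ ((bd0 rc).b g) ((bd0 rc).eb g)

lemma ev_rel (ρ : Rl) (M : Rp (BB rc)) (m : (evB rc 0).obj M) :
    (rc ρ).ev (fun g g' => (evBb rc g).1 M ((evA rc g').1 M m)) = 0 := by
  apply Subtype.ext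
  have h1 := (rc ρ).map_ev (fixS M ((bd0 rc).e 2)).subtype
    (fun g g' => (evBb rc g).1 M ((evA rc g').1 M m))
  refine h1.trans ?_
  have h2 := (rc ρ).map_ev ((LinearMap.applyₗ (m.1 : M.V)) ∘ₗ M.ρ.toLinearMap)
    (fun g g' => (bd0 rc).b g * (bd0 rc).a g')
  rw [(bd0 rc).rel, map_zero] at h2
  refine Eq.trans ?_ h2.symm
  congr 1
  funext g g'
  exact (M.ρ_mul _ _ _).symm

end Crest.Agent.H5.FD
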