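import Crest.Agent.H5.FD.F6

/-! Natural graded complexes. -/

set_option autoImplicit false
set_option linter.unusedVariables false
noncomputable section
namespace Crest.Agent.H5.FD
open Rp

variable {B : Type} [Ring B] [Algebra ℂ B]

/-- Function application with unindexed types, for `simp` lemmas. -/
notation:max "nap⟦" f "⟧" => @DFunLike.coe (no_index _) (no_index _) _ _ f

/-- Graded complexes natural in a `B`-representation. -/
structure GC (B : Type) [Ring B] [Algebra ℂ B] where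
  X : NF B
  d : X.Hom X
  gr : ℕ → X.Hom X
  orth : ∀ i j M y, (gr i).1 M ((gr j).1 M y) = if i = j then (gr i).1 M y else 0
  gd : ∀ i M y, (gr i).1 M (d.1 M y) = d.1 M ((gr (i + 1)).1 M y)
  d0 : ∀ M y, d.1 M ((gr 0).1 M y) = 0
  dd : ∀ M y, d.1 M (d.1 M y) = 0

namespace GC

def Bdd (A : GC B) (n : ℕ) : Prop := ∀ M y, ∑ i ∈ Finset.range n, (A.gr i).1 M y = y

lemma Bdd.succ {A : GC B} {n : ℕ} (h : A.Bdd n) : A.Bdd (n + 1) := by
  intro M y
  rw [Finset.sum_range_succ, h M y, add_eq_left, ← h M y, map_sum]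
  refine Finset.sum_eq_zero fun i hi => ?_
  rw [A.orth, if_neg]
  rw [Finset.mem_range] at hi; omega

/-- Chain maps of degree zero. -/
def CM (A D : GC B) : Submodule ℂ (∀ M : Rp B, A.X.obj M →ₗ[ℂ] D.X.obj M) where
  carrier := {t | (∀ (M N : Rp B) (f : M.Hom N) y, t N (A.X.map f y) = D.X.map f (t M y)) ∧
    (∀ M y, t M (A.d.1 M y) = D.d.1 M (t M y)) ∧
    ∀ i M y, t M ((A.gr i).1 M y) = (D.gr i).1 M (t M y)}
  add_mem' := by
    rintro s t ⟨h1, h2, h3⟩ ⟨h1', h2', h3'⟩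
    refine ⟨fun M N f y => ?_, fun M y => ?_, fun i M y => ?_⟩ <;>
    simp only [Pi.add_apply, LinearMap.add_apply, map_add, h1, h2, h3, h1', h2', h3']
  zero_mem' := ⟨fun M N f y => by simp, fun M y => by simp, fun i M y => by simp⟩
  smul_mem' := by
    rintro c s ⟨h1, h2, h3⟩
    refine ⟨fun M N f y => ?_, fun M y => ?_, fun i M y => ?_⟩ <;>
    simp only [Pi.smul_apply, LinearMap.smul_apply, map_smul, h1, h2, h3]

/-- Natural maps of degree one. -/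
def Ht (A D : GC B) : Submodule ℂ (∀ M : Rp B, A.X.obj M →ₗ[ℂ] D.X.obj M) where
  carrier := {t | (∀ (M N : Rp B) (f : M.Hom N) y, t N (A.X.map f y) = D.X.map f (t M y)) ∧
    (∀ M y, (D.gr 0).1 M (t M y) = 0) ∧
    ∀ i M y, t M ((A.gr i).1 M y) = (D.gr (i + 1)).1 M (t M y)}
  add_mem' := by
    rintro s t ⟨h1, h2, h3⟩ ⟨h1', h2', h3'⟩
    refine ⟨fun M N f y => ?_, fun M y => ?_, fun i M y => ?_⟩ <;>
    simp only [Pi.add_apply, LinearMap.add_apply, map_add, h1, h2, h3, h1', h2', h3', add_zero]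
  zero_mem' := ⟨fun M N f y => by simp, fun M y => by simp, fun i M y => by simp⟩
  smul_mem' := by
    rintro c s ⟨h1, h2, h3⟩
    refine ⟨fun M N f y => ?_, fun M y => ?_, fun i M y => ?_⟩ <;>
    simp only [Pi.smul_apply, LinearMap.smul_apply, map_smul, h1, h2, h3, smul_zero]

variable {A D E : GC B}

lemma CM.nat (t : CM A D) {M N : Rp B} (f : M.Hom N) (y : A.X.obj M) :
    t.1 N (A.X.map f y) = D.X.map f (t.1 M y) := t.2.1 M N f y
lemma CM.cd (t : CM A D) (M : Rp B) (y : A.X.obj M) :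
    t.1 M (A.d.1 M y) = D.d.1 M (t.1 M y) := t.2.2.1 M y
lemma CM.cg (t : CM A D) (i : ℕ) (M : Rp B) (y : A.X.obj M) :
    t.1 M ((A.gr i).1 M y) = (D.gr i).1 M (t.1 M y) := t.2.2.2 i M y
lemma Ht.nat (t : Ht A D) {M N : Rp B} (f : M.Hom N) (y : A.X.obj M) :
    t.1 N (A.X.map f y) = D.X.map f (t.1 M y) := t.2.1 M N f y
lemma Ht.g0 (t : Ht A D) (M : Rp B) (y : A.X.obj M) :
    (D.gr 0).1 M (t.1 M y) = 0 := t.2.2.1 M y
lemma Ht.cg (t : Ht A D) (i : ℕ) (M : Rp B) (y : A.X.obj M) :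
    t.1 M ((A.gr i).1 M y) = (D.gr (i + 1)).1 M (t.1 M y) := t.2.2.2 i M y

def CM.id (A : GC B) : CM A A :=
  ⟨fun _ => LinearMap.id, fun _ _ _ _ => rfl, fun _ _ => rfl, fun _ _ _ => rfl⟩

@[simp] lemma CM.id_val (M : Rp B) : (CM.id A).1 M = LinearMap.id := rfl

def CM.comp (g : CM D E) (f : CM A D) : CM A E :=
  ⟨fun M => g.1 M ∘ₗ f.1 M,
    fun M N h y => by simp only [LinearMap.comp_apply, CM.nat],
    fun M y => by simp only [LinearMap.comp_apply, CM.cd],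
    fun i M y => by simp only [LinearMap.comp_apply, CM.cg]⟩

@[simp] lemma CM.comp_val (g : CM D E) (f : CM A D) (M : Rp B) :
    (CM.comp g f).1 M = g.1 M ∘ₗ f.1 M := rfl

def Ht.lcomp (g : CM D E) (f : Ht A D) : Ht A E :=
  ⟨fun M => g.1 M ∘ₗ f.1 M,
    fun M N h y => by simp only [LinearMap.comp_apply, CM.nat, Ht.nat],
    fun M y => by simp only [LinearMap.comp_apply, ← CM.cg, Ht.g0, map_zero],
    fun i M y => by simp only [LinearMap.comp_apply, CM.cg, Ht.cg]⟩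

@[simp] lemma Ht.lcomp_val (g : CM D E) (f : Ht A D) (M : Rp B) :
    (Ht.lcomp g f).1 M = g.1 M ∘ₗ f.1 M := rfl

def Ht.rcomp (g : Ht D E) (f : CM A D) : Ht A E :=
  ⟨fun M => g.1 M ∘ₗ f.1 M,
    fun M N h y => by simp only [LinearMap.comp_apply, CM.nat, Ht.nat],
    fun M y => by simp only [LinearMap.comp_apply, Ht.g0],
    fun i M y => by simp only [LinearMap.comp_apply, CM.cg, Ht.cg]⟩

@[simp] lemma Ht.rcomp_val (g : Ht D E) (f : CM A D) (M : Rp B) :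
    (Ht.rcomp g f).1 M = g.1 M ∘ₗ f.1 M := rfl

lemma CM.sum_ap {ι : Type} (s : Finset ι) (f : ι → CM A D) (M : Rp B) (y : A.X.obj M) :
    nap⟦(∑ i ∈ s, f i).1 M⟧ y = ∑ i ∈ s, (f i).1 M y := by
  simp only [AddSubmonoidClass.coe_finsetSum, Finset.sum_apply, LinearMap.sum_apply]

lemma Ht.sum_ap {ι : Type} (s : Finset ι) (f : ι → Ht A D) (M : Rp B) (y : A.X.obj M) :
    nap⟦(∑ i ∈ s, f i).1 M⟧ y = ∑ i ∈ s, (f i).1 M y := by
  simp only [AddSubmonoidClass.coe_finsetSum, Finset.sum_apply, LinearMap.sum_apply]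

/-! ### Constructions -/

/-- A functor placed in degree zero. -/
abbrev single (F : NF B) : GC B where
  X := F
  d := 0
  gr := fun i => ⟨fun _ => if i = 0 then LinearMap.id else 0, fun M N f y => by
    split_ifs <;> simp⟩
  orth := fun i j M y => by
    by_cases h : i = j
    · subst h; by_cases h : i = 0 <;> simp [h]
    · rw [if_neg h]
      by_cases hi : i = 0
      · have : j ≠ 0 := by omega
        simp [hi, this]
      · simp [hi]
  gd := fun i M y => by simp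
  d0 := fun M y => rfl
  dd := fun M y => rfl

lemma bdd_single (F : NF B) : (single F).Bdd 1 := fun M y => by simp

def ofHom {F G : NF B} (f : F.Hom G) : CM (single F) (single G) :=
  ⟨f.1, f.2, fun M y => by simp, fun i M y => by by_cases h : i = 0 <;> simp [h]⟩

@[simp] lemma ofHom_val {F G : NF B} (f : F.Hom G) (M : Rp B) :
    (ofHom f).1 M = f.1 M := rfl

abbrev prod (A D : GC B) : GC B where
  X := A.X.prod D.X
  d := ⟨fun M => (A.d.1 M).prodMap (D.d.1 M), fun M N f y =>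
    Prod.ext (A.d.2 M N f y.1) (D.d.2 M N f y.2)⟩
  gr := fun i => ⟨fun M => ((A.gr i).1 M).prodMap ((D.gr i).1 M), fun M N f y =>
    Prod.ext ((A.gr i).2 M N f y.1) ((D.gr i).2 M N f y.2)⟩
  orth := fun i j M y => by
    simp only [LinearMap.prodMap_apply, A.orth, D.orth]
    split_ifs <;> rfl
  gd := fun i M y => Prod.ext (A.gd i M y.1) (D.gd i M y.2)
  d0 := fun M y => Prod.ext (A.d0 M y.1) (D.d0 M y.2)
  dd := fun M y => Prod.ext (A.dd M y.1) (D.dd M y.2)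

lemma Bdd.prod {n : ℕ} (hA : A.Bdd n) (hD : D.Bdd n) : (A.prod D).Bdd n := fun M y => by
  ext
  · rw [Prod.fst_sum]; exact hA M y.1
  · rw [Prod.snd_sum]; exact hD M y.2

def fst (A D : GC B) : CM (A.prod D) A :=
  ⟨fun M => LinearMap.fst ℂ _ _, fun _ _ _ _ => rfl, fun _ _ => rfl, fun _ _ _ => rfl⟩
def snd (A D : GC B) : CM (A.prod D) D :=
  ⟨fun M => LinearMap.snd ℂ _ _, fun _ _ _ _ => rfl, fun _ _ => rfl, fun _ _ _ => rfl⟩
def pair (f : CM A D) (g : CM A E) : CM A (D.prod E) :=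
  ⟨fun M => (f.1 M).prod (g.1 M), fun _ _ h y => Prod.ext (CM.nat f h y) (CM.nat g h y),
    fun M y => Prod.ext (CM.cd f M y) (CM.cd g M y),
    fun i M y => Prod.ext (CM.cg f i M y) (CM.cg g i M y)⟩

@[simp] lemma fst_val (M : Rp B) : (fst A D).1 M = LinearMap.fst ℂ _ _ := rfl
@[simp] lemma snd_val (M : Rp B) : (snd A D).1 M = LinearMap.snd ℂ _ _ := rfl
@[simp] lemma pair_val (f : CM A D) (g : CM A E) (M : Rp B) :
    (pair f g).1 M = (f.1 M).prod (g.1 M) := rfl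

abbrev pi (I : Type) [Fintype I] (A : GC B) : GC B where
  X := NF.pi I A.X
  d := ⟨fun M => (A.d.1 M).compLeft I, fun M N f y => funext fun i => A.d.2 M N f (y i)⟩
  gr := fun k => ⟨fun M => ((A.gr k).1 M).compLeft I, fun M N f y =>
    funext fun i => (A.gr k).2 M N f (y i)⟩
  orth := fun i j M y => by
    funext k
    simp only [LinearMap.compLeft_apply, Function.comp, A.orth]
    split_ifs <;> rfl
  gd := fun i M y => funext fun k => A.gd i M (y k)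
  d0 := fun M y => funext fun k => A.d0 M (y k)
  dd := fun M y => funext fun k => A.dd M (y k)

section pi
variable {I : Type} [Fintype I]

lemma Bdd.pi {n : ℕ} (hA : A.Bdd n) : (pi I A).Bdd n := fun M y => by
  funext k
  rw [Finset.sum_apply]; exact hA M (y k)

def prj (A : GC B) (i : I) : CM (pi I A) A :=
  ⟨fun M => LinearMap.proj i, fun _ _ _ _ => rfl, fun _ _ => rfl, fun _ _ _ => rfl⟩
def piLift (f : I → CM A D) : CM A (pi I D) :=
  ⟨fun M => LinearMap.pi fun i => (f i).1 M, fun _ _ h y => funext fun i => CM.nat (f i) h y,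
    fun M y => funext fun i => CM.cd (f i) M y, fun k M y => funext fun i => CM.cg (f i) k M y⟩

@[simp] lemma prj_val (i : I) (M : Rp B) : (prj A i).1 M = LinearMap.proj i := rfl
@[simp] lemma piLift_val (f : I → CM A D) (M : Rp B) :
    (piLift f).1 M = LinearMap.pi fun i => (f i).1 M := rfl
lemma piLift_ap (f : I → CM A D) (M : Rp B) (y : A.X.obj M) (i : I) :
    nap⟦(piLift f).1 M⟧ y i = (f i).1 M y := rfl

open Classical in
def sgl (A : GC B) (i : I) : CM A (pi I A) := piLift fun j => if j = i then CM.id A else 0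

open Classical in
lemma sgl_ap (i : I) (M : Rp B) (y : A.X.obj M) (j : I) :
    nap⟦(sgl A i).1 M⟧ y j = if j = i then y else 0 := by
  rw [sgl, piLift_ap]; split_ifs <;> rfl

lemma sum_sgl {Z : Type*} [AddCommMonoid Z] (i : I) (M : Rp B) (y : A.X.obj M)
    (f : I → A.X.obj M → Z) (hf : ∀ j, f j 0 = 0) :
    ∑ j, f j ((sgl A i).1 M y j) = f i y := by
  rw [Finset.sum_eq_single i]
  · rw [sgl_ap, if_pos rfl]
  · intro j _ hj; rw [sgl_ap, if_neg hj, hf]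
  · simp

end pi

/-- The grading shifted by one. -/
def sh (A : GC B) : ℕ → A.X.Hom A.X
  | 0 => 0
  | i + 1 => A.gr i

/-- The mapping cone. -/
abbrev cone (v : CM A D) : GC B where
  X := A.X.prod D.X
  d := ⟨fun M => LinearMap.prod (-(A.d.1 M ∘ₗ LinearMap.fst ℂ _ _))
      (v.1 M ∘ₗ LinearMap.fst ℂ _ _ + D.d.1 M ∘ₗ LinearMap.snd ℂ _ _), fun M N f y => by
    refine Prod.ext ?_ ?_
    · change -(A.d.1 N (A.X.map f y.1)) = A.X.map f (-(A.d.1 M y.1))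
      rw [A.d.2, map_neg]
    · change v.1 N (A.X.map f y.1) + D.d.1 N (D.X.map f y.2) =
        D.X.map f (v.1 M y.1 + D.d.1 M y.2)
      rw [D.d.2, CM.nat, map_add]⟩
  gr := fun i => ⟨fun M => ((A.sh i).1 M).prodMap ((D.gr i).1 M), fun M N f y =>
    Prod.ext ((A.sh i).2 M N f y.1) ((D.gr i).2 M N f y.2)⟩
  orth := fun i j M y => by
    simp only [LinearMap.prodMap_apply, D.orth]
    rcases i with _ | i <;> rcases j with _ | j
    · simp [sh]
    · simp [sh]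
    · simp [sh]
    · simp only [sh, A.orth, Nat.add_right_cancel_iff]
      split_ifs <;> rfl
  gd := fun i M y => by
    refine Prod.ext ?_ ?_
    · change (A.sh i).1 M (-(A.d.1 M y.1)) = -(A.d.1 M ((A.gr i).1 M y.1))
      rcases i with _ | i
      · rw [A.d0]; simp [sh]
      · rw [map_neg, ← A.gd]; rfl
    · change (D.gr i).1 M (v.1 M y.1 + D.d.1 M y.2) =
        v.1 M ((A.gr i).1 M y.1) + D.d.1 M ((D.gr (i + 1)).1 M y.2)
      rw [map_add, CM.cg, D.gd]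
  d0 := fun M y => by
    refine Prod.ext ?_ ?_
    · change -(A.d.1 M 0) = 0
      simp
    · change v.1 M 0 + D.d.1 M ((D.gr 0).1 M y.2) = 0
      rw [D.d0]; simp
  dd := fun M y => by
    refine Prod.ext ?_ ?_
    · change -(A.d.1 M (-(A.d.1 M y.1))) = 0
      rw [map_neg, A.dd]; simp
    · change v.1 M (-(A.d.1 M y.1)) + D.d.1 M (v.1 M y.1 + D.d.1 M y.2) = 0
      rw [map_neg, map_add, CM.cd, D.dd]; simp

lemma cone_d (v : CM A D) (M : Rp B) (y : A.X.obj M × D.X.obj M) :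
    (cone v).d.1 M y = (-(A.d.1 M y.1), v.1 M y.1 + D.d.1 M y.2) := rfl

lemma cone_gr (v : CM A D) (i : ℕ) (M : Rp B) (y : A.X.obj M × D.X.obj M) :
    ((cone v).gr i).1 M y = ((A.sh i).1 M y.1, (D.gr i).1 M y.2) := rfl

lemma Bdd.cone {n : ℕ} (hA : A.Bdd n) (hD : D.Bdd (n + 1)) (v : CM A D) :
    (cone v).Bdd (n + 1) := fun M y => by
  ext
  · rw [Prod.fst_sum, Finset.sum_range_succ']
    change ∑ i ∈ Finset.range n, (A.gr i).1 M y.1 + 0 = y.1
    rw [add_zero]; exact hA M y.1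
  · rw [Prod.snd_sum]; exact hD M y.2

def cin (v : CM A D) : CM D (cone v) :=
  ⟨fun M => LinearMap.inr ℂ _ _, fun _ _ f y => Prod.ext (map_zero (A.X.map f)).symm rfl,
    fun M y => by rw [cone_d]; simp, fun i M y => by rw [cone_gr]; simp⟩

@[simp] lemma cin_val (v : CM A D) (M : Rp B) : (cin v).1 M = LinearMap.inr ℂ _ _ := rfl

def chom (v : CM A D) : Ht A (cone v) :=
  ⟨fun M => LinearMap.inl ℂ _ _, fun _ _ f y => Prod.ext rfl (map_zero (D.X.map f)).symm,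
    fun M y => by rw [cone_gr]; simp [sh], fun i M y => by rw [cone_gr]; simp [sh]⟩

@[simp] lemma chom_val (v : CM A D) (M : Rp B) : (chom v).1 M = LinearMap.inl ℂ _ _ := rfl

def coneDesc (v : CM A D) (h : Ht A E) (g : CM D E)
    (hh : ∀ M y, E.d.1 M (h.1 M y) + h.1 M (A.d.1 M y) = g.1 M (v.1 M y)) : CM (cone v) E :=
  ⟨fun M => LinearMap.coprod (h.1 M) (g.1 M),
    fun M N f y => by
      change h.1 N (A.X.map f y.1) + g.1 N (D.X.map f y.2) = E.X.map f (h.1 M y.1 + g.1 M y.2)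
      rw [Ht.nat, CM.nat, map_add],
    fun M y => by
      change h.1 M (-(A.d.1 M y.1)) + g.1 M (v.1 M y.1 + D.d.1 M y.2) =
        E.d.1 M (h.1 M y.1 + g.1 M y.2)
      rw [map_neg, map_add, map_add, ← hh, CM.cd]; abel,
    fun i M y => by
      change h.1 M ((A.sh i).1 M y.1) + g.1 M ((D.gr i).1 M y.2) =
        (E.gr i).1 M (h.1 M y.1 + g.1 M y.2)
      rw [map_add, CM.cg]
      rcases i with _ | i
      · rw [Ht.g0]; simp [sh]
      · rw [← Ht.cg]; rfl⟩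

@[simp] lemma coneDesc_val (v : CM A D) (h : Ht A E) (g : CM D E)
    (hh : ∀ M y, E.d.1 M (h.1 M y) + h.1 M (A.d.1 M y) = g.1 M (v.1 M y)) (M : Rp B) :
    (coneDesc v h g hh).1 M = LinearMap.coprod (h.1 M) (g.1 M) := rfl

def coneMap {A' D' : GC B} (v : CM A D) (v' : CM A' D') (f : CM A A') (g : CM D D')
    (h : ∀ M y, v'.1 M (f.1 M y) = g.1 M (v.1 M y)) : CM (cone v) (cone v') :=
  coneDesc v (Ht.rcomp (chom v') f) (CM.comp (cin v') g) (fun M y => by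
    rw [cone_d]
    simp [CM.cd, h])

@[simp] lemma coneMap_val {A' D' : GC B} (v : CM A D) (v' : CM A' D') (f : CM A A') (g : CM D D')
    (h : ∀ M y, v'.1 M (f.1 M y) = g.1 M (v.1 M y)) (M : Rp B) :
    (coneMap v v' f g h).1 M = (f.1 M).prodMap (g.1 M) := by
  refine LinearMap.ext fun y => ?_
  change (f.1 M y.1, (0 : D'.X.obj M)) + (0, g.1 M y.2) = (f.1 M y.1, g.1 M y.2)
  simp

/-! ### Resolutions and acyclicity at a fixed representation -/

variable {N : Type} [AddCommGroup N] [Module ℂ N]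

structure Res (A : GC B) (M : Rp B) (ε : A.X.obj M →ₗ[ℂ] N) : Prop where
  surj : Function.Surjective ε
  g0 : ∀ y, ε ((A.gr 0).1 M y) = ε y
  εd : ∀ y, ε (A.d.1 M y) = 0
  ex : ∀ y, A.d.1 M y = 0 → ε y = 0 → ∃ y', A.d.1 M y' = y

def Acy (A : GC B) (M : Rp B) : Prop := ∀ y, A.d.1 M y = 0 → ∃ y', A.d.1 M y' = y

variable {M : Rp B}

lemma Res.surj0 {ε : A.X.obj M →ₗ[ℂ] N} (h : Res A M ε) (n : N) :
    ∃ y, A.d.1 M y = 0 ∧ ε y = n := by
  obtain ⟨y, hy⟩ := h.surj n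
  exact ⟨(A.gr 0).1 M y, A.d0 M y, by rw [h.g0, hy]⟩

lemma Res.gi {ε : A.X.obj M →ₗ[ℂ] N} (h : Res A M ε) (i : ℕ) (y : A.X.obj M) :
    ε ((A.gr i).1 M y) = if i = 0 then ε y else 0 := by
  rw [← h.g0, A.orth]
  by_cases hi : i = 0
  · simp [hi, h.g0]
  · rw [if_neg (Ne.symm hi), if_neg hi, map_zero]

lemma Res.ex0 {ε : A.X.obj M →ₗ[ℂ] N} (h : Res A M ε) (y : A.X.obj M) (hd : A.d.1 M y = 0)
    (hy : ε y = 0) : ∃ y', ε y' = 0 ∧ A.d.1 M y' = y := by
  obtain ⟨y', hy'⟩ := h.ex y hd hy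
  exact ⟨y' - (A.gr 0).1 M y', by rw [map_sub, h.g0, sub_self], by rw [map_sub, A.d0, sub_zero, hy']⟩

lemma res_single (F : NF B) (e : F.obj M ≃ₗ[ℂ] N) : Res (single F) M e.toLinearMap :=
  ⟨e.surjective, fun y => by simp, fun y => by simp, fun y _ hy => ⟨0, by
    have : y = 0 := by simpa using hy
    simp [this]⟩⟩

lemma acy_cone (σ : CM A D) {εA : A.X.obj M →ₗ[ℂ] N} {εD : D.X.obj M →ₗ[ℂ] N}
    (hA : Res A M εA) (hD : Res D M εD) (h : ∀ y, εD (σ.1 M y) = εA y) : Acy (cone σ) M := by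
  rintro ⟨α, y⟩ hy
  rw [cone_d] at hy
  have h1 : A.d.1 M α = 0 := neg_eq_zero.1 (congrArg Prod.fst hy)
  have h2 : σ.1 M α + D.d.1 M y = 0 := congrArg Prod.snd hy
  have h3 : εA α = 0 := by
    have := congrArg εD h2
    rwa [map_add, hD.εd, h, add_zero, map_zero] at this
  obtain ⟨α1, hα1⟩ := hA.ex α h1 h3
  obtain ⟨α2, hα2, hα2'⟩ := hA.surj0 (εD (y + σ.1 M α1))
  obtain ⟨y', hy'⟩ := hD.ex (y + σ.1 M α1 - σ.1 M α2)
    (by rw [map_sub, map_add, ← CM.cd, ← CM.cd, hα1, hα2, map_zero, sub_zero, add_comm, h2])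
    (by rw [map_sub, h α2, hα2', sub_self])
  refine ⟨(α2 - α1, y'), ?_⟩
  rw [cone_d]
  simp only [map_sub, hα1, hα2, hy']
  ext <;> simp

lemma Acy.pi {I : Type} [Fintype I] (h : Acy A M) : Acy (pi I A) M := by
  intro y hy
  choose y' hy' using fun i => h (y i) (congrFun hy i)
  exact ⟨y', funext hy'⟩

lemma res_cone (v : CM A D) (hA : Acy A M) {εD : D.X.obj M →ₗ[ℂ] N} (hD : Res D M εD) :
    Res (cone v) M (εD ∘ₗ LinearMap.snd ℂ _ _) := by
  have hv : ∀ α, εD (v.1 M α) = 0 := fun α => by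
    obtain ⟨α', h⟩ := hA _ (A.d0 M α)
    rw [← hD.g0, ← CM.cg, ← h, CM.cd, hD.εd]
  refine ⟨fun n => ?_, fun y => hD.g0 y.2, fun y => ?_, ?_⟩
  · obtain ⟨y, hy⟩ := hD.surj n
    exact ⟨(0, y), hy⟩
  · change εD (v.1 M y.1 + D.d.1 M y.2) = 0
    rw [map_add, hv, hD.εd, add_zero]
  · rintro ⟨α, y⟩ hy hε
    rw [cone_d] at hy
    have h1 : A.d.1 M α = 0 := neg_eq_zero.1 (congrArg Prod.fst hy)
    have h2 : v.1 M α + D.d.1 M y = 0 := congrArg Prod.snd hy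
    obtain ⟨α1, hα1⟩ := hA α h1
    obtain ⟨y', hy'⟩ := hD.ex (y + v.1 M α1)
      (by rw [map_add, ← CM.cd, hα1, add_comm, h2])
      (by rw [map_add, hv, add_zero]; exact hε)
    refine ⟨(-α1, y'), ?_⟩
    rw [cone_d]
    simp only [map_neg, hα1, hy']
    ext <;> simp

/-! ### Gluing -/

section glue
variable {J : Type} [Fintype J] {Y Z : GC B}

def glueV (τ : CM Y Z) (α : J → CM Y D) : CM (pi J Y) ((pi J Z).prod D) :=
  pair (piLift fun j => CM.comp τ (prj Y j)) (-∑ j, CM.comp (α j) (prj Y j))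

lemma glueV_ap (τ : CM Y Z) (α : J → CM Y D) (M : Rp B) (y : J → Y.X.obj M) :
    nap⟦(glueV τ α).1 M⟧ y = (fun j => τ.1 M (y j), -∑ j, (α j).1 M (y j)) := by
  refine Prod.ext rfl ?_
  change -((∑ j, CM.comp (α j) (prj Y j)).1 M y) = _
  rw [CM.sum_ap]; rfl

abbrev glue (τ : CM Y Z) (α : J → CM Y D) : GC B := cone (glueV τ α)

def glIn (τ : CM Y Z) (α : J → CM Y D) (j : J) : CM Z (glue τ α) :=
  CM.comp (cin _) (pair (sgl Z j) 0)

lemma glIn_ap (τ : CM Y Z) (α : J → CM Y D) (j : J) (M : Rp B) (z : Z.X.obj M) :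
    nap⟦(glIn τ α j).1 M⟧ z = (0, (sgl Z j).1 M z, 0) := rfl

def glε (τ : CM Y Z) (α : J → CM Y D) (M : Rp B) (ν : J → N →ₗ[ℂ] N) (εZ : Z.X.obj M →ₗ[ℂ] N)
    (εD : D.X.obj M →ₗ[ℂ] N) : (glue τ α).X.obj M →ₗ[ℂ] N :=
  (LinearMap.coprod (∑ j, ν j ∘ₗ εZ ∘ₗ LinearMap.proj j) εD) ∘ₗ LinearMap.snd ℂ _ _

lemma glε_ap (τ : CM Y Z) (α : J → CM Y D) (M : Rp B) (ν : J → N →ₗ[ℂ] N)
    (εZ : Z.X.obj M →ₗ[ℂ] N) (εD : D.X.obj M →ₗ[ℂ] N)
    (y : (J → Y.X.obj M) × (J → Z.X.obj M) × D.X.obj M) :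
    nap⟦glε τ α M ν εZ εD⟧ y = ∑ j, ν j (εZ (y.2.1 j)) + εD y.2.2 := by
  simp [glε]

lemma glε_in (τ : CM Y Z) (α : J → CM Y D) (M : Rp B) (ν : J → N →ₗ[ℂ] N)
    (εZ : Z.X.obj M →ₗ[ℂ] N) (εD : D.X.obj M →ₗ[ℂ] N) (j : J) (z : Z.X.obj M) :
    glε τ α M ν εZ εD ((glIn τ α j).1 M z) = ν j (εZ z) := by
  rw [glIn_ap, glε_ap, sum_sgl j M z (fun i x => ν i (εZ x)) (fun i => by simp)]
  simp

lemma glε_D (τ : CM Y Z) (α : J → CM Y D) (M : Rp B) (ν : J → N →ₗ[ℂ] N)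
    (εZ : Z.X.obj M →ₗ[ℂ] N) (εD : D.X.obj M →ₗ[ℂ] N) (δ : D.X.obj M) :
    glε τ α M ν εZ εD (0, 0, δ) = εD δ := by
  rw [glε_ap]
  change ∑ j, ν j (εZ 0) + εD δ = _
  simp

lemma res_glue (τ : CM Y Z) (α : J → CM Y D) (ν : J → N →ₗ[ℂ] N)
    {εY : Y.X.obj M →ₗ[ℂ] N} {εZ : Z.X.obj M →ₗ[ℂ] N} {εD : D.X.obj M →ₗ[ℂ] N}
    (hY : Res Y M εY) (hZ : Res Z M εZ) (hD : Res D M εD) (hτ : ∀ y, εZ (τ.1 M y) = εY y)
    (hα : ∀ j y, εD ((α j).1 M y) = ν j (εY y)) : Res (glue τ α) M (glε τ α M ν εZ εD) := by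
  have hεd : ∀ y, glε τ α M ν εZ εD ((glue τ α).d.1 M y) = 0 := by
    intro y
    rw [cone_d, glε_ap, glueV_ap]
    change ∑ j, ν j (εZ (τ.1 M (y.1 j) + Z.d.1 M (y.2.1 j))) +
      εD (-∑ j, (α j).1 M (y.1 j) + D.d.1 M y.2.2) = 0
    simp only [map_add, map_neg, map_sum, hZ.εd, hD.εd, hτ, hα, add_zero, add_neg_cancel]
  refine ⟨fun n => ?_, fun y => ?_, hεd, ?_⟩
  · obtain ⟨y, hy⟩ := hD.surj n
    exact ⟨(0, 0, y), by rw [glε_D, hy]⟩
  · rw [glε_ap, glε_ap]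
    change ∑ j, ν j (εZ ((Z.gr 0).1 M (y.2.1 j))) + εD ((D.gr 0).1 M y.2.2) = _
    simp only [hZ.g0, hD.g0]
  · rintro ⟨y, z, δ⟩ hy hε
    have hy' := hy
    rw [cone_d, glueV_ap] at hy'
    have h1 : ∀ j, -(Y.d.1 M (y j)) = 0 := fun j => congrFun (congrArg Prod.fst hy') j
    have h2 : ∀ j, τ.1 M (y j) + Z.d.1 M (z j) = 0 :=
      fun j => congrFun (congrArg (fun p => p.2.1) hy') j
    choose u hu using fun j => acy_cone τ hY hZ hτ (y j, z j) (Prod.ext (h1 j) (h2 j))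
    set w : (glue τ α).X.obj M := (fun j => (u j).1, fun j => (u j).2, 0) with hw
    obtain ⟨δ', hδ'⟩ : ∃ δ', (y, z, δ) - (glue τ α).d.1 M w = (0, 0, δ') := by
      refine ⟨_, Prod.ext ?_ (Prod.ext ?_ rfl)⟩
      · funext j
        exact sub_eq_zero.2 (congrArg Prod.fst (hu j)).symm
      · funext j
        exact sub_eq_zero.2 (congrArg Prod.snd (hu j)).symm
    have h3 : (glue τ α).d.1 M (0, 0, δ') = 0 := by
      rw [← hδ', map_sub, hy, GC.dd, sub_zero]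
    have h4 : glε τ α M ν εZ εD (0, 0, δ') = 0 := by
      rw [← hδ', map_sub, hε, hεd, sub_zero]
    obtain ⟨δ'', hδ''⟩ := hD.ex δ'
      (by
        have := congrArg (fun p => p.2.2) h3
        rw [cone_d] at this
        simpa using this)
      (by rwa [glε_D] at h4)
    refine ⟨w + (0, 0, δ''), ?_⟩
    rw [map_add, ← eq_sub_iff_add_eq', hδ', cone_d]
    simp [hδ'']

end glue

/-- The kernel of the comparison map on the cone of an idempotent is acyclic. -/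
lemma cone_ker {N' : Type} [AddCommGroup N'] [Module ℂ N'] (v : CM A D)
    {εA : A.X.obj M →ₗ[ℂ] N} {εD : D.X.obj M →ₗ[ℂ] N} (hA : Res A M εA) (hD : Res D M εD)
    (Q : N →ₗ[ℂ] N) (pr : N →ₗ[ℂ] N') (hv : ∀ y, εD (v.1 M y) = Q (εA y))
    (hQ : ∀ n, pr n = 0 → Q n = n) (y : A.X.obj M × D.X.obj M) (h1 : pr (εA y.1) = 0)
    (h2 : pr (εD y.2) = 0) (hd : (cone v).d.1 M y = 0) :
    ∃ y' : A.X.obj M × D.X.obj M, pr (εA y'.1) = 0 ∧ pr (εD y'.2) = 0 ∧ (cone v).d.1 M y' = y := by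
  obtain ⟨α, δ⟩ := y
  rw [cone_d] at hd
  have e1 : A.d.1 M α = 0 := neg_eq_zero.1 (congrArg Prod.fst hd)
  have e2 : v.1 M α + D.d.1 M δ = 0 := congrArg Prod.snd hd
  have e3 : εA α = 0 := by
    have := congrArg εD e2
    rwa [map_add, hD.εd, hv, add_zero, map_zero, hQ _ h1] at this
  obtain ⟨α1, hα1, hα1'⟩ := hA.ex0 α e1 e3
  obtain ⟨α2, hα2, hα2'⟩ := hA.surj0 (εD δ)
  obtain ⟨δ', hδ, hδ'⟩ := hD.ex0 (δ + v.1 M α1 - v.1 M α2)
    (by rw [map_sub, map_add, ← CM.cd, ← CM.cd, hα1', hα2, map_zero, sub_zero, add_comm, e2])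
    (by rw [map_sub, map_add, hv, hv, hα1, hα2', hQ _ h2, map_zero, add_zero, sub_self])
  refine ⟨(α2 - α1, δ'), ?_, ?_, ?_⟩
  · rw [map_sub, hα1, hα2', sub_zero]; exact h2
  · rw [hδ, map_zero]
  · rw [cone_d]
    simp only [map_sub, hα1', hα2, hδ']
    ext <;> simp

end GC
end Crest.Agent.H5.FD
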