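import Crest.Agent.H5.FD.F7

/-! Systems of natural resolutions, transport, and the final assembly. -/

set_option autoImplicit false
set_option linter.unusedVariables false
noncomputable section
namespace Crest.Agent.H5.FD
open Rp GC

section sys
variable {B : Type} [Ring B] [Algebra ℂ B] {J I : Type} [Fintype J] [Fintype I]

structure Sys (B : Type) [Ring B] [Algebra ℂ B] {J I : Type} [Fintype J] [Fintype I]
    (c : J → J → I → ℂ) where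
  Y0 : GC B
  Y1 : GC B
  Y2 : GC B
  a : J → CM Y0 Y1
  b : J → CM Y1 Y2
  γ : I → CM Y0 Y2
  hba : ∀ j j' M y, (b j).1 M ((a j').1 M y) = ∑ i, c j j' i • (γ i).1 M y

variable {c : J → J → I → ℂ} {N : Type} [AddCommGroup N] [Module ℂ N]

structure Sys.Good (S : Sys B c) (M : Rp B) (ν : J → N →ₗ[ℂ] N) (ν' : I → N →ₗ[ℂ] N) where
  ε0 : S.Y0.X.obj M →ₗ[ℂ] N
  ε1 : S.Y1.X.obj M →ₗ[ℂ] N
  ε2 : S.Y2.X.obj M →ₗ[ℂ] N
  r0 : Res S.Y0 M ε0
  r1 : Res S.Y1 M ε1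
  r2 : Res S.Y2 M ε2
  ha : ∀ j y, ε1 ((S.a j).1 M y) = ν j (ε0 y)
  hb : ∀ j y, ε2 ((S.b j).1 M y) = ν j (ε1 y)
  hγ : ∀ i y, ε2 ((S.γ i).1 M y) = ν' i (ε0 y)

def mat (A : GC B) (c : J → I → ℂ) : CM (pi J A) (pi I A) :=
  piLift fun i => ∑ j, c j i • prj A j

lemma mat_ap (A : GC B) (c : J → I → ℂ) (M : Rp B) (y : J → A.X.obj M) (i : I) :
    nap⟦(mat A c).1 M⟧ y i = ∑ j, c j i • y j := by
  rw [mat, piLift_ap, CM.sum_ap]; rfl

def Sys.trb (S : Sys B c) {Z : GC B} (τ : CM S.Y0 Z) (j : J) : CM (glue τ S.a) (glue τ S.γ) :=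
  coneMap _ _ (mat S.Y0 (c j))
    (pair (CM.comp (mat Z (c j)) (fst _ _)) (CM.comp (S.b j) (snd _ _))) (fun M y => by
      rw [glueV_ap, glueV_ap]
      refine Prod.ext (funext fun i => ?_) ?_
      · change τ.1 M ((mat S.Y0 (c j)).1 M y i) = (mat Z (c j)).1 M (fun j => τ.1 M (y j)) i
        rw [mat_ap, mat_ap]; simp
      · change -∑ i, (S.γ i).1 M ((mat S.Y0 (c j)).1 M y i) =
          (S.b j).1 M (-∑ j', (S.a j').1 M (y j'))
        simp only [mat_ap, map_neg, map_sum, map_smul, S.hba]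
        rw [Finset.sum_comm])

lemma Sys.trb_ap (S : Sys B c) {Z : GC B} (τ : CM S.Y0 Z) (j : J) (M : Rp B)
    (y : (J → S.Y0.X.obj M) × (J → Z.X.obj M) × S.Y1.X.obj M) :
    nap⟦(S.trb τ j).1 M⟧ y = ((mat S.Y0 (c j)).1 M y.1, (mat Z (c j)).1 M y.2.1, (S.b j).1 M y.2.2) := by
  rw [Sys.trb, coneMap_val]; rfl

def Sys.tr (S : Sys B c) {Z : GC B} (τ : CM S.Y0 Z) : Sys B c where
  Y0 := Z
  Y1 := glue τ S.a
  Y2 := glue τ S.γ
  a := glIn τ S.a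
  b := S.trb τ
  γ := glIn τ S.γ
  hba := fun j j' M y => by
    rw [glIn_ap, Sys.trb_ap]
    simp only [glIn_ap]
    refine Prod.ext ?_ (Prod.ext ?_ ?_)
    · rw [Prod.fst_sum]; simp
    · rw [Prod.snd_sum, Prod.fst_sum]
      funext i
      rw [Finset.sum_apply]
      change (mat Z (c j)).1 M ((sgl Z j').1 M y) i = ∑ i', c j j' i' • (sgl Z i').1 M y i
      rw [mat_ap, sum_sgl j' M y (fun k x => c j k i • x) (fun k => smul_zero _),
        Finset.sum_eq_single i]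
      · rw [sgl_ap, if_pos rfl]
      · intro k _ hk; rw [sgl_ap, if_neg (Ne.symm hk), smul_zero]
      · simp
    · rw [Prod.snd_sum, Prod.snd_sum]; simp

def Sys.Good.tr {S : Sys B c} {M : Rp B} {ν : J → N →ₗ[ℂ] N} {ν' : I → N →ₗ[ℂ] N}
    (G : S.Good M ν ν') {Z : GC B} (τ : CM S.Y0 Z) (εZ : Z.X.obj M →ₗ[ℂ] N) (hZ : Res Z M εZ)
    (hτ : ∀ y, εZ (τ.1 M y) = G.ε0 y) : (S.tr τ).Good M ν ν' where
  ε0 := εZ
  ε1 := glε τ S.a M ν εZ G.ε1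
  ε2 := glε τ S.γ M ν' εZ G.ε2
  r0 := hZ
  r1 := res_glue τ S.a ν G.r0 hZ G.r1 hτ G.ha
  r2 := res_glue τ S.γ ν' G.r0 hZ G.r2 hτ G.hγ
  ha := fun j y => glε_in τ S.a M ν εZ G.ε1 j y
  hγ := fun i y => glε_in τ S.γ M ν' εZ G.ε2 i y
  hb := fun j y => by
    have key : ∀ j' n, ∑ i, c j j' i • ν' i n = ν j (ν j' n) := by
      intro j' n
      obtain ⟨x, rfl⟩ := G.r0.surj n
      rw [← G.ha, ← G.hb, S.hba, map_sum]
      simp only [map_smul, G.hγ]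
    change glε τ S.γ M ν' εZ G.ε2 ((S.trb τ j).1 M y) = ν j (glε τ S.a M ν εZ G.ε1 y)
    rw [Sys.trb_ap, glε_ap, glε_ap]
    simp only [mat_ap, map_sum, map_smul, map_add, G.hb, ← key]
    rw [Finset.sum_comm]

end sys

section lev
variable {B : Type} [Ring B] [Algebra ℂ B]

def toEnd {F : NF B} (f : F.Hom F) : F.End := ⟨f.1, f.2⟩

def GC.lev (X : GC B) (hX : X.Bdd 4) (ι : B →ₐ[ℂ] X.X.End)
    (hd : ∀ b M y, X.d.1 M ((ι b).1 M y) = (ι b).1 M (X.d.1 M y))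
    (hg : ∀ b i M y, (X.gr i).1 M ((ι b).1 M y) = (ι b).1 M ((X.gr i).1 M y)) :
    Lev B X.X.End where
  ι := ι
  ε := fun i => if i < 4 then 0 else toEnd (X.gr (i - 4))
  d := toEnd X.d
  orth := fun i j => by
    by_cases hi : i < 4
    · simp [hi]
    by_cases hj : j < 4
    · rw [if_pos hj, mul_zero, if_neg (by omega)]
    rw [if_neg hi, if_neg hj]
    refine NF.End.ext' fun M y => ?_
    change (X.gr (i - 4)).1 M ((X.gr (j - 4)).1 M y) = _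
    rw [X.orth]
    by_cases h : i = j
    · rw [if_pos (by omega), if_pos h]; rfl
    · rw [if_neg (by omega), if_neg h]; rfl
  sum := NF.End.ext' fun M y => by
    have := hX M y
    simp only [Finset.sum_range_succ, Finset.sum_range_zero, zero_add] at this ⊢
    simp only [show (0 : ℕ) < 4 by omega, show (1 : ℕ) < 4 by omega, show (2 : ℕ) < 4 by omega,
      show (3 : ℕ) < 4 by omega, if_true, zero_add]
    exact this
  ιε := fun b i => by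
    by_cases hi : i < 4
    · simp [hi]
    rw [if_neg hi]
    exact NF.End.ext' fun M y => (hg b _ M y).symm
  ιd := fun b => NF.End.ext' fun M y => (hd b M y).symm
  dd := NF.End.ext' fun M y => X.dd M y
  εd := fun i => by
    by_cases hi : i < 4
    · rw [if_pos hi, zero_mul]
      by_cases hi' : i + 1 < 4
      · rw [if_pos hi', mul_zero]
      · rw [if_neg hi', show i + 1 - 4 = 0 by omega]
        exact NF.End.ext' fun M y => (X.d0 M y).symm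
    · rw [if_neg hi, if_neg (by omega), show i + 1 - 4 = i - 4 + 1 by omega]
      exact NF.End.ext' fun M y => X.gd _ M y
  dε := by simp

end lev

section tri
variable {Lt Rl : Type} (rc : Rl → Tri Lt) (C0 C1 C2 : GC (BB rc))
  (A : Lt → CM C0 C1) (Bm : Lt → CM C1 C2)
  (h : ∀ M ρ m, (rc ρ).ev (fun g g' => (Bm g).1 M ((A g').1 M m)) = 0)

def triι : BB rc →ₐ[ℂ] (C0.prod (C1.prod C2)).X.End :=
  AlgHom.codRestrict
    (AlgHom.pi (fun M : Rp (BB rc) => (triR rc (fun g => (A g).1 M) (fun g => (Bm g).1 M) (h M)).ρ)) _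
    (fun b M N f y => (tri_hom rc _ _ (h M) _ _ (h N) (C0.X.map f) (C1.X.map f) (C2.X.map f)
      (fun g m => (CM.nat (A g) f m).symm) (fun g m => (CM.nat (Bm g) f m).symm) b y).symm)

def triC (h0 : C0.Bdd 4) (h1 : C1.Bdd 4) (h2 : C2.Bdd 4) : EF (BB rc) (L0 (BB rc)) :=
  ⟨(C0.prod (C1.prod C2)).X, ((C0.prod (C1.prod C2)).lev (h0.prod (h1.prod h2))
    (triι rc C0 C1 C2 A Bm h)
    (fun b M y => tri_hom rc _ _ (h M) _ _ (h M) _ _ _ (fun g m => (CM.cd (A g) M m).symm)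
      (fun g m => (CM.cd (Bm g) M m).symm) b y)
    (fun b i M y => tri_hom rc _ _ (h M) _ _ (h M) _ _ _ (fun g m => (CM.cg (A g) i M m).symm)
      (fun g m => (CM.cg (Bm g) i M m).symm) b y)).lift⟩

variable (h0 : C0.Bdd 4) (h1 : C1.Bdd 4) (h2 : C2.Bdd 4)

lemma triC_ι (M : Rp (BB rc)) (b : BB rc) (y : C0.X.obj M × C1.X.obj M × C2.X.obj M) :
    ((triC rc C0 C1 C2 A Bm h h0 h1 h2).app M).ρ ((lev0 _).ι b) y =
      (triR rc (fun g => (A g).1 M) (fun g => (Bm g).1 M) (h M)).ρ b y := by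
  rw [EF.app_ρ]; unfold triC; rw [Lev.lift_ι]; rfl

lemma triC_ε (M : Rp (BB rc)) (i : ℕ) (y : C0.X.obj M × C1.X.obj M × C2.X.obj M) :
    ((triC rc C0 C1 C2 A Bm h h0 h1 h2).app M).ρ ((lev0 _).ε i) y =
      if i < 4 then 0 else ((C0.gr (i - 4)).1 M y.1, (C1.gr (i - 4)).1 M y.2.1,
        (C2.gr (i - 4)).1 M y.2.2) := by
  rw [EF.app_ρ]; unfold triC; rw [Lev.lift_ε]
  change ((if i < 4 then 0 else toEnd _ : (C0.prod (C1.prod C2)).X.End)).1 M y = _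
  split_ifs <;> rfl

lemma triC_d (M : Rp (BB rc)) (y : C0.X.obj M × C1.X.obj M × C2.X.obj M) :
    ((triC rc C0 C1 C2 A Bm h h0 h1 h2).app M).ρ (lev0 _).d y =
      (C0.d.1 M y.1, C1.d.1 M y.2.1, C2.d.1 M y.2.2) := by
  rw [EF.app_ρ]; unfold triC; rw [Lev.lift_d]; rfl

end tri

section coneθ
variable {B : Type} [Ring B] [Algebra ℂ B] {A D : GC B} {M : Rp B}
  {N N' : Type} [AddCommGroup N] [Module ℂ N] [AddCommGroup N'] [Module ℂ N']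

/-- What the assembly needs from each of the three cones. -/
structure Cmp (X : GC B) (M : Rp B) (θt θb : X.X.obj M →ₗ[ℂ] N') : Prop where
  surj : ∀ n n', ∃ y, θt y = n ∧ θb y = n'
  gt : ∀ i y, θt ((X.gr i).1 M y) = if i = 1 then θt y else 0
  gb : ∀ i y, θb ((X.gr i).1 M y) = if i = 0 then θb y else 0
  dt : ∀ y, θt (X.d.1 M y) = 0
  db : ∀ y, θb (X.d.1 M y) = 0
  ac : ∀ y, θt y = 0 → θb y = 0 → X.d.1 M y = 0 → ∃ y', θt y' = 0 ∧ θb y' = 0 ∧ X.d.1 M y' = y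

lemma cmp_cone (v : CM A D) {εA : A.X.obj M →ₗ[ℂ] N} {εD : D.X.obj M →ₗ[ℂ] N}
    (hA : Res A M εA) (hD : Res D M εD)
    (Q : N →ₗ[ℂ] N) (pr : N →ₗ[ℂ] N') (hv : ∀ y, εD (v.1 M y) = Q (εA y))
    (hQ : ∀ n, pr n = 0 → Q n = n) (hQ' : ∀ n, pr (Q n) = 0) (hpr : Function.Surjective pr) :
    Cmp (cone v) M (pr ∘ₗ εA ∘ₗ LinearMap.fst ℂ _ _) (pr ∘ₗ εD ∘ₗ LinearMap.snd ℂ _ _) where
  surj := fun n n' => by
    obtain ⟨x, rfl⟩ := hpr n
    obtain ⟨x', rfl⟩ := hpr n'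
    obtain ⟨y, rfl⟩ := hA.surj x
    obtain ⟨y', rfl⟩ := hD.surj x'
    exact ⟨(y, y'), rfl, rfl⟩
  gt := fun i y => by
    change pr (εA ((A.sh i).1 M y.1)) = if i = 1 then pr (εA y.1) else 0
    rcases i with _ | i
    · simp [sh]
    · change pr (εA ((A.gr i).1 M y.1)) = _
      rw [hA.gi]
      by_cases hi : i = 0 <;> simp [hi]
  gb := fun i y => by
    change pr (εD ((D.gr i).1 M y.2)) = if i = 0 then pr (εD y.2) else 0
    rw [hD.gi]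
    by_cases hi : i = 0 <;> simp [hi]
  dt := fun y => by
    change pr (εA (-(A.d.1 M y.1))) = 0
    rw [map_neg, hA.εd]; simp
  db := fun y => by
    change pr (εD (v.1 M y.1 + D.d.1 M y.2)) = 0
    rw [map_add, hD.εd, hv, add_zero, hQ']
  ac := fun y h1 h2 h3 => cone_ker v hA hD Q pr hv hQ y h1 h2 h3

end coneθ

section fin
variable {Lt Rl : Type} [Finite Lt] (rc : Rl → Tri Lt)

theorem assemble (C0 C1 C2 : GC (BB rc)) (A : Lt → CM C0 C1) (Bm : Lt → CM C1 C2)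
    (h : ∀ M ρ m, (rc ρ).ev (fun g g' => (Bm g).1 M ((A g').1 M m)) = 0)
    (h0 : C0.Bdd 4) (h1 : C1.Bdd 4) (h2 : C2.Bdd 4)
    (N : ℕ → Type) [∀ n, AddCommGroup (N n)] [∀ n, Module ℂ (N n)] [∀ n, Module.Finite ℂ (N n)]
    (μ : ∀ n, Lt → N n →ₗ[ℂ] N n) (hμ : ∀ n ρ m, (rc ρ).ev (fun g g' => μ n g (μ n g' m)) = 0)
    (hN0 : ∀ m : N 0, m = 0) (hN1 : ∃ m : N 1, m ≠ 0)
    (t0 b0 : ∀ n, C0.X.obj (triR rc (μ (n + 1)) (μ (n + 1)) (hμ (n + 1))) →ₗ[ℂ] N n)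
    (t1 b1 : ∀ n, C1.X.obj (triR rc (μ (n + 1)) (μ (n + 1)) (hμ (n + 1))) →ₗ[ℂ] N n)
    (t2 b2 : ∀ n, C2.X.obj (triR rc (μ (n + 1)) (μ (n + 1)) (hμ (n + 1))) →ₗ[ℂ] N n)
    (c0 : ∀ n, Cmp C0 _ (t0 n) (b0 n)) (c1 : ∀ n, Cmp C1 _ (t1 n) (b1 n))
    (c2 : ∀ n, Cmp C2 _ (t2 n) (b2 n))
    (At : ∀ n g y, t1 n ((A g).1 _ y) = μ n g (t0 n y))
    (Ab : ∀ n g y, b1 n ((A g).1 _ y) = μ n g (b0 n y))
    (Bt : ∀ n g y, t2 n ((Bm g).1 _ y) = μ n g (t1 n y))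
    (Bb : ∀ n g y, b2 n ((Bm g).1 _ y) = μ n g (b1 n y)) :
    ∃ (Λ : Type) (_ : Ring Λ) (_ : Algebra ℂ Λ), FiniteDimensional ℂ Λ ∧
      ∀ k : ℕ, ∃ N : ModuleCat.{0} Λ, Module.Finite Λ N ∧
        ¬ CategoryTheory.HasProjectiveDimensionLT N k ∧
        ∃ n : ℕ, CategoryTheory.HasProjectiveDimensionLT N n := by
  let C := triC rc C0 C1 C2 A Bm h h0 h1 h2
  let M : ℕ → Rp (BB rc) := fun n => triR rc (μ n) (μ n) (hμ n)
  refine ⟨Lam C, inferInstance, inferInstance, lam_finite C, ?_⟩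
  let θ0 : ∀ n, (C0.X.obj (M (n + 1)) × C1.X.obj (M (n + 1)) × C2.X.obj (M (n + 1))) →ₗ[ℂ]
      (N n × N n × N n) × (N n × N n × N n) := fun n =>
    LinearMap.prod ((t0 n).prodMap ((t1 n).prodMap (t2 n))) ((b0 n).prodMap ((b1 n).prodMap (b2 n)))
  have hθ0 : ∀ n y, θ0 n y = ((t0 n y.1, t1 n y.2.1, t2 n y.2.2), (b0 n y.1, b1 n y.2.1, b2 n y.2.2)) :=
    fun n y => rfl
  let θ : ∀ n, (C.app (M (n + 1))).Hom ((St 5 (by omega) (M n)).prod (St 4 (by omega) (M n))) :=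
    fun n => ⟨θ0 n, hom_L0 _
      (fun b y => by
        refine (congrArg (θ0 n) (triC_ι rc C0 C1 C2 A Bm h h0 h1 h2 _ b y)).trans ?_
        refine Prod.ext ?_ ?_
        · change _ = (M n).ρ (πL _ 5 _ ((lev0 _).ι b)) _
          rw [πL_ι]
          exact tri_hom rc _ _ _ _ _ (hμ n) _ _ _ (At n) (Bt n) b y
        · change _ = (M n).ρ (πL _ 4 _ ((lev0 _).ι b)) _
          rw [πL_ι]
          exact tri_hom rc _ _ _ _ _ (hμ n) _ _ _ (Ab n) (Bb n) b y)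
      (fun i y => by
        refine (congrArg (θ0 n) (triC_ε rc C0 C1 C2 A Bm h h0 h1 h2 _ i y)).trans ?_
        change _ = ((M n).ρ (πL _ 5 _ ((lev0 _).ε i)) (θ0 n y).1,
          (M n).ρ (πL _ 4 _ ((lev0 _).ε i)) (θ0 n y).2)
        rw [πL_ε, πL_ε]
        by_cases hi : i < 4
        · rw [if_pos hi, if_neg (by omega), if_neg (by omega), map_zero, map_zero]; rfl
        rw [if_neg hi, hθ0, hθ0, (c0 n).gt, (c1 n).gt, (c2 n).gt, (c0 n).gb, (c1 n).gb, (c2 n).gb]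
        by_cases h4 : i = 4
        · subst h4; simp
        by_cases h5 : i = 5
        · subst h5; simp
        have e1 : i - 4 ≠ 1 := by omega
        have e2 : i - 4 ≠ 0 := by omega
        simp [h4, h5, e1, e2])
      (fun y => by
        refine (congrArg (θ0 n) (triC_d rc C0 C1 C2 A Bm h h0 h1 h2 _ y)).trans ?_
        change _ = ((M n).ρ (πL _ 5 _ (lev0 _).d) (θ0 n y).1,
          (M n).ρ (πL _ 4 _ (lev0 _).d) (θ0 n y).2)
        rw [πL_d, πL_d, hθ0, (c0 n).dt, (c1 n).dt, (c2 n).dt, (c0 n).db, (c1 n).db, (c2 n).db,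
          map_zero]
        rfl)⟩
  refine unbounded C (dirB rc) ?_ M (fun n => inferInstanceAs (Module.Finite ℂ (N n × N n × N n)))
    (fun m => Prod.ext (hN0 _) (Prod.ext (hN0 _) (hN0 _))) ?_ θ ?_ ?_
  · intro i hi x
    refine (triC_ε rc C0 C1 C2 A Bm h h0 h1 h2 _ i x).trans ?_
    rw [if_pos hi]; rfl
  · obtain ⟨m, hm⟩ := hN1
    exact ⟨(m, 0, 0), fun h => hm (congrArg Prod.fst h)⟩
  · rintro n ⟨⟨x0, x1, x2⟩, ⟨z0, z1, z2⟩⟩
    obtain ⟨y0, hy0, hy0'⟩ := (c0 n).surj x0 z0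
    obtain ⟨y1, hy1, hy1'⟩ := (c1 n).surj x1 z1
    obtain ⟨y2, hy2, hy2'⟩ := (c2 n).surj x2 z2
    refine ⟨(y0, y1, y2), (hθ0 n _).trans ?_⟩
    rw [hy0, hy0', hy1, hy1', hy2, hy2']
  · intro n y hy hd
    have hy' := (hθ0 n y).symm.trans hy
    have hd' := (triC_d rc C0 C1 C2 A Bm h h0 h1 h2 _ y).symm.trans hd
    obtain ⟨y0, a0, a0', d0⟩ := (c0 n).ac y.1 (congrArg (fun p => p.1.1) hy')
      (congrArg (fun p => p.2.1) hy') (congrArg (fun p => p.1) hd')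
    obtain ⟨y1, a1, a1', d1⟩ := (c1 n).ac y.2.1 (congrArg (fun p => p.1.2.1) hy')
      (congrArg (fun p => p.2.2.1) hy') (congrArg (fun p => p.2.1) hd')
    obtain ⟨y2, a2, a2', d2⟩ := (c2 n).ac y.2.2 (congrArg (fun p => p.1.2.2) hy')
      (congrArg (fun p => p.2.2.2) hy') (congrArg (fun p => p.2.2) hd')
    refine ⟨(y0, y1, y2), (hθ0 n _).trans ?_, (triC_d rc C0 C1 C2 A Bm h h0 h1 h2 _ _).trans ?_⟩
    · rw [a0, a0', a1, a1', a2, a2']; rfl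
    · rw [d0, d1, d2]; rfl

variable {J I : Type} [Fintype J] [Fintype I] {c : J → J → I → ℂ}

omit [Finite Lt] in
lemma Sys.rel {B : Type} [Ring B] [Algebra ℂ B] (S : Sys B c) (ρ : Tri Lt) (φ : Lt → J)
    (h : ρ.ev (fun g g' => c (φ g) (φ g')) = 0) (M : Rp B) (y : S.Y0.X.obj M) :
    ρ.ev (fun g g' => (S.b (φ g)).1 M ((S.a (φ g')).1 M y)) = 0 := by
  have := ρ.map_ev (Fintype.linearCombination ℂ (fun i => (S.γ i).1 M y))
    (fun g g' => c (φ g) (φ g'))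
  rw [h, map_zero] at this
  rw [this]
  congr 1
  funext g g'
  rw [S.hba, Fintype.linearCombination_apply]

lemma Sys.zero {B : Type} [Ring B] [Algebra ℂ B] (S : Sys B c) (j j' : J)
    (h : c j j' = 0) (M : Rp B) (y : S.Y0.X.obj M) :
    (S.b j).1 M ((S.a j').1 M y) = 0 := by
  rw [S.hba, h]; simp

theorem final (S : Sys (BB rc) c) (hb0 : S.Y0.Bdd 1) (hb1 : S.Y1.Bdd 2) (hb2 : S.Y2.Bdd 3)
    (one q : J) (φ : Lt → J) (t : Lt)
    (hq1 : ∀ g, c q (φ g) = 0) (hq2 : ∀ g, c (φ g) q = 0)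
    (hrel : ∀ ρ, (rc ρ).ev (fun g g' => c (φ g) (φ g')) = 0)
    (N : ℕ → Type) [∀ n, AddCommGroup (N n)] [∀ n, Module ℂ (N n)] [∀ n, Module.Finite ℂ (N n)]
    (μ : ∀ n, Lt → N n →ₗ[ℂ] N n) (hμ : ∀ n ρ m, (rc ρ).ev (fun g g' => μ n g (μ n g' m)) = 0)
    (hμt : ∀ n m, μ n t m = m)
    (hN0 : ∀ m : N 0, m = 0) (hN1 : ∃ m : N 1, m ≠ 0)
    (ν : ∀ n, J → N (n + 1) →ₗ[ℂ] N (n + 1)) (ν' : ∀ n, I → N (n + 1) →ₗ[ℂ] N (n + 1))
    (G : ∀ n, S.Good (triR rc (μ (n + 1)) (μ (n + 1)) (hμ (n + 1))) (ν n) (ν' n))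
    (hone : ∀ n m, ν n one m = m)
    (pr : ∀ n, N (n + 1) →ₗ[ℂ] N n) (hpr : ∀ n, Function.Surjective (pr n))
    (hφ : ∀ n g m, pr n (ν n (φ g) m) = μ n g (pr n m))
    (hq : ∀ n m, pr n (ν n q m) = 0) (hq' : ∀ n m, pr n m = 0 → ν n q m = m) :
    ∃ (Λ : Type) (_ : Ring Λ) (_ : Algebra ℂ Λ), FiniteDimensional ℂ Λ ∧
      ∀ k : ℕ, ∃ N : ModuleCat.{0} Λ, Module.Finite Λ N ∧
        ¬ CategoryTheory.HasProjectiveDimensionLT N k ∧
        ∃ n : ℕ, CategoryTheory.HasProjectiveDimensionLT N n := by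
  let τ : CM S.Y0 S.Y2 := CM.comp (S.b one) (S.a one)
  have hb3 : (S.tr τ).Y1.Bdd 3 := (hb0.succ.pi).cone (hb2.pi.prod hb1.succ) _
  have hb4 : (S.tr τ).Y2.Bdd 3 := (hb0.succ.pi).cone (hb2.pi.prod hb2) _
  have G' : ∀ n, {G' : (S.tr τ).Good (triR rc (μ (n + 1)) (μ (n + 1)) (hμ (n + 1))) (ν n) (ν' n) //
      G'.ε0 = (G n).ε2} := fun n => ⟨(G n).tr τ (G n).ε2 (G n).r2 (fun y => by
        change (G n).ε2 ((S.b one).1 _ ((S.a one).1 _ y)) = _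
        rw [(G n).hb, (G n).ha, hone, hone]), rfl⟩
  have hY0 : (S.tr τ).Y0 = S.Y2 := rfl
  have ha3 : ∀ n j (y : S.Y2.X.obj _), (G' n).1.ε1 (((S.tr τ).a j).1 _ y) = ν n j ((G n).ε2 y) :=
    fun n j y => by rw [(G' n).1.ha, (G' n).2]; rfl
  let a3 : J → CM S.Y2 (S.tr τ).Y1 := (S.tr τ).a
  refine assemble rc (cone (S.a q)) (cone (CM.comp (a3 q) (S.b q))) (cone ((S.tr τ).b q))
    (fun g => coneMap _ _ (S.a (φ g)) (CM.comp (a3 (φ g)) (S.b (φ t))) (fun M y => by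
      change (a3 q).1 M ((S.b q).1 M ((S.a (φ g)).1 M y)) =
        (a3 (φ g)).1 M ((S.b (φ t)).1 M ((S.a q).1 M y))
      rw [S.zero _ _ (hq1 g), S.zero _ _ (hq2 t), map_zero, map_zero]))
    (fun g => coneMap _ _ (CM.comp (a3 (φ t)) (S.b (φ g))) ((S.tr τ).b (φ g)) (fun M y =>
      ((S.tr τ).zero _ _ (hq1 t) M _).trans ((S.tr τ).zero _ _ (hq2 g) M _).symm))
    ?_ (hb0.succ.succ.cone hb1.succ.succ _) (hb1.succ.cone hb3.succ _) (hb3.cone hb4.succ _)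
    N μ hμ hN0 hN1 _ _ _ _ _ _
    (fun n => cmp_cone _ (G n).r0 (G n).r1 (ν n q) (pr n) ((G n).ha q) (hq' n) (hq n) (hpr n))
    (fun n => cmp_cone _ (G n).r1 (G' n).1.r1 (ν n q ∘ₗ ν n q) (pr n)
      (fun y => (ha3 n q _).trans (by rw [(G n).hb]; rfl))
      (fun m hm => by rw [LinearMap.comp_apply, hq' n m hm, hq' n m hm])
      (fun m => hq n _) (hpr n))
    (fun n => cmp_cone _ (G' n).1.r1 (G' n).1.r2 (ν n q) (pr n) ((G' n).1.hb q) (hq' n) (hq n)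
      (hpr n)) ?_ ?_ ?_ ?_
  · intro M ρ m
    simp only [coneMap_val]
    refine Prod.ext ?_ ?_
    · have := (rc ρ).map_ev ((a3 (φ t)).1 M)
        (fun g g' => (S.b (φ g)).1 M ((S.a (φ g')).1 M m.1))
      rw [S.rel _ φ (hrel ρ), map_zero] at this
      exact this.symm
    · exact (S.tr τ).rel _ φ (hrel ρ) M _
  · intro n g y
    rw [coneMap_val]
    change pr n ((G n).ε1 ((S.a (φ g)).1 _ y.1)) = μ n g (pr n ((G n).ε0 y.1))
    rw [(G n).ha, hφ]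
  · intro n g y
    rw [coneMap_val]
    change pr n ((G' n).1.ε1 (((S.tr τ).a (φ g)).1 _ ((S.b (φ t)).1 _ y.2))) =
      μ n g (pr n ((G n).ε1 y.2))
    rw [ha3, (G n).hb, hφ, hφ, hμt]
  · intro n g y
    rw [coneMap_val]
    change pr n ((G' n).1.ε1 (((S.tr τ).a (φ t)).1 _ ((S.b (φ g)).1 _ y.1))) =
      μ n g (pr n ((G n).ε1 y.1))
    rw [ha3, (G n).hb, hφ, hφ, hμt]
  · intro n g y
    rw [coneMap_val]
    change pr n ((G' n).1.ε2 (((S.tr τ).b (φ g)).1 _ y.2)) = μ n g (pr n ((G' n).1.ε1 y.2))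
    rw [(G' n).1.hb, hφ]

end fin

end Crest.Agent.H5.FD
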