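import Crest.Agent.H5.FD.F8

/-! Truncated free resolutions over the free algebra. -/

set_option autoImplicit false
set_option linter.unusedVariables false
set_option linter.unusedSectionVars false
noncomputable section
namespace Crest.Agent.H5.FD
open Rp GC

abbrev FA (V : Type) : Type := MonoidAlgebra ℂ (FreeMonoid V)

section words
variable {V : Type}

def wd : FreeMonoid V →* FA V := MonoidAlgebra.of ℂ _

abbrev bW (V : Type) : Module.Basis (FreeMonoid V) ℂ (FA V) := MonoidAlgebra.basis _ _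

lemma bW_ap (w : FreeMonoid V) : bW V w = wd w := rfl

lemma co_self (w : FreeMonoid V) : (bW V).coord w (wd w) = 1 := by
  rw [← bW_ap, Module.Basis.coord_apply, Module.Basis.repr_self, Finsupp.single_eq_same]

lemma co_ne {w w' : FreeMonoid V} (h : w ≠ w') : (bW V).coord w (wd w') = 0 := by
  rw [← bW_ap, Module.Basis.coord_apply, Module.Basis.repr_self, Finsupp.single_eq_of_ne h]

abbrev Wd (V : Type) (k : ℕ) : Type := {w : FreeMonoid V // w.length ≤ k}

instance [Finite V] (k : ℕ) : Fintype (Wd V k) :=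
  (List.finite_length_le V k).fintype

def Fk (V : Type) (k : ℕ) : Submodule ℂ (FA V) :=
  Submodule.span ℂ (Set.range fun w : Wd V k => wd w.1)

lemma wd_mem {k : ℕ} {w : FreeMonoid V} (h : w.length ≤ k) : wd w ∈ Fk V k :=
  Submodule.subset_span ⟨⟨w, h⟩, rfl⟩

lemma one_mem_Fk (k : ℕ) : (1 : FA V) ∈ Fk V k := by
  rw [← map_one wd]; exact wd_mem (Nat.zero_le _)

lemma Fk_mono {k l : ℕ} (h : k ≤ l) {x : FA V} (hx : x ∈ Fk V k) : x ∈ Fk V l := by
  refine Submodule.span_le.2 ?_ hx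
  rintro _ ⟨w, rfl⟩
  exact wd_mem (w.2.trans h)

lemma Fk_mul {k l m : ℕ} {x y : FA V} (hx : x ∈ Fk V k) (hy : y ∈ Fk V l) (h : k + l ≤ m) :
    x * y ∈ Fk V m := by
  induction hx using Submodule.span_induction with
  | mem x hx =>
    obtain ⟨w, rfl⟩ := hx
    induction hy using Submodule.span_induction with
    | mem y hy =>
      obtain ⟨w', rfl⟩ := hy
      rw [← map_mul]
      refine wd_mem ?_
      rw [FreeMonoid.length_mul]
      have := w.2; have := w'.2; omega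
    | zero => rw [mul_zero]; exact Submodule.zero_mem _
    | add a b _ _ ha hb => rw [mul_add]; exact Submodule.add_mem _ ha hb
    | smul c a _ ha => rw [mul_smul_comm]; exact Submodule.smul_mem _ c ha
  | zero => rw [zero_mul]; exact Submodule.zero_mem _
  | add a b _ _ ha hb => rw [add_mul]; exact Submodule.add_mem _ ha hb
  | smul c a _ ha => rw [smul_mul_assoc]; exact Submodule.smul_mem _ c ha

lemma FA.ind {p : FA V → Prop} (hw : ∀ w, p (wd w)) (h0 : p 0) (hadd : ∀ x y, p x → p y → p (x + y))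
    (hs : ∀ (c : ℂ) x, p x → p (c • x)) (x : FA V) : p x := by
  have hx : x ∈ Submodule.span ℂ (Set.range (bW V)) := by rw [(bW V).span_eq]; trivial
  induction hx using Submodule.span_induction with
  | mem x hx => obtain ⟨w, rfl⟩ := hx; exact hw w
  | zero => exact h0
  | add a b _ _ ha hb => exact hadd _ _ ha hb
  | smul c a _ ha => exact hs _ _ ha

lemma exists_Fk (x : FA V) : ∃ k, x ∈ Fk V k := by
  induction x using FA.ind with
  | hw w => exact ⟨_, wd_mem le_rfl⟩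
  | h0 => exact ⟨0, Submodule.zero_mem _⟩
  | hadd x y hx hy =>
    obtain ⟨k, hk⟩ := hx
    obtain ⟨l, hl⟩ := hy
    exact ⟨k + l, Submodule.add_mem _ (Fk_mono (by omega) hk) (Fk_mono (by omega) hl)⟩
  | hs c x hx => obtain ⟨k, hk⟩ := hx; exact ⟨k, Submodule.smul_mem _ c hk⟩

def bar : Option V → FA V
  | none => 1
  | some v => wd (FreeMonoid.of v)

lemma bar_mem (g : Option V) : bar g ∈ Fk V 1 := by
  rcases g with _ | v
  · exact one_mem_Fk 1
  · exact wd_mem le_rfl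

variable [Finite V]

lemma sum_co {k : ℕ} {x : FA V} (hx : x ∈ Fk V k) :
    ∑ w : Wd V k, (bW V).coord w.1 x • wd w.1 = x := by
  classical
  induction hx using Submodule.span_induction with
  | mem x hx =>
    obtain ⟨w, rfl⟩ := hx
    rw [Finset.sum_eq_single w]
    · rw [co_self, one_smul]
    · intro w' _ h
      rw [co_ne (fun h' => h (Subtype.ext h')), zero_smul]
    · simp
  | zero => simp
  | add a b _ _ ha hb => simp only [map_add, add_smul, Finset.sum_add_distrib, ha, hb]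
  | smul c a _ ha =>
    simp only [map_smul, smul_eq_mul, mul_smul, ← Finset.smul_sum, ha]

variable {P P' Z Z' : Type} [AddCommGroup P] [Module ℂ P] [AddCommGroup P'] [Module ℂ P']
  [AddCommGroup Z] [Module ℂ Z] [AddCommGroup Z'] [Module ℂ Z']

/-- The truncation of `c ⊗ m`. -/
def sg (k : ℕ) (P : Type) [AddCommGroup P] [Module ℂ P] : FA V →ₗ[ℂ] P →ₗ[ℂ] (Wd V k → P) :=
  LinearMap.mk₂ ℂ (fun c m w => (bW V).coord w.1 c • m)
    (fun c c' m => by funext w; simp [add_smul])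
    (fun a c m => by funext w; simp [mul_smul])
    (fun c m m' => by funext w; simp)
    (fun a c m => by funext w; simp [smul_comm a])

lemma sg_ap (k : ℕ) (c : FA V) (m : P) (w : Wd V k) : sg k P c m w = (bW V).coord w.1 c • m := rfl

def ds (k : ℕ) (ψ : FA V →ₗ[ℂ] P →ₗ[ℂ] Z) : (Wd V k → P) →ₗ[ℂ] Z :=
  ∑ w : Wd V k, ψ (wd w.1) ∘ₗ LinearMap.proj w

lemma ds_ap (k : ℕ) (ψ : FA V →ₗ[ℂ] P →ₗ[ℂ] Z) (y : Wd V k → P) :
    ds k ψ y = ∑ w : Wd V k, ψ (wd w.1) (y w) := by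
  simp [ds]

lemma ds_sg {k : ℕ} (ψ : FA V →ₗ[ℂ] P →ₗ[ℂ] Z) {c : FA V} (hc : c ∈ Fk V k) (m : P) :
    ds k ψ (sg k P c m) = ψ c m := by
  rw [ds_ap]
  conv_rhs => rw [← sum_co hc]
  simp only [sg_ap, map_smul, map_sum, LinearMap.sum_apply, LinearMap.smul_apply]

lemma sum_sg (k : ℕ) (y : Wd V k → P) : ∑ w : Wd V k, sg k P (wd w.1) (y w) = y := by
  classical
  funext w
  rw [Finset.sum_apply, Finset.sum_eq_single w]
  · rw [sg_ap, co_self, one_smul]
  · intro w' _ h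
    rw [sg_ap, co_ne (fun h' => h (Subtype.ext h').symm), zero_smul]
  · simp

lemma wd_ext {k : ℕ} {f g : (Wd V k → P) →ₗ[ℂ] Z}
    (h : ∀ (w : Wd V k) m, f (sg k P (wd w.1) m) = g (sg k P (wd w.1) m)) (y : Wd V k → P) :
    f y = g y := by
  rw [← sum_sg k y, map_sum, map_sum]
  exact Finset.sum_congr rfl fun w _ => h w _

lemma sg_nat (k : ℕ) (f : P →ₗ[ℂ] P') (c : FA V) (m : P) :
    f.compLeft (Wd V k) (sg k P c m) = sg k P' c (f m) :=
  funext fun w => map_smul f _ m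

lemma ds_nat (k : ℕ) (ψ : FA V →ₗ[ℂ] P →ₗ[ℂ] Z) (ψ' : FA V →ₗ[ℂ] P' →ₗ[ℂ] Z')
    (f : P →ₗ[ℂ] P') (f' : Z →ₗ[ℂ] Z') (h : ∀ c m, ψ' c (f m) = f' (ψ c m)) (y : Wd V k → P) :
    ds k ψ' (f.compLeft (Wd V k) y) = f' (ds k ψ y) := by
  rw [ds_ap, ds_ap, map_sum]
  exact Finset.sum_congr rfl fun w _ => h _ _

def mu (k l : ℕ) (P : Type) [AddCommGroup P] [Module ℂ P] (x : FA V) :
    (Wd V k → P) →ₗ[ℂ] (Wd V l → P) :=
  ds k (sg l P ∘ₗ LinearMap.mulLeft ℂ x)

lemma mu_sg {k : ℕ} (l : ℕ) (x : FA V) {c : FA V} (hc : c ∈ Fk V k) (m : P) :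
    mu k l P x (sg k P c m) = sg l P (x * c) m := ds_sg _ hc m

lemma mu_nat (k l : ℕ) (x : FA V) (f : P →ₗ[ℂ] P') (y : Wd V k → P) :
    mu k l P' x (f.compLeft (Wd V k) y) = f.compLeft (Wd V l) (mu k l P x y) :=
  ds_nat k _ _ f _ (fun c m => (sg_nat l f (x * c) m).symm) y

variable [Fintype V] [DecidableEq V]

def cel (P : Type) [AddCommGroup P] [Module ℂ P] : Option V → P →ₗ[ℂ] (V → P)
  | none => 0
  | some v => LinearMap.single ℂ (fun _ => P) v

lemma cel_nat (f : P →ₗ[ℂ] P') (g : Option V) (m : P) :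
    f.compLeft V (cel P g m) = cel P' g (f m) := by
  rcases g with _ | v
  · exact map_zero _
  · funext v'
    by_cases h : v' = v
    · subst h; simp [cel]
    · simp [cel, h]

variable (b : Option V → P →ₗ[ℂ] Z)

def dl (l : ℕ) : FA V →ₗ[ℂ] (V → P) →ₗ[ℂ] (Wd V (l + 1) → Z) :=
  ∑ v : V, ((sg (l + 1) Z ∘ₗ LinearMap.mulRight ℂ (bar (some v))).compl₂ (b none ∘ₗ LinearMap.proj v)
    - (sg (l + 1) Z).compl₂ (b (some v) ∘ₗ LinearMap.proj v))

lemma dl_ap (l : ℕ) (c : FA V) (n : V → P) : dl b l c n =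
    ∑ v : V, (sg (l + 1) Z (c * bar (some v)) (b none (n v)) - sg (l + 1) Z c (b (some v) (n v))) := by
  simp [dl]

lemma dl_cel (l : ℕ) (c : FA V) (g : Option V) (m : P) :
    dl b l c (cel P g m) = sg (l + 1) Z (c * bar g) (b none m) - sg (l + 1) Z c (b g m) := by
  rcases g with _ | v
  · simp [cel, bar]
  · rw [dl_ap, Finset.sum_eq_single v]
    · simp [cel]
    · intro v' _ h; simp [cel, h]
    · simp

def dT (l : ℕ) : (Wd V l → V → P) →ₗ[ℂ] (Wd V (l + 1) → Z) := ds l (dl b l)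

lemma dT_sg {l : ℕ} {c : FA V} (hc : c ∈ Fk V l) (n : V → P) :
    dT b l (sg l _ c n) = dl b l c n := ds_sg _ hc n

lemma dT_nat (b' : Option V → P' →ₗ[ℂ] Z') (f : P →ₗ[ℂ] P') (f' : Z →ₗ[ℂ] Z')
    (h : ∀ g m, b' g (f m) = f' (b g m)) (l : ℕ) (y : Wd V l → V → P) :
    dT b' l ((f.compLeft V).compLeft _ y) = f'.compLeft _ (dT b l y) :=
  ds_nat l _ _ _ _ (fun c m => by
    rw [dl_ap, dl_ap, map_sum]
    refine Finset.sum_congr rfl fun v _ => ?_
    rw [map_sub, sg_nat, sg_nat, ← h, ← h]; rfl) y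

lemma dT_mu {k l e : ℕ} {x : FA V} (hx : x ∈ Fk V e) (h : e + k ≤ l) (y : Wd V k → V → P) :
    dT b l (mu k l _ x y) = mu (k + 1) (l + 1) _ x (dT b k y) := by
  refine wd_ext (f := dT b l ∘ₗ mu k l _ x) (g := mu (k + 1) (l + 1) _ x ∘ₗ dT b k) ?_ y
  intro w n
  have hw := wd_mem w.2
  rw [LinearMap.comp_apply, LinearMap.comp_apply, mu_sg _ _ hw, dT_sg _ (Fk_mul hx hw h),
    dT_sg _ hw, dl_ap, dl_ap, map_sum]
  refine Finset.sum_congr rfl fun v _ => ?_
  rw [map_sub, mu_sg _ _ (Fk_mul hw (bar_mem _) le_rfl), mu_sg _ _ (Fk_mono (by omega) hw),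
    mul_assoc]

section res
variable {N : Type} [AddCommGroup N] [Module ℂ N] (ν : FA V →ₐ[ℂ] Module.End ℂ N)
  (e1 : P ≃ₗ[ℂ] N) (e2 : Z ≃ₗ[ℂ] N)

def εT (k : ℕ) : (Wd V k → Z) →ₗ[ℂ] N := ds k (ν.toLinearMap.compl₂ e2.toLinearMap)

lemma εT_sg {k : ℕ} {c : FA V} (hc : c ∈ Fk V k) (m : Z) :
    εT ν e2 k (sg k Z c m) = ν c (e2 m) := ds_sg _ hc m

lemma εT_mu {k l e : ℕ} {x : FA V} (hx : x ∈ Fk V e) (h : e + k ≤ l) (y : Wd V k → Z) :
    εT ν e2 l (mu k l Z x y) = ν x (εT ν e2 k y) := by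
  refine wd_ext (f := εT ν e2 l ∘ₗ mu k l Z x) (g := ν x ∘ₗ εT ν e2 k) ?_ y
  intro w n
  have hw := wd_mem w.2
  rw [LinearMap.comp_apply, LinearMap.comp_apply, mu_sg _ _ hw, εT_sg _ _ (Fk_mul hx hw h),
    εT_sg _ _ hw, map_mul, Module.End.mul_apply]

def sw (l : ℕ) : List V → N →ₗ[ℂ] (Wd V l → V → P)
  | [] => 0
  | v :: u => sg l _ (wd (FreeMonoid.ofList u.reverse)) ∘ₗ cel P (some v) ∘ₗ e1.symm.toLinearMap
      + sw l u ∘ₗ ν (bar (some v))

def sT (l : ℕ) : (Wd V (l + 1) → Z) →ₗ[ℂ] (Wd V l → V → P) :=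
  ds (l + 1) ((bW V).constr ℂ fun w => sw ν e1 l w.toList.reverse ∘ₗ e2.toLinearMap)

lemma sT_sg (l : ℕ) (w : FreeMonoid V) (hw : w.length ≤ l + 1) (m : Z) :
    sT ν e1 e2 l (sg _ Z (wd w) m) = sw ν e1 l w.toList.reverse (e2 m) := by
  rw [sT, ds_sg _ (wd_mem hw), ← bW_ap, Module.Basis.constr_basis]; rfl

variable (hb : ∀ g m, e2 (b g m) = ν (bar g) (e1 m))
include hb

lemma εT_dT (l : ℕ) (y : Wd V l → V → P) : εT ν e2 (l + 1) (dT b l y) = 0 := by
  refine wd_ext (f := εT ν e2 (l + 1) ∘ₗ dT b l) (g := 0) ?_ y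
  intro w n
  have hw := wd_mem w.2
  rw [LinearMap.comp_apply, dT_sg _ hw, dl_ap, map_sum, LinearMap.zero_apply]
  refine Finset.sum_eq_zero fun v _ => ?_
  rw [map_sub, εT_sg _ _ (Fk_mul hw (bar_mem _) le_rfl), εT_sg _ _ (Fk_mono (by omega) hw),
    hb, hb, map_mul, Module.End.mul_apply]
  simp [bar]

lemma sT_dT (l : ℕ) (y : Wd V l → V → P) : sT ν e1 e2 l (dT b l y) = y := by
  refine wd_ext (f := sT ν e1 e2 l ∘ₗ dT b l) (g := LinearMap.id) ?_ y
  intro w n
  have hw := wd_mem w.2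
  rw [LinearMap.comp_apply, dT_sg _ hw, dl_ap, map_sum, LinearMap.id_apply]
  conv_rhs => rw [← Finset.univ_sum_single n, map_sum]
  refine Finset.sum_congr rfl fun v _ => ?_
  have h1 : wd w.1 * bar (some v) = wd (w.1 * FreeMonoid.of v) := (map_mul _ _ _).symm
  rw [map_sub, h1, sT_sg _ _ _ _ _ (by rw [FreeMonoid.length_mul]; have := w.2; simpa using this),
    sT_sg _ _ _ _ _ (w.2.trans (Nat.le_succ _)), hb, hb, FreeMonoid.toList_mul,
    FreeMonoid.toList_of, List.reverse_append, List.reverse_singleton, List.singleton_append, sw]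
  simp [bar, cel]

lemma dT_sw (l : ℕ) (u : List V) (hu : u.length ≤ l + 1) (n : N) :
    dT b l (sw ν e1 l u n) = sg _ Z (wd (FreeMonoid.ofList u.reverse)) (e2.symm n) -
      sg _ Z 1 (e2.symm (ν (wd (FreeMonoid.ofList u.reverse)) n)) := by
  induction u generalizing n with
  | nil => simp [sw]
  | cons v u ih =>
    have hu' : u.length ≤ l := by simpa using hu
    have h1 : wd (FreeMonoid.ofList (v :: u).reverse) =
        wd (FreeMonoid.ofList u.reverse) * bar (some v) := by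
      rw [List.reverse_cons, FreeMonoid.ofList_append, map_mul]; rfl
    have h2 : ∀ g m, b g m = e2.symm (ν (bar g) (e1 m)) := fun g m => by
      rw [← hb, LinearEquiv.symm_apply_apply]
    rw [sw, LinearMap.add_apply, map_add, LinearMap.comp_apply, LinearMap.comp_apply,
      LinearMap.comp_apply, ih (by omega),
      dT_sg _ (wd_mem (by simpa [FreeMonoid.length] using hu')), dl_cel, h1, h2, h2, map_mul ν]
    simp [bar]

lemma dT_sT (l : ℕ) (y : Wd V (l + 1) → Z) (hy : εT ν e2 (l + 1) y = 0) :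
    dT b l (sT ν e1 e2 l y) = y := by
  have := wd_ext (f := dT b l ∘ₗ sT ν e1 e2 l)
    (g := LinearMap.id - sg _ Z 1 ∘ₗ e2.symm.toLinearMap ∘ₗ εT ν e2 (l + 1)) (fun w m => by
      rw [LinearMap.comp_apply, sT_sg _ _ _ _ _ w.2,
        dT_sw b ν e1 e2 hb l _ (by simpa [FreeMonoid.length] using w.2)]
      simp [εT_sg _ _ (wd_mem w.2)]) y
  simpa [hy] using this

end res

end words

end Crest.Agent.H5.FD
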